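import Vale.Agent.P205.T.Sard

/-!
P205 T/Fin (about 120 lines): a constant field tangent at finitely many points.
Finite cover `(φ, K)` from `exists_fin_cover`. `u (z, ξ) = fderiv ℝ (f ∘ φ.symm) z ξ` is differentiable
on `φ.target ×ˢ univ`. By `sard4` pick `v` outside the finite union of critical images (a null set is
not `univ`). `W = {(z, ξ) | z ∈ K, u (z, ξ) = v}` is compact: there is `κ > 0` with
`κ ‖ξ‖ ≤ ‖DF z ξ‖` on `K` (minimum on `K ×ˢ sphere 0 1`, `inj_chart`, `cont_fderiv_chart`), so `W` is a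
closed subset of `K ×ˢ closedBall 0 (‖v‖ / κ)`. `finite_fiber`. If `Ind (dM f p) v` fails then (by
`ind_chart` and injectivity) `DF (φ p) ξ = v` for some `ξ`, so `p ∈ φ.symm '' (Prod.fst '' W)`.
-/

open scoped Manifold ContDiff Topology RealInnerProductSpace
open Set Filter Metric Function

noncomputable section

namespace Vale.Agent.P205.T

variable {M : Type*} [TopologicalSpace M] [ChartedSpace E2 M] [IsManifold I2 ∞ M]

theorem Fin_kappa {A : E2 → E2 →L[ℝ] E4} {K : Set E2} (hK : IsCompact K) (hA : ContinuousOn A K)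
    (hi : ∀ z ∈ K, Injective (A z)) : ∃ κ : ℝ, 0 < κ ∧ ∀ z ∈ K, ∀ ξ, κ * ‖ξ‖ ≤ ‖A z ξ‖ := by
  have hc : ContinuousOn (fun y : E2 × E2 => ‖A y.1 y.2‖) (K ×ˢ sphere 0 1) :=
    ((hA.comp continuousOn_fst fun y hy => hy.1).clm_apply continuousOn_snd).norm
  obtain ⟨κ, hκ, h⟩ := (hK.prod (isCompact_sphere (0 : E2) 1)).exists_forall_le' hc
    (a := 0) fun y hy => norm_pos_iff.2 fun e => by
      have h0 : y.2 = 0 := hi y.1 hy.1 (by rw [e, map_zero])
      have h1 := hy.2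
      rw [h0] at h1
      simp at h1
  refine ⟨κ, hκ, fun z hz ξ => ?_⟩
  rcases eq_or_ne ξ 0 with rfl | h0
  · simp
  · have hn : 0 < ‖ξ‖ := norm_pos_iff.2 h0
    have h1 := h (z, ‖ξ‖⁻¹ • ξ) ⟨hz, by
      rw [mem_sphere_zero_iff_norm, norm_smul, norm_inv, norm_norm, inv_mul_cancel₀ hn.ne']⟩
    simp only [map_smul, norm_smul, norm_inv, norm_norm] at h1
    rwa [inv_mul_eq_div, le_div_iff₀ hn] at h1

theorem Fin_one {F : E2 → E4} {O K : Set E2} (hK : IsCompact K) (hKO : K ⊆ O)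
    (hF : ∀ z ∈ O, ContDiffAt ℝ ∞ F z) (hi : ∀ z ∈ K, Injective (fderiv ℝ F z)) :
    ∃ N : Set E4, MeasureTheory.volume N = 0 ∧
      ∀ v ∉ N, {z | z ∈ K ∧ ∃ ξ, fderiv ℝ F z ξ = v}.Finite := by
  have hd : ∀ y ∈ O ×ˢ (univ : Set E2),
      DifferentiableAt ℝ (fun y : E2 × E2 => fderiv ℝ F y.1 y.2) y := fun y hy =>
    ((ind_diff (hF y.1 hy.1)).comp y differentiableAt_fst).clm_apply differentiableAt_snd
  have hA : ContinuousOn (fderiv ℝ F) K := fun z hz =>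
    (ind_diff (hF z (hKO hz))).continuousAt.continuousWithinAt
  obtain ⟨κ, hκ, h⟩ := Fin_kappa hK hA hi
  refine ⟨_, sard4 hd, fun v hv => ?_⟩
  have hS := hK.prod (isCompact_closedBall (0 : E2) (‖v‖ / κ))
  have hc : ContinuousOn (fun y : E2 × E2 => fderiv ℝ F y.1 y.2)
      (K ×ˢ closedBall (0 : E2) (‖v‖ / κ)) := fun y hy =>
    (hd y ⟨hKO hy.1, mem_univ _⟩).continuousAt.continuousWithinAt
  have hW := hS.of_isClosed_subset
    (hc.preimage_isClosed_of_isClosed hS.isClosed (isClosed_singleton (x := v))) inter_subset_left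
  have hfin := finite_fiber (u := fun y : E2 × E2 => fderiv ℝ F y.1 y.2) (v := v) hW
    fun y hy => ⟨hy.2, hd y ⟨hKO hy.1.1, mem_univ _⟩, by
      by_contra hn
      exact hv ⟨y, ⟨⟨hKO hy.1.1, mem_univ _⟩, hn⟩, hy.2⟩⟩
  refine (hfin.image Prod.fst).subset ?_
  rintro z ⟨hz, ξ, e⟩
  refine ⟨(z, ξ), ⟨⟨hz, ?_⟩, e⟩, rfl⟩
  rw [mem_closedBall_zero_iff, le_div_iff₀ hκ, ← e, mul_comm]
  exact h z hz ξ

theorem Fin_range {A : E2 →L[ℝ] E4} {v : E4} (hi : Injective A) (h : ¬ Ind A v) :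
    ∃ ξ, A ξ = v := by
  by_contra hn
  refine h fun ξ t e => ?_
  have ht : t = 0 := by
    by_contra ht
    refine hn ⟨-t⁻¹ • ξ, ?_⟩
    rw [map_smul, eq_neg_of_add_eq_zero_left e, smul_neg, neg_smul, neg_neg, smul_smul,
      inv_mul_cancel₀ ht, one_smul]
  rw [ht, zero_smul, add_zero] at e
  exact ⟨hi (by rw [e, map_zero]), ht⟩

theorem exists_fin_zero [CompactSpace M] {f : M → E4} (hf : Sm f)
    (hi : ∀ p, Injective (dM f p)) : ∃ v : E4, (Zs f fun _ => v).Finite := by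
  obtain ⟨s, hs, hcov⟩ := exists_fin_cover (M := M)
  have h1 : ∀ c : s, ∃ N : Set E4, MeasureTheory.volume N = 0 ∧
      ∀ v ∉ N, {z | z ∈ c.1.2 ∧ ∃ ξ, fderiv ℝ (f ∘ c.1.1.symm) z ξ = v}.Finite := fun c => by
    obtain ⟨a1, a2, a3⟩ := hs c.1 c.2
    exact Fin_one a3 a2 (fun z hz => hf.contDiffAt a1 hz)
      fun z hz => (inj_chart hf a1 (a2 hz)).2 (hi _)
  choose N hN hfin using h1
  have h0 : MeasureTheory.volume (⋃ c, N c) = 0 := MeasureTheory.measure_iUnion_null hN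
  obtain ⟨v, hv⟩ : ∃ v, v ∉ ⋃ c, N c := by
    by_contra hn
    push Not at hn
    rw [eq_univ_of_forall hn] at h0
    exact (isOpen_univ.measure_pos MeasureTheory.volume univ_nonempty).ne' h0
  refine ⟨v, (finite_iUnion fun c : s =>
    (hfin c v fun e => hv (mem_iUnion.2 ⟨c, e⟩)).image c.1.1.symm).subset fun p hp => ?_⟩
  obtain ⟨c, hc, hp1, hp2⟩ := hcov p
  obtain ⟨a1, -, -⟩ := hs c hc
  have ht := c.1.map_source hp1
  refine mem_iUnion.2 ⟨⟨c, hc⟩, c.1 p, ⟨interior_subset hp2, Fin_range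
    ((inj_chart hf a1 ht).2 (hi _)) ?_⟩, c.1.left_inv hp1⟩
  rw [ind_chart hf a1 ht, c.1.left_inv hp1]
  exact hp

end Vale.Agent.P205.T
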