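import Vale.Agent.P205.T.Basic

/-!
P205 T/Corr (about 130 lines): one corrugation in the direction `y`, no manifolds.
`exists_indQ_compact` on `closedBall 0 1 ×ˢ Icc 0 (2 π)` (or use `c = cos θ ∈ Icc (-1) 1` and
`Real.cos_two_mul`) gives `κ > 0` uniform in `(z, θ)`. `‖DB‖, ‖DP‖ ≤ C` on the closed ball
(`ContDiffOn.continuousOn_fderiv_of_isOpen`). With `U z = lam⁻¹ • (-(sin (2 * (lam * z 1))) • B z + sin (lam * z 1) • P z)`,
`DU z = (proj 1).smulRight ((-2 * cos (2 * θ)) • B z + cos θ • P z) + lam⁻¹ • (-(sin ..) • DB z + sin .. • DP z)`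
at `θ = lam * z 1`; the last term has norm at most `2 C / lam < κ`; `IndQ.perturb`, `IndQ.ind`.
-/

open scoped Manifold ContDiff Topology RealInnerProductSpace
open Set Filter Metric Function

noncomputable section

namespace Vale.Agent.P205.T

theorem corr_sin (k lam : ℝ) (hl : lam ≠ 0) (z : E2) :
    HasFDerivAt (fun w : E2 => lam⁻¹ * Real.sin (k * (lam * w 1)))
      ((k * Real.cos (k * (lam * z 1))) • (EuclideanSpace.proj 1 : E2 →L[ℝ] ℝ)) z := by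
  have h1 : HasFDerivAt (fun w : E2 => w 1) (EuclideanSpace.proj 1 : E2 →L[ℝ] ℝ) z :=
    (EuclideanSpace.proj 1 : E2 →L[ℝ] ℝ).hasFDerivAt
  have h2 : HasDerivAt (fun y : ℝ => lam⁻¹ * Real.sin (k * (lam * y)))
      (k * Real.cos (k * (lam * z 1))) (z 1) := by
    have h3 : HasDerivAt (fun y : ℝ => k * (lam * y)) (k * lam) (z 1) := by
      simpa using ((hasDerivAt_id (z 1)).const_mul lam).const_mul k
    have h4 := h3.sin.const_mul lam⁻¹
    have h5 : lam⁻¹ * (Real.cos (k * (lam * z 1)) * (k * lam)) =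
        k * Real.cos (k * (lam * z 1)) := by
      field_simp
    rw [h5] at h4
    exact h4
  have h6 := HasDerivAt.comp_hasFDerivAt (f := fun w : E2 => w 1) z h2 h1
  exact h6

theorem corr_smooth (k lam : ℝ) :
    ContDiff ℝ ∞ (fun w : E2 => lam⁻¹ * Real.sin (k * (lam * w 1))) := by
  have h1 : ContDiff ℝ ∞ (fun w : E2 => w 1) := (EuclideanSpace.proj 1 : E2 →L[ℝ] ℝ).contDiff
  exact contDiff_const.mul (Real.contDiff_sin.comp (contDiff_const.mul (contDiff_const.mul h1)))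

theorem corr_bd {O : Set E2} (hO : IsOpen O) (hsub : closedBall (0 : E2) 1 ⊆ O) {B : E2 → E4}
    (hB : ContDiffOn ℝ ∞ B O) : ∃ C : ℝ, ∀ z ∈ closedBall (0 : E2) 1, ‖fderiv ℝ B z‖ ≤ C :=
  (isCompact_closedBall (0 : E2) 1).exists_bound_of_continuousOn
    ((hB.continuousOn_fderiv_of_isOpen hO ind_one).mono hsub)

theorem corr_unif {O : Set E2} (hO : IsOpen O) (hsub : closedBall (0 : E2) 1 ⊆ O)
    {F B P S : E2 → E4}
    (hF : ContDiffOn ℝ ∞ F O) (hB : ContDiffOn ℝ ∞ B O) (hP : ContDiffOn ℝ ∞ P O)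
    (hS : ContinuousOn S (closedBall 0 1))
    (h : ∀ z ∈ closedBall (0 : E2) 1, ∀ θ : ℝ, Ind (fderiv ℝ F z +
      (EuclideanSpace.proj 1 : E2 →L[ℝ] ℝ).smulRight
        ((-2 * Real.cos (2 * θ)) • B z + Real.cos θ • P z)) (S z)) :
    ∃ κ : ℝ, 0 < κ ∧ ∀ z ∈ closedBall (0 : E2) 1, ∀ θ : ℝ, IndQ κ (fderiv ℝ F z +
      (EuclideanSpace.proj 1 : E2 →L[ℝ] ℝ).smulRight
        ((-2 * Real.cos (2 * θ)) • B z + Real.cos θ • P z)) (S z) := by
  have hm : MapsTo (Prod.fst : E2 × ℝ → E2) (closedBall (0 : E2) 1 ×ˢ Icc (-1 : ℝ) 1)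
      (closedBall (0 : E2) 1) := fun x hx => hx.1
  have c1 : ContinuousOn (fun x : E2 × ℝ => fderiv ℝ F x.1)
      (closedBall (0 : E2) 1 ×ˢ Icc (-1 : ℝ) 1) :=
    ((hF.continuousOn_fderiv_of_isOpen hO ind_one).mono hsub).comp continuousOn_fst hm
  have c2 : ContinuousOn (fun x : E2 × ℝ => B x.1) (closedBall (0 : E2) 1 ×ˢ Icc (-1 : ℝ) 1) :=
    (hB.continuousOn.mono hsub).comp continuousOn_fst hm
  have c3 : ContinuousOn (fun x : E2 × ℝ => P x.1) (closedBall (0 : E2) 1 ×ˢ Icc (-1 : ℝ) 1) :=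
    (hP.continuousOn.mono hsub).comp continuousOn_fst hm
  have c4 : ContinuousOn (fun x : E2 × ℝ => S x.1) (closedBall (0 : E2) 1 ×ˢ Icc (-1 : ℝ) 1) :=
    hS.comp continuousOn_fst hm
  have c5 : ContinuousOn (fun x : E2 × ℝ => (-2 * (2 * x.2 ^ 2 - 1)) • B x.1 + x.2 • P x.1)
      (closedBall (0 : E2) 1 ×ˢ Icc (-1 : ℝ) 1) := by
    have c0 : Continuous (fun x : E2 × ℝ => -2 * (2 * x.2 ^ 2 - 1)) := by fun_prop
    exact (c0.continuousOn.smul c2).add (continuous_snd.continuousOn.smul c3)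
  have c6 : Continuous (fun v : E4 => (EuclideanSpace.proj 1 : E2 →L[ℝ] ℝ).smulRight v) :=
    (ContinuousLinearMap.smulRightL ℝ E2 E4 (EuclideanSpace.proj 1 : E2 →L[ℝ] ℝ)).continuous
  have c7 : ContinuousOn (fun x : E2 × ℝ => fderiv ℝ F x.1 +
      (EuclideanSpace.proj 1 : E2 →L[ℝ] ℝ).smulRight
        ((-2 * (2 * x.2 ^ 2 - 1)) • B x.1 + x.2 • P x.1))
      (closedBall (0 : E2) 1 ×ˢ Icc (-1 : ℝ) 1) := c1.add (c6.comp_continuousOn c5)
  have c8 : ∀ x ∈ closedBall (0 : E2) 1 ×ˢ Icc (-1 : ℝ) 1, Ind (fderiv ℝ F x.1 +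
      (EuclideanSpace.proj 1 : E2 →L[ℝ] ℝ).smulRight
        ((-2 * (2 * x.2 ^ 2 - 1)) • B x.1 + x.2 • P x.1)) (S x.1) := fun x hx => by
    have h1 := h x.1 hx.1 (Real.arccos x.2)
    rw [Real.cos_two_mul, Real.cos_arccos hx.2.1 hx.2.2] at h1
    exact h1
  obtain ⟨κ, hκ, hq⟩ := exists_indQ_compact
    ((isCompact_closedBall (0 : E2) 1).prod (isCompact_Icc (a := (-1 : ℝ)) (b := 1))) c7 c4 c8
  refine ⟨κ, hκ, fun z hz θ => ?_⟩
  rw [Real.cos_two_mul]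
  exact hq (z, Real.cos θ) ⟨hz, Real.neg_one_le_cos θ, Real.cos_le_one θ⟩

theorem corrug {O : Set E2} (hO : IsOpen O) (hsub : closedBall (0 : E2) 1 ⊆ O) {F B P S : E2 → E4}
    (hF : ContDiffOn ℝ ∞ F O) (hB : ContDiffOn ℝ ∞ B O) (hP : ContDiffOn ℝ ∞ P O)
    (hS : ContinuousOn S (closedBall 0 1))
    (h : ∀ z ∈ closedBall (0 : E2) 1, ∀ θ : ℝ, Ind (fderiv ℝ F z +
      (EuclideanSpace.proj 1 : E2 →L[ℝ] ℝ).smulRight
        ((-2 * Real.cos (2 * θ)) • B z + Real.cos θ • P z)) (S z)) :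
    ∃ U : E2 → E4, ContDiffOn ℝ ∞ U O ∧ support U ⊆ support B ∪ support P ∧
      ∀ z ∈ closedBall (0 : E2) 1, Ind (fderiv ℝ (F + U) z) (S z) := by
  obtain ⟨κ, hκ, hq⟩ := corr_unif hO hsub hF hB hP hS h
  obtain ⟨C1, hC1⟩ := corr_bd hO hsub hB
  obtain ⟨C2, hC2⟩ := corr_bd hO hsub hP
  have h0 : (0 : E2) ∈ closedBall (0 : E2) 1 := mem_closedBall_self zero_le_one
  have hC1p : 0 ≤ C1 := (norm_nonneg _).trans (hC1 0 h0)
  have hC2p : 0 ≤ C2 := (norm_nonneg _).trans (hC2 0 h0)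
  obtain ⟨lam, hl, hle⟩ : ∃ lam : ℝ, 0 < lam ∧ lam⁻¹ * (C1 + C2) ≤ κ / 2 := by
    refine ⟨2 * (C1 + C2 + 1) / κ, by positivity, ?_⟩
    rw [inv_div, div_mul_eq_mul_div, div_le_iff₀ (by positivity)]
    nlinarith
  refine ⟨fun z => (lam⁻¹ * Real.sin (-2 * (lam * z 1))) • B z +
    (lam⁻¹ * Real.sin (1 * (lam * z 1))) • P z, ?_, ?_, ?_⟩
  · exact ((corr_smooth (-2) lam).contDiffOn.smul hB).add ((corr_smooth 1 lam).contDiffOn.smul hP)
  · intro z hz
    by_contra hn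
    simp only [mem_union, mem_support, not_or, not_not] at hn
    apply hz
    simp [hn.1, hn.2]
  · intro z hz
    have hzO : O ∈ 𝓝 z := hO.mem_nhds (hsub hz)
    have dF := ((hF.contDiffAt hzO).differentiableAt (by simp)).hasFDerivAt
    have dB := ((hB.contDiffAt hzO).differentiableAt (by simp)).hasFDerivAt
    have dP := ((hP.contDiffAt hzO).differentiableAt (by simp)).hasFDerivAt
    have dU := dF.add (((corr_sin (-2) lam hl.ne' z).smul dB).add
      ((corr_sin 1 lam hl.ne' z).smul dP))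
    have hs : ∀ k : ℝ, |lam⁻¹ * Real.sin (k * (lam * z 1))| ≤ lam⁻¹ := fun k => by
      rw [abs_mul, abs_of_pos (inv_pos.2 hl)]
      exact mul_le_of_le_one_right (inv_pos.2 hl).le (Real.abs_sin_le_one _)
    refine IndQ.ind (κ := κ - κ / 2) (by linarith)
      ((hq z hz (lam * z 1)).perturb ?_ (by simp; positivity))
    erw [dU.fderiv]
    have he : fderiv ℝ F z + ((lam⁻¹ * Real.sin (-2 * (lam * z 1))) • fderiv ℝ B z +
        ((-2 * Real.cos (-2 * (lam * z 1))) • (EuclideanSpace.proj 1 : E2 →L[ℝ] ℝ)).smulRight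
          (B z) + ((lam⁻¹ * Real.sin (1 * (lam * z 1))) • fderiv ℝ P z +
        ((1 * Real.cos (1 * (lam * z 1))) • (EuclideanSpace.proj 1 : E2 →L[ℝ] ℝ)).smulRight
          (P z))) - (fderiv ℝ F z + (EuclideanSpace.proj 1 : E2 →L[ℝ] ℝ).smulRight
        ((-2 * Real.cos (2 * (lam * z 1))) • B z + Real.cos (lam * z 1) • P z)) =
        (lam⁻¹ * Real.sin (-2 * (lam * z 1))) • fderiv ℝ B z +
          (lam⁻¹ * Real.sin (1 * (lam * z 1))) • fderiv ℝ P z := by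
      ext1 ξ
      simp only [sub_apply, add_apply, smul_apply,
        ContinuousLinearMap.smulRight_apply, neg_mul,
        Real.cos_neg, one_mul, smul_eq_mul]
      module
    rw [he]
    refine (norm_add_le _ _).trans ?_
    rw [norm_smul, norm_smul, Real.norm_eq_abs, Real.norm_eq_abs]
    have e1 := mul_le_mul (hs (-2)) (hC1 z hz) (norm_nonneg _) (inv_pos.2 hl).le
    have e2 := mul_le_mul (hs 1) (hC2 z hz) (norm_nonneg _) (inv_pos.2 hl).le
    linarith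

end Vale.Agent.P205.T
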