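import Vale.Agent.P205.T.KinkA
import Vale.Agent.P205.T.Corr

/-!
P205 T/Kink (about 150 lines): removing a zero of even degree.
* `kink_plane`: `A = fderiv ℝ F` (smooth on `O`: `ContDiffOn.fderiv_of_isOpen`), `α z = cz z ^ k`,
  `β : ContDiffBump 0` with radii `1/4, 1/2`, `χ : ContDiffBump 0` with radii `1/2, 3/4`. `α z ≠ 0 ∨ β z ≠ 0`
  everywhere. `R` from `kink_in` on `closedBall 0 (1/2)`. `B z = (χ z * R) • kb ..`, `P z = (χ z * R) • km ..`,
  `S z = ks ..`; on `closedBall 0 (1/2)` `χ = 1`; outside it `β = 0`, `α ≠ 0`, `kink_out` with `χ z * R`.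
  `corrug`. On the unit circle `β = 0` and `ks = N (α ^ 2)`, `pow_mul`.
* `kink`: `O = φ.target`, `F = f ∘ φ.symm`, `f' = f + push φ U` (`sm_push` with `closedBall 0 (3/4)`,
  `push_symm`: `f' ∘ φ.symm` is eventually `F + U` at points of the target), `s'` from `patch` with radius
  1, `ind_chart`; outside the disc `push_eventually_zero` and `dM_congr`.
-/

open scoped Manifold ContDiff Topology RealInnerProductSpace
open Set Filter Metric Function

noncomputable section

namespace Vale.Agent.P205.T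

variable {M : Type*} [TopologicalSpace M] [ChartedSpace E2 M] [IsManifold I2 ∞ M]

theorem kink_plane {O : Set E2} (hO : IsOpen O) (hsub : closedBall (0 : E2) 1 ⊆ O) {F : E2 → E4}
    (hF : ContDiffOn ℝ ∞ F O) {N : ℂ →L[ℝ] E4}
    (hfr : ∀ z ∈ closedBall (0 : E2) 1, Fr (fderiv ℝ F z) N) (k : ℕ) :
    ∃ U S : E2 → E4, ContDiffOn ℝ ∞ U O ∧ support U ⊆ closedBall 0 (3 / 4) ∧
      ContinuousOn S (closedBall 0 1) ∧ (∀ z ∈ sphere (0 : E2) 1, S z = N (cz z ^ (2 * k))) ∧
      ∀ z ∈ closedBall (0 : E2) 1, Ind (fderiv ℝ (F + U) z) (S z) := by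
  let β : ContDiffBump (0 : E2) := ⟨1 / 4, 1 / 2, by norm_num, by norm_num⟩
  let χ : ContDiffBump (0 : E2) := ⟨1 / 2, 3 / 4, by norm_num, by norm_num⟩
  have hA : ContDiffOn ℝ ∞ (fderiv ℝ F) O := hF.fderiv_of_isOpen hO (by simp)
  have hAy : ContDiffOn ℝ ∞ (fun z => fderiv ℝ F z ey) O := hA.clm_apply contDiffOn_const
  have hα : ContDiff ℝ ∞ fun z : E2 => cz z ^ k := (cz.toContinuousLinearEquiv.contDiff).pow k
  have hβ : ContDiff ℝ ∞ β := β.contDiff
  have hβ' : ContDiff ℝ ∞ fun z => (β z : ℂ) := Complex.ofRealCLM.contDiff.comp hβ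
  have hre : ContDiff ℝ ∞ fun z : E2 => (cz z ^ k).re := Complex.reCLM.contDiff.comp hα
  have him : ContDiff ℝ ∞ fun z : E2 => (cz z ^ k).im := Complex.imCLM.contDiff.comp hα
  have hns : ContDiff ℝ ∞ fun z : E2 => Complex.normSq (cz z ^ k) := by
    simp only [Complex.normSq_apply]
    exact (hre.mul hre).add (him.mul him)
  have hb : ContDiffOn ℝ ∞ (fun z => kb (fderiv ℝ F z) N (cz z ^ k) (β z)) O :=
    ((hns.sub (hβ.pow 2)).contDiffOn.smul hAy).add
      (N.contDiff.comp ((contDiff_const.mul hβ').mul hα)).contDiffOn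
  have hm : ContDiffOn ℝ ∞ (fun z => km (fderiv ℝ F z) N (cz z ^ k) (β z)) O :=
    (((contDiff_const.mul hβ).mul hre).contDiffOn.smul hAy).add
      (N.contDiff.comp (contDiff_const.mul ((hα.pow 2).sub (hβ'.pow 2)))).contDiffOn
  have hs : ContDiffOn ℝ ∞ (fun z => ks (fderiv ℝ F z) N (cz z ^ k) (β z)) O :=
    (((contDiff_const.mul hβ).mul him).contDiffOn.smul hAy).add
      (N.contDiff.comp ((hα.pow 2).add (hβ'.pow 2))).contDiffOn
  have s21 : closedBall (0 : E2) (1 / 2) ⊆ closedBall 0 1 :=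
    closedBall_subset_closedBall (by norm_num)
  have α0 : ∀ z : E2, z ≠ 0 → cz z ^ k ≠ 0 := fun z hz =>
    pow_ne_zero _ fun h0 => hz (cz.injective (by simpa using h0))
  obtain ⟨R, hR, hin⟩ := kink_in (isCompact_closedBall (0 : E2) (1 / 2))
    (hA.continuousOn.mono (s21.trans hsub)) hα.continuous.continuousOn
    hβ.continuous.continuousOn (fun z hz => hfr z (s21 hz)) (fun z _ => by
      by_cases hz : z = 0
      · right
        rw [hz, β.one_of_mem_closedBall (mem_closedBall_self (by norm_num [β]))]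
        exact one_ne_zero
      · exact Or.inl (α0 z hz))
  have hχ : ContDiffOn ℝ ∞ (fun z => χ z * R) O := (χ.contDiff.mul contDiff_const).contDiffOn
  obtain ⟨U, hU, hUs, hUi⟩ := corrug hO hsub hF (hχ.smul hb) (hχ.smul hm)
    (hs.continuousOn.mono hsub) (fun z hz θ => by
      by_cases h2 : z ∈ closedBall (0 : E2) (1 / 2)
      · simpa only [Pi.smul_apply', χ.one_of_mem_closedBall h2, one_mul] using hin z h2 θ
      · have h3 : β z = 0 := β.zero_of_le_dist (not_le.1 h2).le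
        simp only [Pi.smul_apply', h3]
        exact kink_out (hfr z hz) (α0 z fun h0 => h2 (by rw [h0]; simp))
          (mul_nonneg χ.nonneg hR) θ)
  refine ⟨U, _, hU, hUs.trans fun z hz => ?_, hs.continuousOn.mono hsub, fun z hz => ?_, hUi⟩
  · by_contra h2
    have h3 : χ z = 0 := χ.zero_of_le_dist (not_le.1 h2).le
    simp [h3] at hz
  · have h3 : β z = 0 := β.zero_of_le_dist (by rw [mem_sphere.1 hz]; norm_num [β])
    simp [ks, h3, pow_mul']

theorem kink [T2Space M] {f : M → E4} (hf : Sm f) {x : M} {φ : Chart M} {N : ℂ →L[ℝ] E4}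
    (hD : Disc f x φ N) {k : ℕ} {s1 : M → E4} (hs : Continuous s1)
    (h1 : ∀ z ∈ closedBall (0 : E2) 1, s1 (φ.symm z) = N (cz z ^ (2 * k))) :
    ∃ f' s' : M → E4, Sm f' ∧ Continuous s' ∧
      (∀ q ∈ φ.symm '' closedBall 0 1, Ind (dM f' q) (s' q)) ∧
      ∀ q ∉ φ.symm '' closedBall 0 1, Ind (dM f q) (s1 q) → Ind (dM f' q) (s' q) := by
  have s13 : closedBall (0 : E2) 1 ⊆ closedBall 0 3 := closedBall_subset_closedBall (by norm_num)
  have s41 : closedBall (0 : E2) (3 / 4) ⊆ closedBall 0 1 :=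
    closedBall_subset_closedBall (by norm_num)
  have s1t : closedBall (0 : E2) 1 ⊆ φ.target := s13.trans hD.sub
  obtain ⟨U, S, hU, hUs, hS, e0, hi⟩ := kink_plane φ.open_target s1t (hf.contDiffOn hD.ch)
    (fun z hz => hD.fr z (s13 hz)) k
  obtain ⟨s', hs', e1, e2⟩ := patch s1t hs hS fun z hz => by
    rw [e0 z hz, h1 z (sphere_subset_closedBall hz)]
  have hf' : Sm fun q => f q + push φ U q :=
    ContMDiff.add hf (sm_push hD.ch hU (isCompact_closedBall _ _) (s41.trans s1t) hUs)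
  refine ⟨_, s', hf', hs', ?_, fun q hq h => ?_⟩
  · rintro _ ⟨z, hz, rfl⟩
    rw [← ind_chart hf' hD.ch (s1t hz), e1 z hz]
    have h2 : (fun q => f q + push φ U q) ∘ φ.symm =ᶠ[𝓝 z] f ∘ φ.symm + U := by
      filter_upwards [φ.open_target.mem_nhds (s1t hz)] with w hw
      simp [push_symm φ U hw]
    rw [h2.fderiv_eq]
    exact hi z hz
  · have h2 : (fun q => f q + push φ U q) =ᶠ[𝓝 q] f := by
      filter_upwards [push_eventually_zero (V := E4) φ (isCompact_closedBall _ _) (s41.trans s1t)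
        fun h3 => hq (image_mono s41 h3)] with w hw
      simp [hw U hUs]
    rwa [dM_congr h2, e2 q hq]

end Vale.Agent.P205.T
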