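import Vale.Agent.P205.T.Basic

/-!
P205 T/Disc (about 100 lines): centred charts with a constant normal frame.
* `exists_fr`: the range of `A` has finrank 2, so has a complement of finrank 2 (for instance the
  orthogonal complement, `Submodule.finrank_add_finrank_orthogonal`), which is linearly equivalent to
  `ℂ` (`LinearEquiv.ofFinrankEq` or `ContinuousLinearEquiv.ofFinrankEq`, `Complex.finrank_real_complex`).
* `Fr.eventually`: `A.coprod N` is antilipschitz (`LinearMap.exists_antilipschitzWith`), so small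
  changes of `A` keep the kernel trivial.
* `exists_disc`: `φ0 = chartAt E2 x`, `small_ch` with `R = 3`; the derivative of `f ∘ ψ.symm` at `z` is
  `r • fderiv ℝ (f ∘ φ0.symm) (φ0 x + r • z)`; choose `r` small with `φ0 x + r • z` in the good
  neighbourhood for `‖z‖ ≤ 3`.
-/

open scoped Manifold ContDiff Topology RealInnerProductSpace
open Set Filter Metric Function

noncomputable section

namespace Vale.Agent.P205.T

variable {M : Type*} [TopologicalSpace M] [ChartedSpace E2 M] [IsManifold I2 ∞ M]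

theorem exists_fr {A : E2 →L[ℝ] E4} (hA : Injective A) : ∃ N : ℂ →L[ℝ] E4, Fr A N := by
  let K : Submodule ℝ E4 := (LinearMap.range A.toLinearMap)ᗮ
  have h1 : Module.finrank ℝ (LinearMap.range A.toLinearMap) = 2 := by
    rw [LinearMap.finrank_range_of_inj hA]; simp
  have h2 : Module.finrank ℝ ℂ = Module.finrank ℝ K := by
    have := Submodule.finrank_add_finrank_orthogonal (LinearMap.range A.toLinearMap)
    rw [h1, finrank_euclideanSpace_fin] at this
    rw [Complex.finrank_real_complex]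
    simp only [K]; omega
  let e : ℂ ≃L[ℝ] K := ContinuousLinearEquiv.ofFinrankEq h2
  refine ⟨K.subtypeL.comp e.toContinuousLinearMap, fun ξ u h => ?_⟩
  have h3 : (e u : E4) ∈ LinearMap.range A.toLinearMap :=
    ⟨-ξ, by
      have : (e u : E4) = -A ξ := (neg_eq_of_add_eq_zero_right h).symm
      rw [this]; simp⟩
  have h4 : (e u : E4) = 0 :=
    (Submodule.disjoint_def.1 (Submodule.orthogonal_disjoint _)) _ h3 (e u).2
  have h5 : u = 0 := e.injective (by rw [map_zero]; exact Subtype.ext h4)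
  refine ⟨hA ?_, h5⟩
  simpa [h5] using h

theorem Fr.eventually {A : E2 →L[ℝ] E4} {N : ℂ →L[ℝ] E4} (h : Fr A N) :
    ∀ᶠ B in 𝓝 A, Fr B N := by
  obtain ⟨K, hK, hA⟩ := LinearMap.exists_antilipschitzWith (A.coprod N).toLinearMap
    (LinearMap.ker_eq_bot'.2 fun a ha => Prod.ext (h a.1 a.2 ha).1 (h a.1 a.2 ha).2)
  have hK' : (0 : ℝ) < K := hK
  filter_upwards [ball_mem_nhds A (show (0 : ℝ) < (2 * (K : ℝ))⁻¹ by positivity)] with B hB ξ u e
  have h1 := hA.le_mul_dist (ξ, u) 0
  have h2 : (A.coprod N).toLinearMap (ξ, u) = (A - B) ξ := by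
    have : N u = -B ξ := (neg_eq_of_add_eq_zero_right e).symm
    simp [this, sub_eq_add_neg]
  rw [map_zero, dist_zero_right, dist_zero_right, h2] at h1
  have h3 : ‖(A - B) ξ‖ ≤ (2 * (K : ℝ))⁻¹ * ‖(ξ, u)‖ := by
    refine ((A - B).le_opNorm ξ).trans (mul_le_mul ?_ (norm_fst_le (ξ, u)) (norm_nonneg _)
      (by positivity))
    rw [mem_ball, dist_comm, dist_eq_norm] at hB
    exact hB.le
  have h4 : (K : ℝ) * ((2 * (K : ℝ))⁻¹ * ‖(ξ, u)‖) = ‖(ξ, u)‖ / 2 := by field_simp
  have h5 : ‖(ξ, u)‖ ≤ ‖(ξ, u)‖ / 2 := h1.trans (h4 ▸ mul_le_mul_of_nonneg_left h3 hK'.le)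
  have h6 : (ξ, u) = 0 := norm_le_zero_iff.1 (by linarith)
  exact ⟨congrArg Prod.fst h6, congrArg Prod.snd h6⟩

theorem exists_disc {f : M → E4} (hf : Sm f) {x : M} (hi : Injective (dM f x)) :
    ∃ (φ : Chart M) (N : ℂ →L[ℝ] E4), Disc f x φ N := by
  have hφ := isCh_chartAt (M := M) x
  have hx := mem_chart_source E2 x
  have hz := (chartAt E2 x).map_source hx
  obtain ⟨N, hN⟩ := exists_fr ((inj_chart hf hφ hz).2 (by rwa [(chartAt E2 x).left_inv hx]))
  have hc := (cont_fderiv_chart hf hφ).continuousAt ((chartAt E2 x).open_target.mem_nhds hz)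
  obtain ⟨δ, hδ, hg⟩ := Metric.eventually_nhds_iff.1
    ((hc.eventually hN.eventually).and ((chartAt E2 x).open_target.mem_nhds hz))
  obtain ⟨r, ⟨ψ, h1, h2, h3, h4, h5⟩, hr, hr'⟩ := ((small_ch hφ hx 3).and
    (Ioo_mem_nhdsGT (show (0 : ℝ) < δ / 3 by positivity))).exists
  refine ⟨ψ, N, h1, h2 ▸ hx, by rw [h3]; simp, h5, fun z hz => ?_⟩
  have hd : dist (chartAt E2 x x + r • z) (chartAt E2 x x) < δ := by
    rw [dist_eq_norm, add_sub_cancel_left, norm_smul, Real.norm_of_nonneg hr.le]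
    have := mem_closedBall_zero_iff.1 hz
    nlinarith [norm_nonneg z]
  obtain ⟨g1, g2⟩ := hg hd
  have e : f ∘ ψ.symm = (f ∘ (chartAt E2 x).symm) ∘ fun w => chartAt E2 x x + r • w := by
    funext w; simp only [comp_apply, h4]
  have d1 : HasFDerivAt (fun w : E2 => chartAt E2 x x + r • w)
      (r • ContinuousLinearMap.id ℝ E2) z := ((hasFDerivAt_id z).const_smul r).const_add _
  have d2 := (((hf.contDiffOn hφ).contDiffAt
    ((chartAt E2 x).open_target.mem_nhds g2)).differentiableAt (by simp)).hasFDerivAt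
  rw [e, (d2.comp z d1).fderiv]
  intro ξ u h
  obtain ⟨a, b⟩ := g1 (r • ξ) u h
  exact ⟨(smul_eq_zero.1 a).resolve_left hr.ne', b⟩

end Vale.Agent.P205.T
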