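import Vale.Agent.P205.T.NF
import Vale.Agent.P205.T.Disc

/-!
P205 T/Move (about 170 lines): at most one zero in each component.
* `move_zero`: `normal_form`, then `patch` with radius 1 and `S z = N' ((cz z - χ z * cz a) ^ n)`, where
  `c = φ.symm a`, `χ z = min 1 ((1 - ‖z‖) / (1 - ‖a‖))` (in `[0,1]` on the closed disc, `0` on the
  circle, `1` for `‖z‖ ≤ ‖a‖`). If `cz z = χ z * cz a` then `‖z‖ ≤ ‖a‖`, so `z = a`; elsewhere on the disc
  `Fr.ind` with `ξ = 0`.
* `one_zero`: take `s` minimising `(Zs f s).ncard` among continuous `s` with finite zero set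
  (`Nat.find` or `exists_minimalFor`-type lemma). For zeros `p ≠ q` let `Z' = Zs f s \ {p}` and
  `A = {x | x ∉ Z' ∧ ∃ s', Continuous s' ∧ Zs f s' = insert x Z'}`; `p ∈ A`, `q ∉ A`. With `B y` the open
  unit disc of `exists_disc` at `y` (an open set containing `y`): if `x ∈ B y ∩ A` and `c ∈ B y` then
  `move_zero` gives `Zs f s'' ⊆ (insert x Z' \ B y) ∪ {c} ⊆ insert c Z'`; minimality and
  `Set.eq_of_subset_of_ncard_le`, `Set.ncard_insert_le` force equality and `c ∉ Z'`; so `B y ⊆ A`.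
  Hence `A` is clopen and `IsClopen.connectedComponent_subset` gives the contradiction.
-/

open scoped Manifold ContDiff Topology RealInnerProductSpace
open Set Filter Metric Function

noncomputable section

namespace Vale.Agent.P205.T

variable {M : Type*} [TopologicalSpace M] [ChartedSpace E2 M] [IsManifold I2 ∞ M]

theorem move_zero [T2Space M] {f : M → E4} (hf : Sm f) {y : M} {φ : Chart M} {N : ℂ →L[ℝ] E4}
    (hD : Disc f y φ N) {s : M → E4} (hs : Continuous s) (hZ : (Zs f s).Finite) {c : M}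
    (hc : c ∈ φ.symm '' ball 0 1) :
    ∃ s' : M → E4, Continuous s' ∧ Zs f s' ⊆ (Zs f s \ φ.symm '' ball 0 1) ∪ {c} := by
  obtain ⟨a, ha, rfl⟩ := hc
  rw [mem_ball_zero_iff] at ha
  obtain ⟨N', hD', n, s1, hs1, hin, hout⟩ := normal_form hf hD hs hZ
  have hsub : closedBall (0 : E2) 1 ⊆ closedBall 0 3 := closedBall_subset_closedBall (by norm_num)
  set χ : E2 → ℝ := fun z => min 1 ((1 - ‖z‖) / (1 - ‖a‖)) with hχ
  have cχ : Continuous χ := continuous_const.min ((continuous_const.sub continuous_norm).div_const _)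
  have cS : Continuous fun z : E2 => N' ((cz z - (χ z : ℂ) * cz a) ^ n) :=
    N'.continuous.comp ((cz.continuous.sub
      ((Complex.continuous_ofReal.comp cχ).mul continuous_const)).pow n)
  obtain ⟨s2, hs2, h2in, h2out⟩ := patch (hsub.trans hD.sub) hs1 cS.continuousOn (fun z hz => by
    have h1 : ‖z‖ = 1 := mem_sphere_zero_iff_norm.1 hz
    have h2 : χ z = 0 := by
      simp only [hχ, h1, sub_self, zero_div]
      exact min_eq_right zero_le_one
    rw [hin z (sphere_subset_closedBall hz), h2, Complex.ofReal_zero, zero_mul, sub_zero])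
  refine ⟨s2, hs2, fun p hp => ?_⟩
  have hp' : ¬ Ind (dM f p) (s2 p) := hp
  by_cases hpc : p ∈ φ.symm '' closedBall 0 1
  · obtain ⟨z, hz, rfl⟩ := hpc
    right
    have hz1 : ‖z‖ ≤ 1 := mem_closedBall_zero_iff.1 hz
    have h0 : cz z - (χ z : ℂ) * cz a = 0 := by
      by_contra hne
      apply hp'
      have h3 := (hD'.fr z (hsub hz)).ind 0 (pow_ne_zero n hne)
      rw [map_zero, zero_add] at h3
      rw [h2in z hz]
      exact (ind_chart hf hD.ch (hD.sub (hsub hz)) _).1 h3
    have hpos : 0 < 1 - ‖a‖ := by linarith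
    have hχ0 : 0 ≤ χ z := le_min zero_le_one (div_nonneg (by linarith) hpos.le)
    have hχ1 : χ z ≤ 1 := min_le_left _ _
    have h4 : ‖z‖ = χ z * ‖a‖ := by
      have h5 := congrArg norm (sub_eq_zero.1 h0)
      rwa [norm_mul, cz.norm_map, cz.norm_map, Complex.norm_real, Real.norm_of_nonneg hχ0] at h5
    have h6 : ‖z‖ ≤ ‖a‖ := by
      rw [h4]
      exact mul_le_of_le_one_left (norm_nonneg _) hχ1
    have h7 : χ z = 1 := min_eq_left ((one_le_div hpos).2 (by linarith))
    rw [h7, Complex.ofReal_one, one_mul, sub_eq_zero] at h0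
    rw [cz.injective h0]
    exact mem_singleton _
  · left
    refine ⟨fun hI => hp' ?_, fun hb => hpc (image_mono ball_subset_closedBall hb)⟩
    rw [h2out p hpc]
    exact hout p hpc hI

theorem one_zero [T2Space M] {f : M → E4} (hf : Sm f) (hi : ∀ p, Injective (dM f p))
    {s0 : M → E4} (hs0 : Continuous s0) (hZ0 : (Zs f s0).Finite) :
    ∃ s : M → E4, Continuous s ∧ (Zs f s).Finite ∧
      ∀ p ∈ Zs f s, ∀ q ∈ Zs f s, q ∈ connectedComponent p → q = p := by
  classical
  have hex : ∃ n, ∃ s : M → E4, Continuous s ∧ (Zs f s).Finite ∧ (Zs f s).ncard = n :=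
    ⟨_, s0, hs0, hZ0, rfl⟩
  obtain ⟨s, hs, hZ, hn⟩ := Nat.find_spec hex
  have hmin : ∀ s' : M → E4, Continuous s' → (Zs f s').Finite →
      (Zs f s).ncard ≤ (Zs f s').ncard := fun s' h1 h2 => by
    rw [hn]
    exact Nat.find_min' hex ⟨s', h1, h2, rfl⟩
  refine ⟨s, hs, hZ, fun p hp q hq hqp => ?_⟩
  by_contra hne
  have hZ' : (Zs f s \ {p}).Finite := hZ.subset sdiff_subset
  have hcard : (Zs f s \ {p}).ncard + 1 = (Zs f s).ncard := ncard_sdiff_singleton_add_one hp hZ
  set Z' := Zs f s \ {p} with hZdef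
  set A : Set M := {x | x ∉ Z' ∧ ∃ s' : M → E4, Continuous s' ∧ Zs f s' = insert x Z'} with hA
  have key : ∀ y : M, ∃ B : Set M, IsOpen B ∧ y ∈ B ∧ ∀ x ∈ B, x ∈ A → B ⊆ A := fun y => by
    obtain ⟨φ, N, hD⟩ := exists_disc hf (hi y)
    have hsub : ball (0 : E2) 1 ⊆ φ.target :=
      (ball_subset_closedBall.trans (closedBall_subset_closedBall (by norm_num))).trans hD.sub
    refine ⟨φ.symm '' ball 0 1, φ.symm.isOpen_image_of_subset_source isOpen_ball hsub,
      ⟨0, mem_ball_self one_pos, by rw [← hD.ctr, φ.left_inv hD.mem]⟩, ?_⟩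
    rintro x hxB ⟨-, s', hs', he⟩ c hc
    obtain ⟨s2, hs2, hsub2⟩ := move_zero hf hD hs' (by rw [he]; exact hZ'.insert x) hc
    have h1 : Zs f s2 ⊆ insert c Z' := fun w hw => by
      rcases hsub2 hw with ⟨h2, h3⟩ | h2
      · rw [he] at h2
        rcases h2 with rfl | h2
        · exact absurd hxB h3
        · exact Or.inr h2
      · exact Or.inl h2
    have h2 := hmin s2 hs2 ((hZ'.insert c).subset h1)
    have h3 := ncard_insert_le c Z'
    refine ⟨fun hcZ => ?_, s2, hs2, eq_of_subset_of_ncard_le h1 (by omega) (hZ'.insert c)⟩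
    rw [insert_eq_of_mem hcZ] at h1
    have h4 := ncard_le_ncard h1 hZ'
    omega
  have hopen : IsOpen A := isOpen_iff_forall_mem_open.2 fun x hx => by
    obtain ⟨B, hB, hxB, h⟩ := key x
    exact ⟨B, h x hxB hx, hB, hxB⟩
  have hclosed : IsClosed A := isOpen_compl_iff.1 (isOpen_iff_forall_mem_open.2 fun y hy => by
    obtain ⟨B, hB, hyB, h⟩ := key y
    exact ⟨B, fun x hx hxA => hy (h x hx hxA hyB), hB, hyB⟩)
  have hpA : p ∈ A := ⟨fun h => h.2 rfl, s, hs, by
    rw [hZdef, insert_sdiff_singleton, insert_eq_of_mem hp]⟩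
  exact (IsClopen.connectedComponent_subset ⟨hclosed, hopen⟩ hpA hqp).1 ⟨hq, hne⟩

end Vale.Agent.P205.T
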