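import Vale.Agent.P205.T.Basic

/-!
P205 T/Smooth (about 80 lines): relative smoothing of a transverse field.
`exists_contMDiffMap_forall_mem_convex_of_local I2` with the convex sets
`t q = {w | (q ∈ K → w = s q) ∧ (q ∈ C \ K → ∀ ξ, ‖w - s q‖ < ‖s q - dM f q ξ‖)}`.
Local sections: at `p ∈ U` take `s` on `U` (`Ind` gives `s q ≠ dM f q ξ`); at `p ∉ U`, `p ∈ C` take the
constant `s p` on `Kᶜ` intersected with the set of `ind_near`; at `p ∉ U`, `p ∉ C` take `0` on `Kᶜ ∩ Cᶜ`.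
If `w ∈ t q`, `q ∈ C \ K` and `A ξ + τ • w = 0` with `τ ≠ 0` then `w = A (-τ⁻¹ • ξ)`, impossible; so
`τ = 0` and `Ind A (s q)` gives `ξ = 0`.
-/

open scoped Manifold ContDiff Topology RealInnerProductSpace
open Set Filter Metric Function

noncomputable section

namespace Vale.Agent.P205.T

variable {M : Type*} [TopologicalSpace M] [ChartedSpace E2 M] [IsManifold I2 ∞ M]

theorem smooth_rel [T2Space M] [CompactSpace M] {f s : M → E4} (hf : Sm f) (hs : Continuous s)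
    {C K U : Set M} (hC : IsClosed C) (hK : IsClosed K) (hU : IsOpen U) (hKU : K ⊆ U)
    (hsU : ContMDiffOn I2 𝓘(ℝ, E4) ∞ s U) (h : ∀ p ∈ C, p ∉ K → Ind (dM f p) (s p)) :
    ∃ s' : M → E4, Sm s' ∧ EqOn s' s K ∧ ∀ p ∈ C, p ∉ K → Ind (dM f p) (s' p) := by
  obtain ⟨g, hg⟩ := exists_contMDiffMap_forall_mem_convex_of_local (n := (⊤ : ℕ∞)) I2
    (t := fun q => {w : E4 | (q ∈ K → w = s q) ∧
      (q ∈ C → q ∉ K → ∀ ξ, ‖w - s q‖ < ‖s q - dM f q ξ‖)}) (fun q => by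
      intro a ha b hb x y hx hy hxy
      refine ⟨fun hq => ?_, fun h1 h2 ξ => ?_⟩
      · rw [ha.1 hq, hb.1 hq, ← add_smul, hxy, one_smul]
      · have := convex_ball (s q) ‖s q - dM f q ξ‖ (mem_ball_iff_norm.2 (ha.2 h1 h2 ξ))
          (mem_ball_iff_norm.2 (hb.2 h1 h2 ξ)) hx hy hxy
        exact mem_ball_iff_norm.1 this) (fun p => by
      by_cases hp : p ∈ U
      · refine ⟨U, hU.mem_nhds hp, s, hsU, fun q _ => ⟨fun _ => rfl, fun h1 h2 ξ => ?_⟩⟩
        rw [sub_self, norm_zero, norm_pos_iff]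
        intro h0
        have := (h q h1 h2 ξ (-1) (by rw [neg_one_smul, ← sub_eq_add_neg, ← neg_sub, h0, neg_zero])).2
        norm_num at this
      · have hpK : Kᶜ ∈ 𝓝 p := hK.isOpen_compl.mem_nhds fun h' => hp (hKU h')
        by_cases hc : p ∈ C
        · refine ⟨_, inter_mem hpK (ind_near hf hs (h p hc fun h' => hp (hKU h'))), fun _ => s p,
            contMDiffOn_const, fun q hq => ⟨fun h' => (hq.1 h').elim, fun _ _ => hq.2⟩⟩
        · exact ⟨_, inter_mem hpK (hC.isOpen_compl.mem_nhds hc), fun _ => 0, contMDiffOn_const,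
            fun q hq => ⟨fun h' => (hq.1 h').elim, fun h' => (hq.2 h').elim⟩⟩)
  refine ⟨g, g.contMDiff, fun q hq => (hg q).1 hq, fun q h1 h2 ξ τ e => ?_⟩
  have τ0 : τ = 0 := by
    by_contra h0
    have e1 : g q = dM f q (-τ⁻¹ • ξ) := by
      rw [map_smul, eq_neg_of_add_eq_zero_left e, smul_neg, neg_smul, neg_neg, smul_smul,
        inv_mul_cancel₀ h0, one_smul]
    have := (hg q).2 h1 h2 (-τ⁻¹ • ξ)
    rw [e1, norm_sub_rev] at this
    exact lt_irrefl _ this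
  refine ⟨(h q h1 h2 ξ 0 ?_).1, τ0⟩
  simpa [τ0] using e

end Vale.Agent.P205.T
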