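import Vale.Agent.P205.T.Parity
import Vale.Agent.P205.T.Smooth

/-!
P205 T/Odd (about 170 lines): the degree of a single zero is even.
`n = 0` is trivial. `χ : ContDiffBump (0 : E2)` with radii `1/2, 1`, `b = 1/4`,
`V z = cz z ^ n - χ z * b ^ n` (smooth). `patch` with radius 1 and `S = N ∘ V` gives `s2`.
`C = connectedComponent x` (`isClopen_comp`, `Disc.sub_comp`), `K = φ.symm '' closedBall 0 (1/2)`
(compact), `U = φ.symm '' ball 0 1` (open; there `s2 = N ∘ V ∘ φ`, `IsCh.contMDiffOn`). For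
`1/2 < ‖z‖ ≤ 1`, `V z ≠ 0` by norms, so `Fr.ind` with `ξ = 0` and `ind_chart`. `smooth_rel` gives `s'`.
On `K`: `s' (φ.symm z) = N (cz z ^ n - b ^ n)`; nonzero bracket gives `Ind`; at a root `‖z‖ = 1/4`,
`s' ∘ φ.symm` is eventually `N (cz w ^ n - b ^ n)` with derivative `η ↦ N (n * cz z ^ (n-1) * cz η)`, so
`Fr` gives `Tr` (`tr_chart` with `φ, φ`). `parity`; the zero set is
`φ.symm '' {z | cz z ^ n = b ^ n}` (`Ind A 0` is false; `N u = 0` forces `u = 0` by `Fr`);
`Set.ncard_image_of_injOn`, `root_count`.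
-/

open scoped Manifold ContDiff Topology RealInnerProductSpace
open Set Filter Metric Function

noncomputable section

namespace Vale.Agent.P205.T

variable {M : Type*} [TopologicalSpace M] [ChartedSpace E2 M] [IsManifold I2 ∞ M]

theorem odd_cd (n : ℕ) : ContDiff ℝ ∞ fun z : E2 => cz z ^ n :=
  (cz.toContinuousLinearEquiv.contDiff).pow n

theorem odd_tr {A : E2 →L[ℝ] E4} {N : ℂ →L[ℝ] E4} (h : Fr A N) {n : ℕ} (hn : n ≠ 0) {z : E2}
    (hz : cz z ≠ 0) (b : ℂ) : Tr A (fderiv ℝ (fun w : E2 => N (cz w ^ n - b)) z) := by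
  have h1 : HasFDerivAt (fun w : E2 => cz w) (cz.toContinuousLinearEquiv : E2 →L[ℝ] ℂ) z :=
    (cz.toContinuousLinearEquiv : E2 →L[ℝ] ℂ).hasFDerivAt
  have h2 := ((hasDerivAt_pow n (cz z)).hasFDerivAt.restrictScalars ℝ).comp z h1
  have h3 := N.hasFDerivAt.comp z (h2.sub_const b)
  intro ξ η e
  rw [show (fun w : E2 => N (cz w ^ n - b)) = N ∘ fun w => ((fun u : ℂ => u ^ n) ∘ cz) w - b from
    rfl, h3.fderiv] at e
  have h4 := h ξ (-(cz η * (n * cz z ^ (n - 1)))) (by rw [e]; simp)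
  refine ⟨h4.1, ?_⟩
  have h5 := h4.2
  simp only [neg_eq_zero, mul_eq_zero, Nat.cast_eq_zero, hn, false_or, pow_eq_zero_iff', hz,
    false_and, or_false] at h5
  exact cz.injective (by simpa using h5)

theorem degree_even [T2Space M] [CompactSpace M] {f : M → E4} {t : M → ℝ} (hf : Sm f) (ht : Sm t)
    (hE : ∀ x x', f x = f x' → t x = t x' → x = x') {x : M} {φ : Chart M} {N : ℂ →L[ℝ] E4}
    (hD : Disc f x φ N) {n : ℕ} {s1 : M → E4} (hs : Continuous s1)
    (h1 : ∀ z ∈ closedBall (0 : E2) 1, s1 (φ.symm z) = N (cz z ^ n))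
    (h2 : ∀ q ∈ connectedComponent x, q ∉ φ.symm '' closedBall 0 1 → Ind (dM f q) (s1 q)) :
    Even n := by
  rcases eq_or_ne n 0 with rfl | hn
  · exact Even.zero
  let χ : ContDiffBump (0 : E2) := ⟨1 / 2, 1, by norm_num, by norm_num⟩
  set b : ℂ := ((1 / 4 : ℝ) : ℂ) with hb
  have hb0 : b ≠ 0 := by simp [hb]
  have hbn : ‖b‖ = 1 / 4 := by simp [hb]
  have s13 : closedBall (0 : E2) 1 ⊆ closedBall 0 3 := closedBall_subset_closedBall (by norm_num)
  have s21 : closedBall (0 : E2) (1 / 2) ⊆ ball 0 1 := closedBall_subset_ball (by norm_num)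
  have s1t : closedBall (0 : E2) 1 ⊆ φ.target := s13.trans hD.sub
  have s2t : closedBall (0 : E2) (1 / 2) ⊆ φ.target := s21.trans (ball_subset_closedBall.trans s1t)
  have hV : ContDiff ℝ ∞ fun z : E2 => N (cz z ^ n - χ z • b ^ n) :=
    N.contDiff.comp ((odd_cd n).sub (χ.contDiff.smul contDiff_const))
  obtain ⟨s2, hs2, e1, e2⟩ := patch s1t hs hV.continuous.continuousOn (fun z hz => by
    rw [h1 z (sphere_subset_closedBall hz), χ.zero_of_le_dist (mem_sphere.1 hz).ge]
    simp)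
  have ind : ∀ z ∈ closedBall (0 : E2) 1, ∀ u : ℂ, u ≠ 0 → Ind (dM f (φ.symm z)) (N u) := by
    intro z hz u hu
    rw [← ind_chart hf hD.ch (s1t hz)]
    simpa using (hD.fr z (s13 hz)).ind 0 hu
  have hK : IsCompact (φ.symm '' closedBall 0 (1 / 2)) :=
    (isCompact_closedBall _ _).image_of_continuousOn (φ.continuousOn_symm.mono s2t)
  have hU : IsOpen (φ.symm '' ball 0 1) :=
    φ.isOpen_image_symm_of_subset_target isOpen_ball (ball_subset_closedBall.trans s1t)
  obtain ⟨s', hs', e3, e4⟩ := smooth_rel (C := connectedComponent x) hf hs2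
    isClosed_connectedComponent hK.isClosed hU (image_mono s21) (by
      have h3 : φ.symm '' ball 0 1 ⊆ φ.source := by
        rintro _ ⟨z, hz, rfl⟩
        exact φ.map_target (s1t (ball_subset_closedBall hz))
      refine ((hV.contMDiff.comp_contMDiffOn hD.ch.contMDiffOn).mono h3).congr ?_
      rintro _ ⟨z, hz, rfl⟩
      rw [e1 z (ball_subset_closedBall hz), comp_apply,
        φ.right_inv (s1t (ball_subset_closedBall hz))]) (by
      intro p hp hpK
      by_cases hp1 : p ∈ φ.symm '' closedBall 0 1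
      · obtain ⟨z, hz, rfl⟩ := hp1
        rw [e1 z hz]
        refine ind z hz _ fun h0 => ?_
        have h3 : 1 / 2 < ‖z‖ := by
          by_contra h3
          exact hpK ⟨z, by simpa using not_lt.1 h3, rfl⟩
        have h4 := congrArg norm (sub_eq_zero.1 h0)
        rw [norm_pow, norm_smul, norm_pow, hbn, cz.norm_map, Real.norm_of_nonneg χ.nonneg] at h4
        have h5 : (1 / 4 : ℝ) ^ n < ‖z‖ ^ n := pow_lt_pow_left₀ (by linarith) (by norm_num) hn
        have h6 : χ z ≤ 1 := χ.le_one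
        have h7 : (0 : ℝ) < (1 / 4) ^ n := by positivity
        nlinarith
      · rw [e2 p hp1]
        exact h2 p hp hp1)
  have e5 : ∀ z ∈ closedBall (0 : E2) (1 / 2), s' (φ.symm z) = N (cz z ^ n - b ^ n) := by
    intro z hz
    rw [e3 ⟨z, hz, rfl⟩, e1 z (ball_subset_closedBall (s21 hz)), χ.one_of_mem_closedBall hz,
      one_smul]
  have root : ∀ z : E2, cz z ^ n = b ^ n → ‖z‖ = 1 / 4 := fun z h0 => by
    have h4 := congrArg norm h0
    rw [norm_pow, norm_pow, hbn, cz.norm_map] at h4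
    exact (pow_left_inj₀ (norm_nonneg _) (by norm_num) hn).1 h4
  have hpar := parity hf hs' ht hE (isClopen_comp x) (fun p hp => by
    by_cases hpK : p ∈ φ.symm '' closedBall 0 (1 / 2)
    · obtain ⟨z, hz, rfl⟩ := hpK
      by_cases h0 : cz z ^ n = b ^ n
      · refine Or.inr ⟨by rw [e5 z hz, h0]; simp, ?_⟩
        rw [← tr_chart hf hs' hD.ch hD.ch (s2t hz) (s2t hz)]
        have h3 : s' ∘ φ.symm =ᶠ[𝓝 z] fun w => N (cz w ^ n - b ^ n) := by
          filter_upwards [isOpen_ball.mem_nhds (show z ∈ ball (0 : E2) (1 / 2) by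
            rw [mem_ball_zero_iff, root z h0]; norm_num)] with w hw using
            e5 w (ball_subset_closedBall hw)
        rw [h3.fderiv_eq]
        refine odd_tr (hD.fr z (s13 (ball_subset_closedBall (s21 hz)))) hn (fun h4 => ?_) _
        have h5 := root z h0
        rw [← cz.norm_map, h4] at h5
        norm_num at h5
      · rw [e5 z hz]
        exact Or.inl (ind z (ball_subset_closedBall (s21 hz)) _ (sub_ne_zero.2 h0))
    · exact Or.inl (e4 p hp hpK))
  have hR : {z : E2 | cz z ^ n = b ^ n} ⊆ closedBall 0 (1 / 2) := fun z hz => by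
    rw [mem_closedBall_zero_iff, root z hz]; norm_num
  have hZ : {p | p ∈ connectedComponent x ∧ s' p = 0} = φ.symm '' {z | cz z ^ n = b ^ n} := by
    ext p
    constructor
    · rintro ⟨hp, h0⟩
      by_cases hpK : p ∈ φ.symm '' closedBall 0 (1 / 2)
      · obtain ⟨z, hz, rfl⟩ := hpK
        refine ⟨z, ?_, rfl⟩
        by_contra h3
        have h4 := ind z (ball_subset_closedBall (s21 hz)) _ (sub_ne_zero.2 h3)
        rw [← e5 z hz, h0] at h4
        exact parity_not_ind _ h4
      · exact (parity_not_ind _ (h0 ▸ e4 p hp hpK)).elim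
    · rintro ⟨z, hz, rfl⟩
      refine ⟨hD.sub_comp ⟨z, ball_subset_closedBall (s21 (hR hz)), rfl⟩, ?_⟩
      rw [e5 z (hR hz), show cz z ^ n = b ^ n from hz]
      simp
  rwa [hZ, ncard_image_of_injOn (φ.symm.injOn.mono (hR.trans s2t)), root_count hn hb0] at hpar

end Vale.Agent.P205.T
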