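import Vale.Agent.P205.T.Imm
import Vale.Agent.P205.T.Fin
import Vale.Agent.P205.T.Move
import Vale.Agent.P205.T.Odd
import Vale.Agent.P205.T.Kink

/-!
Part T (topology). Statement FROZEN. See notes/P205.md.
A generic immersion `f` has a continuous field with at most one tangency in each component
(`one_zero`); the degree of this zero is even (`degree_even`), so a kink removes it (`kink`); the field
is smoothed and the components are glued.
-/

open scoped Manifold ContDiff Topology RealInnerProductSpace
open Set Filter Metric Function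

noncomputable section

namespace Vale.Agent.P205

variable {M : Type*} [TopologicalSpace M] [ChartedSpace E2 M] [IsManifold I2 ∞ M]
  [T2Space M] [CompactSpace M]

namespace T

theorem topo_cont (x : M) : ∃ f s : M → E4, Sm f ∧ Continuous s ∧
    ∀ p ∈ connectedComponent x, Ind (dM f p) (s p) := by
  obtain ⟨f, t, hf, ht, hi, hE⟩ := exists_imm (M := M)
  obtain ⟨v, hv⟩ := exists_fin_zero hf hi
  obtain ⟨s, hs, hZ, h1⟩ := one_zero hf hi continuous_const hv
  by_cases hx : ∃ p ∈ connectedComponent x, p ∈ Zs f s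
  · obtain ⟨p, hpx, hp⟩ := hx
    rw [connectedComponent_eq hpx]
    obtain ⟨φ, N0, hD0⟩ := exists_disc hf (hi p)
    obtain ⟨N, hD, n, s1, hs1, e1, e2⟩ := normal_form hf hD0 hs hZ
    have hpD : p ∈ φ.symm '' closedBall 0 1 :=
      ⟨φ p, by rw [hD.ctr]; exact mem_closedBall_self zero_le_one, φ.left_inv hD.mem⟩
    have h2 : ∀ q ∈ connectedComponent p, q ∉ φ.symm '' closedBall 0 1 →
        Ind (dM f q) (s1 q) := fun q hq hqD => e2 q hqD <| by
      by_contra hn
      exact hqD (by rwa [h1 p hp q hn hq])
    obtain ⟨k, rfl⟩ := degree_even hf ht hE hD hs1 e1 h2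
    obtain ⟨f', s', hf', hs', i1, i2⟩ := kink (k := k) hf hD hs1 (by simpa [two_mul] using e1)
    refine ⟨f', s', hf', hs', fun q hq => ?_⟩
    by_cases hqD : q ∈ φ.symm '' closedBall 0 1
    · exact i1 q hqD
    · exact i2 q hqD (h2 q hq hqD)
  · refine ⟨f, s, hf, hs, fun p hp => ?_⟩
    by_contra hn
    exact hx ⟨p, hp, hn⟩

theorem topo_comp (C : Set M) : ∃ f ν : M → E4, Sm f ∧ Sm ν ∧
    ∀ x, C = connectedComponent x → ∀ p ∈ C, Ind (dM f p) (ν p) := by
  by_cases hC : ∃ x, C = connectedComponent x
  · obtain ⟨x, rfl⟩ := hC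
    obtain ⟨f, s, hf, hs, h⟩ := topo_cont x
    obtain ⟨ν, hν, -, h'⟩ := smooth_rel (C := connectedComponent x) (K := ∅) (U := ∅) hf hs
      isClosed_connectedComponent isClosed_empty isOpen_empty subset_rfl
      (fun _ hp => hp.elim) fun p hp _ => h p hp
    exact ⟨f, ν, hf, hν, fun _ _ p hp => h' p hp (notMem_empty p)⟩
  · exact ⟨0, 0, contMDiff_const, contMDiff_const, fun x hx => (hC ⟨x, hx⟩).elim⟩

end T

theorem topo : ∃ f ν : M → E4, Sm f ∧ Sm ν ∧ ∀ p, Ind (dM f p) (ν p) := by
  choose F G hF hG h using T.topo_comp (M := M)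
  have key : ∀ (H : Set M → M → E4) (p : M),
      (fun q => H (connectedComponent q) q) =ᶠ[𝓝 p] H (connectedComponent p) := fun H p => by
    filter_upwards [(T.isClopen_comp p).isOpen.mem_nhds mem_connectedComponent] with q hq
    rw [connectedComponent_eq hq]
  refine ⟨fun q => F (connectedComponent q) q, fun q => G (connectedComponent q) q,
    fun p => (hF _ p).congr_of_eventuallyEq (key F p),
    fun p => (hG _ p).congr_of_eventuallyEq (key G p), fun p => ?_⟩
  rw [T.dM_congr (key F p)]
  exact h _ p rfl p mem_connectedComponent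

end Vale.Agent.P205
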