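import Vale.Agent.P205.T.Defs

/-!
P205 T/Basic (about 150 lines): small linear algebra and chart lemmas.
* `ind_chart`, `inj_chart`: `Sm.fderiv_comp_symm` and `dS_dM`, `dM_dS` (dS φ z is bijective).
* `Fr.coords`: `P z = (A z).coprod N : E2 × ℂ →L E4` is injective between spaces of dimension 4,
  hence invertible (`LinearMap.injective_iff_surjective_of_finrank_eq_finrank`,
  `ContinuousLinearEquiv.ofBijective` or `LinearEquiv.toContinuousLinearEquiv`); the map
  `ContinuousLinearMap.inverse` is continuous at invertible maps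
  (`ContinuousLinearMap.IsInvertible.contDiffAt_map_inverse`); take the components of
  `(P z).inverse (S z)`.
* `patch`: `D = φ.symm '' closedBall 0 r` is compact hence closed, `φ.symm '' ball 0 r` is open
  (`OpenPartialHomeomorph.isOpen_image_symm_of_subset_target` or similar); put
  `s2 = D.piecewise (S ∘ φ) s1` and use `ContinuousOn.union_of_isClosed` for `D` and the complement
  of the open disc.
* `ind_near`: read in `chartAt E2 p`, `Ind.exists_indQ`, `IndQ.perturb` (with the vector `s p`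
  fixed), continuity of `fderiv ℝ (f ∘ φ.symm)`; `dM f q ξ = fderiv .. (φ q) (dM φ q ξ)` by `Sm.dM_eq`.
-/

open scoped Manifold ContDiff Topology RealInnerProductSpace
open Set Filter Metric Function

noncomputable section

namespace Vale.Agent.P205.T

variable {M : Type*} [TopologicalSpace M] [ChartedSpace E2 M] [IsManifold I2 ∞ M]

theorem cz_re (z : E2) : (cz z).re = z 0 := by
  simp [cz, Complex.orthonormalBasisOneI_repr_symm_apply]

theorem cz_im (z : E2) : (cz z).im = z 1 := by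
  simp [cz, Complex.orthonormalBasisOneI_repr_symm_apply]

theorem Fr.ind {A : E2 →L[ℝ] E4} {N : ℂ →L[ℝ] E4} (h : Fr A N) (ξ : E2) {u : ℂ} (hu : u ≠ 0) :
    Ind A (A ξ + N u) := by
  intro η t e
  have := h (η + t • ξ) (t • u) (by
    rw [map_add, map_smul, map_smul, ← e, smul_add, add_assoc])
  have ht : t = 0 := (smul_eq_zero.1 this.2).resolve_right hu
  refine ⟨?_, ht⟩
  simpa [ht] using this.1

theorem ne_of_ind {A : E2 →L[ℝ] E4} {N : ℂ →L[ℝ] E4} {ξ : E2} {u : ℂ}
    (h : Ind A (A ξ + N u)) : u ≠ 0 := by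
  rintro rfl
  have := (h (-ξ) 1 (by simp)).2
  exact one_ne_zero this

theorem Fr.conj {A : E2 →L[ℝ] E4} {N : ℂ →L[ℝ] E4} (h : Fr A N) : Fr A (N.comp cj) := by
  intro ξ u e
  obtain ⟨h1, h2⟩ := h ξ (cj u) e
  exact ⟨h1, Complex.conjCLE.injective (h2.trans (map_zero _).symm)⟩

theorem cj_apply (u : ℂ) : cj u = (starRingEnd ℂ) u := by
  rfl

theorem Fr.coords {K : Set E2} {A : E2 → E2 →L[ℝ] E4} {N : ℂ →L[ℝ] E4} {S : E2 → E4}
    (hA : ContinuousOn A K) (hS : ContinuousOn S K) (h : ∀ z ∈ K, Fr (A z) N) :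
    ∃ (ξ : E2 → E2) (u : E2 → ℂ), ContinuousOn ξ K ∧ ContinuousOn u K ∧
      ∀ z ∈ K, S z = A z (ξ z) + N (u z) := by
  let P : E2 → (E2 × ℂ) →L[ℝ] E4 := fun z => (A z).coprod N
  have hP : ContinuousOn P K := by
    have e : P = fun z => (A z).comp (ContinuousLinearMap.fst ℝ E2 ℂ) +
        N.comp (ContinuousLinearMap.snd ℝ E2 ℂ) := by
      funext z
      ext1 <;> ext1 <;> simp [P]
    rw [e]
    exact (hA.clm_comp continuousOn_const).add continuousOn_const
  have hI : ∀ z ∈ K, (P z).IsInvertible := fun z hz => by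
    have h1 : Injective (P z) := (injective_iff_map_eq_zero _).2 fun a ha =>
      Prod.ext (h z hz a.1 a.2 ha).1 (h z hz a.1 a.2 ha).2
    have h2 : Surjective (P z) :=
      (LinearMap.injective_iff_surjective_of_finrank_eq_finrank (f := (P z).toLinearMap)
        (by simp)).1 h1
    exact ⟨(LinearEquiv.ofBijective (P z).toLinearMap ⟨h1, h2⟩).toContinuousLinearEquiv, by
      ext1 <;> ext1 <;> rfl⟩
  have hQ : ContinuousOn (fun z => (P z).inverse (S z)) K := by
    refine ContinuousOn.clm_apply (fun z hz => ?_) hS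
    exact ((hI z hz).contDiffAt_map_inverse (n := 0)).continuousAt.comp_continuousWithinAt (hP z hz)
  refine ⟨fun z => ((P z).inverse (S z)).1, fun z => ((P z).inverse (S z)).2, hQ.fst, hQ.snd,
    fun z hz => ?_⟩
  exact ((hI z hz).inverse_apply_eq.1 rfl)

theorem basic_bij {φ : Chart M} (hφ : IsCh φ) {z : E2} (hz : z ∈ φ.target) :
    Bijective (dS φ z) := by
  have h1 := dS_dM hφ (φ.map_target hz)
  have h2 := dM_dS hφ (φ.map_target hz)
  rw [φ.right_inv hz] at h1 h2
  exact ⟨LeftInverse.injective h2, RightInverse.surjective h1⟩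

theorem ind_chart {f : M → E4} (hf : Sm f) {φ : Chart M} (hφ : IsCh φ) {z : E2}
    (hz : z ∈ φ.target) (w : E4) :
    Ind (fderiv ℝ (f ∘ φ.symm) z) w ↔ Ind (dM f (φ.symm z)) w := by
  obtain ⟨h1, h2⟩ := basic_bij hφ hz
  rw [hf.fderiv_comp_symm hφ hz]
  refine ⟨fun h ξ t e => ?_, fun h ξ t e => ?_⟩
  · obtain ⟨η, rfl⟩ := h2 ξ
    obtain ⟨rfl, ht⟩ := h η t e
    exact ⟨map_zero _, ht⟩
  · obtain ⟨a, ht⟩ := h _ t e
    exact ⟨h1 (a.trans (map_zero _).symm), ht⟩

theorem inj_chart {V : Type} [NormedAddCommGroup V] [NormedSpace ℝ V] {f : M → V} (hf : Sm f)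
    {φ : Chart M} (hφ : IsCh φ) {z : E2} (hz : z ∈ φ.target) :
    Injective (fderiv ℝ (f ∘ φ.symm) z) ↔ Injective (dM f (φ.symm z)) := by
  rw [hf.fderiv_comp_symm hφ hz, ContinuousLinearMap.coe_comp']
  exact Injective.of_comp_iff' _ (basic_bij hφ hz)

theorem tr_chart {f g : M → E4} (hf : Sm f) (hg : Sm g) {φ ψ : Chart M} (hφ : IsCh φ)
    (hψ : IsCh ψ) {z w : E2} (hz : z ∈ φ.target) (hw : w ∈ ψ.target) :
    Tr (fderiv ℝ (f ∘ φ.symm) z) (fderiv ℝ (g ∘ ψ.symm) w) ↔
      Tr (dM f (φ.symm z)) (dM g (ψ.symm w)) := by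
  obtain ⟨h1, h2⟩ := basic_bij hφ hz
  obtain ⟨h3, h4⟩ := basic_bij hψ hw
  rw [hf.fderiv_comp_symm hφ hz, hg.fderiv_comp_symm hψ hw]
  refine ⟨fun h ξ η e => ?_, fun h ξ η e => ?_⟩
  · obtain ⟨ξ, rfl⟩ := h2 ξ
    obtain ⟨η, rfl⟩ := h4 η
    obtain ⟨rfl, rfl⟩ := h ξ η e
    exact ⟨map_zero _, map_zero _⟩
  · obtain ⟨a, b⟩ := h _ _ e
    exact ⟨h1 (a.trans (map_zero _).symm), h3 (b.trans (map_zero _).symm)⟩

theorem cont_fderiv_chart {V : Type} [NormedAddCommGroup V] [NormedSpace ℝ V] {f : M → V}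
    (hf : Sm f) {φ : Chart M} (hφ : IsCh φ) :
    ContinuousOn (fderiv ℝ (f ∘ φ.symm)) φ.target := by
  exact (hf.contDiffOn hφ).continuousOn_fderiv_of_isOpen φ.open_target (by simp)

omit [ChartedSpace E2 M] [IsManifold I2 ∞ M] in
theorem patch [T2Space M] {φ : Chart M} {r : ℝ} (hr : closedBall (0 : E2) r ⊆ φ.target)
    {s1 : M → E4} (hs : Continuous s1) {S : E2 → E4} (hS : ContinuousOn S (closedBall 0 r))
    (h : ∀ z ∈ sphere (0 : E2) r, S z = s1 (φ.symm z)) :
    ∃ s2 : M → E4, Continuous s2 ∧ (∀ z ∈ closedBall (0 : E2) r, s2 (φ.symm z) = S z) ∧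
      ∀ p ∉ φ.symm '' closedBall 0 r, s2 p = s1 p := by
  classical
  have hD : IsClosed (φ.symm '' closedBall (0 : E2) r) :=
    ((isCompact_closedBall _ _).image_of_continuousOn (φ.continuousOn_symm.mono hr)).isClosed
  have hO : IsOpen (φ.symm '' ball (0 : E2) r) :=
    φ.isOpen_image_symm_of_subset_target isOpen_ball (ball_subset_closedBall.trans hr)
  have e1 : ∀ z ∈ closedBall (0 : E2) r,
      (φ.symm '' closedBall (0 : E2) r).piecewise (S ∘ φ) s1 (φ.symm z) = S z := fun z hz => by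
    rw [piecewise_eq_of_mem _ _ _ (mem_image_of_mem _ hz), comp_apply, φ.right_inv (hr hz)]
  refine ⟨(φ.symm '' closedBall (0 : E2) r).piecewise (S ∘ φ) s1, ?_, e1,
    fun p hp => piecewise_eq_of_notMem _ _ _ hp⟩
  rw [← continuousOn_univ, ← union_compl_self (φ.symm '' ball (0 : E2) r)]
  refine (ContinuousOn.union_of_isClosed (s := φ.symm '' closedBall (0 : E2) r)
    (t := (φ.symm '' ball (0 : E2) r)ᶜ) ?_ ?_ hD hO.isClosed_compl).mono
    (union_subset_union_left _ (image_mono ball_subset_closedBall))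
  · refine ContinuousOn.congr (f := S ∘ φ) ?_ fun p hp => piecewise_eq_of_mem _ _ _ hp
    refine hS.comp (φ.continuousOn.mono ?_) ?_
    · rintro _ ⟨z, hz, rfl⟩
      exact φ.map_target (hr hz)
    · rintro _ ⟨z, hz, rfl⟩
      rwa [φ.right_inv (hr hz)]
  · refine hs.continuousOn.congr fun p hp => ?_
    by_cases hp' : p ∈ φ.symm '' closedBall (0 : E2) r
    · obtain ⟨z, hz, rfl⟩ := hp'
      rw [e1 z hz]
      refine h z (le_antisymm hz (not_lt.1 fun hlt => hp ⟨z, hlt, rfl⟩))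
    · exact piecewise_eq_of_notMem _ _ _ hp'

/-- Near a point of independence the fixed vector `s p` is closer to `s q` than the tangent plane. -/
theorem ind_near {f s : M → E4} (hf : Sm f) (hs : Continuous s) {p : M}
    (h : Ind (dM f p) (s p)) : ∀ᶠ q in 𝓝 p, ∀ ξ : E2, ‖s p - s q‖ < ‖s q - dM f q ξ‖ := by
  have hφ := isCh_chartAt (M := M) p
  have hp := mem_chart_source E2 p
  set φ := chartAt E2 p
  have h1 : Ind (fderiv ℝ (f ∘ φ.symm) (φ p)) (s p) := by
    rw [ind_chart hf hφ (φ.map_source hp), φ.left_inv hp]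
    exact h
  obtain ⟨κ, hκ, hQ⟩ := h1.exists_indQ
  have c1 : ContinuousAt (fun q => fderiv ℝ (f ∘ φ.symm) (φ q)) p :=
    ((cont_fderiv_chart hf hφ).continuousAt
      (φ.open_target.mem_nhds (φ.map_source hp))).comp (φ.continuousAt hp)
  filter_upwards [φ.open_source.mem_nhds hp,
    Metric.tendsto_nhds.1 c1 (κ / 2) (by positivity),
    Metric.tendsto_nhds.1 hs.continuousAt (κ / 4) (by positivity)] with q hq a b ξ
  rw [dist_eq_norm] at a b
  have k := hQ.perturb a.le (c' := s p) (by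
    rw [sub_self, norm_zero]
    positivity) (-dM φ q ξ) 1
  rw [map_neg, ← hf.dM_eq hφ hq, one_smul, abs_one, neg_add_eq_sub] at k
  have k2 := norm_sub_le_norm_sub_add_norm_sub (s p) (s q) (dM f q ξ)
  rw [norm_sub_rev] at b
  nlinarith [norm_nonneg (-dM φ q ξ)]

omit [IsManifold I2 ∞ M] in
theorem dM_congr {f g : M → E4} {p : M} (h : f =ᶠ[𝓝 p] g) : dM f p = dM g p := by
  exact h.mfderiv_eq

omit [IsManifold I2 ∞ M] in
/-- The closed unit disc of a centred chart lies in the component of the centre. -/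
theorem Disc.sub_comp {f : M → E4} {x : M} {φ : Chart M} {N : ℂ →L[ℝ] E4} (h : Disc f x φ N) :
    φ.symm '' closedBall 0 1 ⊆ connectedComponent x := by
  have h1 : closedBall (0 : E2) 1 ⊆ φ.target :=
    (closedBall_subset_closedBall (by norm_num)).trans h.sub
  refine ((convex_closedBall (0 : E2) 1).isPreconnected.image _
    (φ.continuousOn_symm.mono h1)).subset_connectedComponent ⟨0, by simp, ?_⟩
  rw [← h.ctr, φ.left_inv h.mem]

omit [IsManifold I2 ∞ M] in
theorem isClopen_comp (x : M) : IsClopen (connectedComponent x) := by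
  have := ChartedSpace.locallyConnectedSpace E2 M
  exact isClopen_connectedComponent

end Vale.Agent.P205.T
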