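import Vale.Agent.P205.T.Defs

/-!
P205 T/CLog (about 120 lines): logarithm of a loop, no manifolds.
`γ θ = u (r * exp (θ * I))` is continuous and nonzero on `ℝ`;
`Complex.exists_continuousOn_eqOn_exp_comp` on `univ` (simply connected: contractible) gives `H` with
`exp (H θ) = γ θ`. `(H (θ + 2π) - H θ) / (2π I)` is continuous with integer values
(`Complex.exp_eq_one_iff`), hence a constant `d : ℤ` (`IsPreconnected.constant`-type lemma, or
`IsLocallyConstant`). `g θ = H θ - d * (log r + θ * I)` is continuous and `2π` periodic; it descends to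
`Real.Angle` (`Function.Periodic.lift`, continuity by `Continuous.quotient_liftOn'` as in
`Real.Angle.continuous_sin`), and `G z = lift (arg z : Real.Angle)` is continuous off `0`
(`Complex.continuousAt_arg_coe_angle`). On the circle `z = r * exp (arg z * I)`
(`Complex.norm_mul_exp_arg_mul_I`) so `u z = exp (G z) * z ^ d`. For `d ≥ 0` done. For `d = -n`:
`conj (u z) = exp (conj (G z)) * (conj z)⁻¹ ^ n` and `(conj z)⁻¹ = z / r ^ 2`, so use
`conj (G z) - n * log (r ^ 2)`.
-/

open scoped Manifold ContDiff Topology RealInnerProductSpace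
open Set Filter Metric Function

noncomputable section

namespace Vale.Agent.P205.T

theorem CLog_int {r : ℝ} (hr : 0 < r) {u : ℂ → ℂ} (hu : ContinuousOn u (sphere 0 r))
    (h0 : ∀ z ∈ sphere (0 : ℂ) r, u z ≠ 0) : ∃ (G : ℂ → ℂ) (d : ℤ), ContinuousOn G {0}ᶜ ∧
      ∀ z ∈ sphere (0 : ℂ) r, u z = Complex.exp (G z) * z ^ d := by
  have hm : ∀ θ : ℝ, (r : ℂ) * Complex.exp (θ * Complex.I) ∈ sphere (0 : ℂ) r := fun θ => by
    simp [Complex.norm_exp_ofReal_mul_I, abs_of_pos hr]
  have hγ : Continuous fun θ : ℝ => u (r * Complex.exp (θ * Complex.I)) :=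
    hu.comp_continuous (by fun_prop) hm
  have hs : IsSimplyConnected (univ : Set ℝ) := by
    have := (convex_univ (𝕜 := ℝ) (E := ℝ)).contractibleSpace univ_nonempty
    exact SimplyConnectedSpace.ofContractible _
  obtain ⟨H, hH, hE⟩ := Complex.exists_continuousOn_eqOn_exp_comp hs isOpen_univ hγ.continuousOn
    (by
      rintro ⟨θ, -, e⟩
      exact h0 _ (hm θ) e)
  have hH' : Continuous H := continuousOn_univ.1 hH
  have hE' : ∀ θ, Complex.exp (H θ) = u (r * Complex.exp (θ * Complex.I)) :=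
    fun θ => hE (mem_univ θ)
  have hk : ∀ θ, ∃ d : ℤ, H (θ + 2 * Real.pi) - H θ = d * (2 * Real.pi * Complex.I) := fun θ => by
    rw [← Complex.exp_eq_one_iff, Complex.exp_sub, hE', hE', div_eq_one_iff_eq (h0 _ (hm θ))]
    push_cast
    rw [add_mul, Complex.exp_add, Complex.exp_two_pi_mul_I, mul_one]
  obtain ⟨d, hd⟩ := hk 0
  have hc : Continuous fun θ => H (θ + 2 * Real.pi) - H θ := by fun_prop
  have hd' : ∀ θ, H (θ + 2 * Real.pi) - H θ = d * (2 * Real.pi * Complex.I) := fun θ => by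
    rw [← hd]
    refine (countable_range fun d : ℤ => d * (2 * Real.pi * Complex.I)).isTotallyDisconnected
      _ ?_ (isPreconnected_range hc) (mem_range_self θ) (mem_range_self 0)
    rintro _ ⟨x, rfl⟩
    obtain ⟨e, he⟩ := hk x
    exact ⟨e, he.symm⟩
  have hp : Periodic (fun θ : ℝ => H θ - d * (Real.log r + θ * Complex.I)) (2 * Real.pi) :=
    fun θ => by
      have := hd' θ
      push_cast
      linear_combination this
  have hg : Continuous fun θ : ℝ => H θ - d * (Real.log r + θ * Complex.I) := by fun_prop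
  have hl : Continuous fun a : Real.Angle => hp.lift a := hg.quotient_liftOn' _
  refine ⟨fun z => hp.lift (z.arg : Real.Angle), d, fun z hz => ?_, fun z hz => ?_⟩
  · exact (hl.continuousAt.comp (Complex.continuousAt_arg_coe_angle hz)).continuousWithinAt
  · have e : (r : ℂ) * Complex.exp (z.arg * Complex.I) = z := by
      rw [← mem_sphere_zero_iff_norm.1 hz]
      exact Complex.norm_mul_exp_arg_mul_I z
    have e2 : Complex.exp (d * (Real.log r + z.arg * Complex.I)) = z ^ d := by
      rw [Complex.exp_int_mul, Complex.exp_add, ← Complex.ofReal_exp, Real.exp_log hr, e]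
    change u z = Complex.exp (H z.arg - d * (Real.log r + z.arg * Complex.I)) * z ^ d
    rw [← e2, ← Complex.exp_add, sub_add_cancel, hE', e]

theorem circle_log {r : ℝ} (hr : 0 < r) {u : ℂ → ℂ} (hu : ContinuousOn u (sphere 0 r))
    (h0 : ∀ z ∈ sphere (0 : ℂ) r, u z ≠ 0) :
    ∃ (G : ℂ → ℂ) (n : ℕ), ContinuousOn G {0}ᶜ ∧
      ((∀ z ∈ sphere (0 : ℂ) r, u z = Complex.exp (G z) * z ^ n) ∨
        ∀ z ∈ sphere (0 : ℂ) r, (starRingEnd ℂ) (u z) = Complex.exp (G z) * z ^ n) := by
  obtain ⟨G, d, hG, h⟩ := CLog_int hr hu h0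
  obtain ⟨n, rfl | rfl⟩ := d.eq_nat_or_neg
  · exact ⟨G, n, hG, Or.inl fun z hz => by rw [h z hz, zpow_natCast]⟩
  · refine ⟨fun z => (starRingEnd ℂ) (G z) - n * (Real.log (r ^ 2) : ℝ), n,
      (Complex.continuous_conj.comp_continuousOn hG).sub continuousOn_const,
      Or.inr fun z hz => ?_⟩
    have hn := mem_sphere_zero_iff_norm.1 hz
    have e : z * (starRingEnd ℂ) z = ((r ^ 2 : ℝ) : ℂ) := by
      rw [Complex.mul_conj, Complex.normSq_eq_norm_sq, hn]
    have hz0 : z ≠ 0 := norm_pos_iff.1 (hn ▸ hr)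
    have hc : (starRingEnd ℂ) z ≠ 0 := (map_ne_zero _).2 hz0
    rw [h z hz, map_mul, ← Complex.exp_conj, map_zpow₀, zpow_neg, zpow_natCast, Complex.exp_sub,
      Complex.exp_nat_mul, ← Complex.ofReal_exp, Real.exp_log (by positivity), ← e, mul_pow]
    field_simp

end Vale.Agent.P205.T
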