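import Vale.Agent.P205.Api.Ten
import Vale.Agent.P205.Api.Cross

/-!
P205 part T shared definitions (owner helper66). FROZEN.
-/

open scoped Manifold ContDiff Topology RealInnerProductSpace
open Set Filter Metric Function

noncomputable section

namespace Vale.Agent.P205.T

/-- The plane as the complex line. -/
def cz : E2 ≃ₗᵢ[ℝ] ℂ := Complex.orthonormalBasisOneI.repr.symm

/-- `A` and `N` together form a frame of `E4`. -/
def Fr (A : E2 →L[ℝ] E4) (N : ℂ →L[ℝ] E4) : Prop :=
  ∀ (ξ : E2) (u : ℂ), A ξ + N u = 0 → ξ = 0 ∧ u = 0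

/-- Two injective maps with transverse ranges. -/
def Tr (A B : E2 →L[ℝ] E4) : Prop := ∀ ξ η : E2, A ξ = B η → ξ = 0 ∧ η = 0

/-- Complex conjugation as a real continuous linear map. -/
def cj : ℂ →L[ℝ] ℂ := Complex.conjCLE

variable {M : Type*} [TopologicalSpace M] [ChartedSpace E2 M]

/-- The points where `s` is tangent to `f`. -/
def Zs (f s : M → E4) : Set M := {p | ¬ Ind (dM f p) (s p)}

/-- A chart centred at `x` with a constant normal frame on the disc of radius 3. -/
structure Disc (f : M → E4) (x : M) (φ : Chart M) (N : ℂ →L[ℝ] E4) : Prop where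
  ch : IsCh φ
  mem : x ∈ φ.source
  ctr : φ x = 0
  sub : closedBall (0 : E2) 3 ⊆ φ.target
  fr : ∀ z ∈ closedBall (0 : E2) 3, Fr (fderiv ℝ (f ∘ φ.symm) z) N

end Vale.Agent.P205.T
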