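import Vale.Agent.P205.T.Defs
import Vale.Agent.P173.Deg

/-!
P205 T/DegLin (about 90 lines): the degree of P173 takes the values `± c` on invertible affine maps.
Copy the construction of `P173.exists_degree` (file `Vale/Agent/P173/Deg.lean`): `borel E`,
`μ = Measure.addHaar`, `Θ` from `exists_theta`, `D.deg = degFun μ Θ`; `c = ∫ y, (fderiv ℝ Θ y).det ∂μ > 0`
(continuous, nonnegative, compact support, positive at 0:
`Continuous.integral_pos_of_hasCompactSupport_nonneg_nonzero`). Given `Ω, x0, A`: `A` is invertible so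
antilipschitz, `ball x0 δ ⊆ Ω`; take `k > 0` with `1 < ‖k • A (x - x0)‖` for all `x ∉ Ω`; this `k` is
`DegGood`, `degFun_eq`; the integrand `(fderiv Θ (g x)).det * (k • A).det`, `g x = k • A (x - x0)`,
vanishes off `Ω` (`setIntegral_eq_integral_of_forall_compl_eq_zero`); change of variables
`integral_image_eq_integral_abs_det_fderiv_smul` on `univ` for the bijection `g` gives
`c = ∫ |det (k • A)| • φ (g x)`; split on the sign of the determinant.
-/

open scoped Manifold ContDiff Topology RealInnerProductSpace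
open Set Filter Metric Function

noncomputable section

namespace Vale.Agent.P205.T

variable {E : Type} [NormedAddCommGroup E] [NormedSpace ℝ E] [FiniteDimensional ℝ E]

/-- The degree of an invertible affine map is `± c`. -/
def DegLin (D : P173.Degree E) (c : ℝ) : Prop :=
  ∀ (Ω : Set E) (x0 : E) (A : E →L[ℝ] E), IsOpen Ω → Bornology.IsBounded Ω → x0 ∈ Ω →
    A.det ≠ 0 → D.deg Ω (fun x => A (x - x0)) = c ∨ D.deg Ω (fun x => A (x - x0)) = -c

theorem DegLin_scale {Ω : Set E} {x0 : E} (A : E →L[ℝ] E) (ho : IsOpen Ω) (hx : x0 ∈ Ω)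
    (hA : A.det ≠ 0) : ∃ k : ℝ, 0 < k ∧ ∀ x, x ∉ Ω → 1 < ‖k • A (x - x0)‖ := by
  obtain ⟨δ, hδ, hb⟩ := Metric.isOpen_iff.1 ho x0 hx
  let e := A.toContinuousLinearEquivOfDetNeZero hA
  have he : ∀ v, ‖v‖ ≤ ‖(e.symm : E →L[ℝ] E)‖ * ‖A v‖ := fun v => by
    have h1 : e.symm (A v) = v := e.symm_apply_apply v
    calc ‖v‖ = ‖(e.symm : E →L[ℝ] E) (A v)‖ := by
          rw [ContinuousLinearEquiv.coe_coe, h1]
      _ ≤ _ := ContinuousLinearMap.le_opNorm _ _
  set C := ‖(e.symm : E →L[ℝ] E)‖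
  have hC : 0 ≤ C := norm_nonneg _
  refine ⟨(C + 1) / δ, by positivity, fun x hxΩ => ?_⟩
  have h1 : δ ≤ ‖x - x0‖ := by
    by_contra h
    exact hxΩ (hb (by rw [mem_ball, dist_eq_norm]; exact not_le.1 h))
  have h2 := he (x - x0)
  have h3 : 0 < ‖A (x - x0)‖ := by
    rcases (norm_nonneg (A (x - x0))).lt_or_eq with h | h
    · exact h
    · rw [← h, mul_zero] at h2
      linarith
  rw [norm_smul, Real.norm_of_nonneg (by positivity), div_mul_eq_mul_div, lt_div_iff₀ hδ]
  nlinarith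

theorem DegLin_cov [MeasurableSpace E] [BorelSpace E] (μ : MeasureTheory.Measure E)
    [μ.IsAddHaarMeasure] (φ : E → ℝ) (B : E →L[ℝ] E) (hB : B.det ≠ 0) (x0 : E) :
    ∫ y, φ y ∂μ = ∫ x, |B.det| * φ (B (x - x0)) ∂μ := by
  let e := B.toContinuousLinearEquivOfDetNeZero hB
  have hd : ∀ x ∈ (univ : Set E), HasFDerivWithinAt (fun x => B (x - x0)) B univ x := fun x _ => by
    have h := B.hasFDerivAt.comp x ((hasFDerivAt_id x).sub_const x0)
    rw [ContinuousLinearMap.comp_id] at h
    exact h.hasFDerivWithinAt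
  have hi : InjOn (fun x => B (x - x0)) univ := fun x _ y _ h =>
    sub_left_injective (e.injective h)
  have hs : (fun x => B (x - x0)) '' univ = univ := by
    refine eq_univ_of_forall fun y => ⟨e.symm y + x0, mem_univ _, ?_⟩
    show B (e.symm y + x0 - x0) = y
    rw [add_sub_cancel_right]
    exact e.apply_symm_apply y
  have h := MeasureTheory.integral_image_eq_integral_abs_det_fderiv_smul μ MeasurableSet.univ hd hi φ
  rw [hs, MeasureTheory.Measure.restrict_univ] at h
  exact h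

theorem exists_degLin (E : Type) [NormedAddCommGroup E] [NormedSpace ℝ E]
    [FiniteDimensional ℝ E] : ∃ (D : P173.Degree E) (c : ℝ), c ≠ 0 ∧ DegLin D c := by
  let _ : MeasurableSpace E := borel E
  have : BorelSpace E := ⟨rfl⟩
  obtain ⟨Θ, hΘ, h1, h2, h0⟩ := P173.exists_theta E
  let μ : MeasureTheory.Measure E := MeasureTheory.Measure.addHaar
  have hc : Continuous fun y => (fderiv ℝ Θ y).det :=
    ContinuousLinearMap.continuous_det.comp (hΘ.continuous_fderiv one_ne_zero)
  have hs : HasCompactSupport fun y => (fderiv ℝ Θ y).det :=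
    HasCompactSupport.intro (isCompact_closedBall (0 : E) 1) fun y hy =>
      h0 y (by rw [mem_closedBall_zero_iff] at hy; exact (not_le.1 hy).le)
  have hpos : 0 < ∫ y, (fderiv ℝ Θ y).det ∂μ :=
    hc.integral_pos_of_hasCompactSupport_nonneg_nonzero hs h1 h2.ne'
  refine ⟨⟨P173.degFun μ Θ, fun Ω y => P173.degFun_norm _ hΘ h0 h1 h2 y,
    fun Ω H => P173.degFun_htpy _ hΘ h0 H, fun Ω Ω₁ Ω₂ f => P173.degFun_add _ hΘ h0⟩,
    ∫ y, (fderiv ℝ Θ y).det ∂μ, hpos.ne', fun Ω x0 A ho hb hx hA => ?_⟩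
  obtain ⟨k, hk, hk1⟩ := DegLin_scale A ho hx hA
  have hg : P173.DegGood Ω (fun x => A (x - x0)) k :=
    ⟨hk, fun x hx => hk1 x (by rw [ho.frontier_eq] at hx; exact hx.2)⟩
  have hB : (k • A).det ≠ 0 := by
    show LinearMap.det (k • (A : E →ₗ[ℝ] E)) ≠ 0
    rw [LinearMap.det_smul]
    exact mul_ne_zero (pow_pos hk _).ne' hA
  have hf : ContDiff ℝ 1 fun x => k • A (x - x0) := by fun_prop
  have hd : ∀ x, (fderiv ℝ (Θ ∘ fun x => k • A (x - x0)) x).det =
      (k • A).det * (fderiv ℝ Θ ((k • A) (x - x0))).det := fun x => by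
    have h := (k • A).hasFDerivAt.comp x ((hasFDerivAt_id x).sub_const x0)
    rw [ContinuousLinearMap.comp_id] at h
    have h' : fderiv ℝ (fun x => k • A (x - x0)) x = k • A := h.fderiv
    rw [P173.deg_det_comp hΘ isOpen_univ hf.contDiffOn (mem_univ x), h', mul_comm]
    rfl
  show P173.degFun μ Θ Ω _ = _ ∨ P173.degFun μ Θ Ω _ = _
  rw [P173.degFun_eq μ hΘ h0 ho hb (by fun_prop) (by fun_prop) hg,
    MeasureTheory.setIntegral_eq_integral_of_forall_compl_eq_zero fun x hx => by
      rw [hd, h0 ((k • A) (x - x0)) (hk1 x hx).le, mul_zero],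
    DegLin_cov μ (fun y => (fderiv ℝ Θ y).det) (k • A) hB x0]
  simp only [hd]
  rcases lt_or_gt_of_ne hB with h | h
  · right
    rw [abs_of_neg h, ← MeasureTheory.integral_neg]
    simp only [neg_mul, neg_neg]
  · left
    rw [abs_of_pos h]

end Vale.Agent.P205.T
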