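import Vale.Agent.P205.T.DegLin

/-!
P205 T/DegPar (about 140 lines): the degree counts regular zeros modulo 2.
API of the degree: `Vale/Agent/P173/DegDefs.lean` (`Degree.add`, `excise`, `segment`, `empty`).
* `deg_count`: induction on the number of zeros, generalising `Ω`. No zero: `excise` to `∅`. Otherwise
  take a zero `x0`, `A = fderiv ℝ u x0` invertible (antilipschitz), `r > 0` with
  `closedBall x0 r ⊆ Ω` and `‖u x - A (x - x0)‖ < ‖A (x - x0)‖` for `x ≠ x0` in it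
  (`HasFDerivAt.isLittleO`). `Ω₁ = ball x0 r`, `Ω₂ = Ω \ closedBall x0 r`; `Degree.add`; `segment` on
  `Ω₁` compares `u` with `A (· - x0)`; the zeros of `Ω₂` are the old ones without `x0`
  (`Set.ncard_diff_singleton_add_one`), and `x0 ∉ closure Ω₂`.
* `deg_parity`: `segment` (on the frontier the segment is constant), then cancel `c`.
-/

open scoped Manifold ContDiff Topology RealInnerProductSpace
open Set Filter Metric Function

noncomputable section

namespace Vale.Agent.P205.T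

variable {E : Type} [NormedAddCommGroup E] [NormedSpace ℝ E] [FiniteDimensional ℝ E]

theorem degPar_ball {Ω : Set E} (ho : IsOpen Ω) {u : E → E} (hu : ContDiffOn ℝ 1 u Ω) {x0 : E}
    (hx : x0 ∈ Ω) (h0 : u x0 = 0) (hd : (fderiv ℝ u x0).det ≠ 0) :
    ∃ r : ℝ, 0 < r ∧ closedBall x0 r ⊆ Ω ∧ ∀ x ∈ closedBall x0 r, x ≠ x0 →
      ‖u x - fderiv ℝ u x0 (x - x0)‖ < ‖fderiv ℝ u x0 (x - x0)‖ := by
  obtain ⟨K, hK0, hK⟩ := LinearMap.exists_antilipschitzWith (fderiv ℝ u x0 : E →ₗ[ℝ] E) (by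
    by_contra hn
    exact hd (LinearMap.det_eq_zero_iff_ker_ne_bot.2 hn))
  have hK' : (0 : ℝ) < K := hK0
  have h1 := ((hu.contDiffAt (ho.mem_nhds hx)).differentiableAt
    one_ne_zero).hasFDerivAt.isLittleO.def (c := (2 * (K : ℝ))⁻¹) (by positivity)
  obtain ⟨r, hr, h2⟩ := nhds_basis_closedBall.mem_iff.1 (inter_mem (ho.mem_nhds hx) h1)
  refine ⟨r, hr, fun x hx => (h2 hx).1, fun x hx hne => ?_⟩
  have h3 : ‖u x - u x0 - fderiv ℝ u x0 (x - x0)‖ ≤ (2 * (K : ℝ))⁻¹ * ‖x - x0‖ := (h2 hx).2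
  have h4 : ‖x - x0‖ ≤ K * ‖fderiv ℝ u x0 (x - x0)‖ := hK.le_mul_norm (map_zero _) (x - x0)
  have h5 : 0 < ‖x - x0‖ := norm_pos_iff.2 (sub_ne_zero.2 hne)
  rw [h0, sub_zero] at h3
  have h6 : 0 < ‖fderiv ℝ u x0 (x - x0)‖ := pos_of_mul_pos_right (h5.trans_le h4) hK'.le
  calc _ ≤ (2 * (K : ℝ))⁻¹ * (K * ‖fderiv ℝ u x0 (x - x0)‖) := h3.trans (by gcongr)
    _ = ‖fderiv ℝ u x0 (x - x0)‖ / 2 := by field_simp
    _ < _ := by linarith

omit [FiniteDimensional ℝ E] in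
theorem degPar_ne {a b : E} (h : ‖a - b‖ < ‖b‖) {t : ℝ} (ht : t ∈ Icc (0 : ℝ) 1) :
    (1 - t) • a + t • b ≠ 0 := by
  intro h0
  have h1 : b = (1 - t) • (b - a) := by
    rw [smul_sub, eq_neg_of_add_eq_zero_left h0]
    module
  have h2 := congrArg norm h1
  rw [norm_smul, norm_sub_rev b, Real.norm_of_nonneg (by linarith [ht.2])] at h2
  nlinarith [ht.1, norm_nonneg (a - b)]

theorem deg_count {D : P173.Degree E} {c : ℝ} (hD : DegLin D c) {Ω : Set E} (ho : IsOpen Ω)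
    (hb : Bornology.IsBounded Ω) {u : E → E} (hu : ContDiffOn ℝ 1 u Ω)
    (hc : ContinuousOn u (closure Ω)) (hz : ∀ x ∈ closure Ω, u x = 0 → x ∈ Ω)
    (hfin : {x | x ∈ Ω ∧ u x = 0}.Finite) (hreg : ∀ x ∈ Ω, u x = 0 → (fderiv ℝ u x).det ≠ 0) :
    ∃ m : ℤ, D.deg Ω u = m * c ∧ (Even m ↔ Even {x | x ∈ Ω ∧ u x = 0}.ncard) := by
  induction hn : {x | x ∈ Ω ∧ u x = 0}.ncard generalizing Ω with
  | zero =>
    rw [ncard_eq_zero hfin] at hn
    refine ⟨0, ?_, by simp⟩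
    rw [D.excise ho hb isOpen_empty (empty_subset _) hu hc fun x hx h0 => hn ▸ ⟨hz x hx h0, h0⟩,
      D.empty]
    simp
  | succ n ih =>
    obtain ⟨x0, hx, h0⟩ := nonempty_of_ncard_ne_zero (s := {x | x ∈ Ω ∧ u x = 0})
      (by omega)
    obtain ⟨r, hr, hs, hlt⟩ := degPar_ball ho hu hx h0 (hreg x0 hx h0)
    have uniq : ∀ x ∈ closedBall x0 r, u x = 0 → x = x0 := fun x hx h1 => by
      by_contra hne
      have := hlt x hx hne
      rw [h1, zero_sub, norm_neg] at this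
      exact lt_irrefl _ this
    have o2 : IsOpen (Ω \ closedBall x0 r) := ho.sdiff isClosed_closedBall
    have c2 : closure (Ω \ closedBall x0 r) ⊆ closure Ω := closure_mono sdiff_subset
    have n2 : x0 ∉ closure (Ω \ closedBall x0 r) := fun h => by
      obtain ⟨y, h1, h2⟩ := mem_closure_iff.1 h _ isOpen_ball (mem_ball_self hr)
      exact h2.2 (ball_subset_closedBall h1)
    have e2 : {x | x ∈ Ω \ closedBall x0 r ∧ u x = 0} = {x | x ∈ Ω ∧ u x = 0} \ {x0} := by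
      ext x
      constructor
      · rintro ⟨h1, h2⟩
        exact ⟨⟨h1.1, h2⟩, fun h3 => h1.2 (by rw [h3]; exact mem_closedBall_self hr.le)⟩
      · rintro ⟨⟨h1, h2⟩, h3⟩
        exact ⟨⟨h1, fun h4 => h3 (uniq x h4 h2)⟩, h2⟩
    obtain ⟨m, hm, hm'⟩ := ih o2 (hb.subset sdiff_subset) (hu.mono sdiff_subset) (hc.mono c2)
      (fun x h1 h2 => ⟨hz x (c2 h1) h2, fun h4 => n2 (uniq x h4 h2 ▸ h1)⟩)
      (by rw [e2]; exact hfin.sdiff) (fun x h1 => hreg x h1.1) (by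
        have := ncard_sdiff_singleton_add_one (s := {x | x ∈ Ω ∧ u x = 0}) ⟨hx, h0⟩ hfin
        rw [e2]
        omega)
    have bs : ball x0 r ⊆ Ω := ball_subset_closedBall.trans hs
    have ha := D.add Ω (ball x0 r) (Ω \ closedBall x0 r) u ho hb isOpen_ball o2 bs sdiff_subset
      (disjoint_left.2 fun x h1 h2 => h2.2 (ball_subset_closedBall h1)) hu hc (fun x h1 h2 => by
        by_cases h4 : x ∈ closedBall x0 r
        · rw [uniq x h4 h2]
          exact Or.inl (mem_ball_self hr)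
        · exact Or.inr ⟨hz x h1 h2, h4⟩)
    have hl := D.segment (f := u) (g := fun x => fderiv ℝ u x0 (x - x0)) isOpen_ball
      isBounded_ball (hu.mono bs) (hc.mono (closure_mono bs)) (by fun_prop) (by fun_prop)
      (fun t ht x h1 => degPar_ne (hlt x (closure_ball_subset_closedBall
        (frontier_subset_closure h1)) fun h2 => h1.2 (by
          rw [h2, isOpen_ball.interior_eq]; exact mem_ball_self hr)) ht)
    rcases hD _ x0 _ isOpen_ball isBounded_ball (mem_ball_self hr) (hreg x0 hx h0) with h | h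
    · refine ⟨m + 1, by rw [ha, hl, h, hm]; push_cast; ring, ?_⟩
      rw [Int.even_add_one, Nat.even_add_one, hm']
    · refine ⟨m - 1, by rw [ha, hl, h, hm]; push_cast; ring, ?_⟩
      rw [Int.even_sub_one, Nat.even_add_one, hm']

theorem deg_parity {Ω : Set E} (ho : IsOpen Ω) (hb : Bornology.IsBounded Ω) {u v : E → E}
    (hu : ContDiffOn ℝ 1 u Ω) (huc : ContinuousOn u (closure Ω)) (hv : ContDiffOn ℝ 1 v Ω)
    (hvc : ContinuousOn v (closure Ω)) (he : ∀ x ∈ frontier Ω, u x = v x ∧ u x ≠ 0)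
    (fu : {x | x ∈ Ω ∧ u x = 0}.Finite) (fv : {x | x ∈ Ω ∧ v x = 0}.Finite)
    (ru : ∀ x ∈ Ω, u x = 0 → (fderiv ℝ u x).det ≠ 0)
    (rv : ∀ x ∈ Ω, v x = 0 → (fderiv ℝ v x).det ≠ 0) :
    Even {x | x ∈ Ω ∧ u x = 0}.ncard ↔ Even {x | x ∈ Ω ∧ v x = 0}.ncard := by
  obtain ⟨D, c, hc, hD⟩ := exists_degLin E
  obtain ⟨m, hm, hm'⟩ := deg_count hD ho hb hu huc (fun x hx h0 => by
    by_contra hn
    exact (he x ⟨hx, by rwa [ho.interior_eq]⟩).2 h0) fu ru
  obtain ⟨n, hn, hn'⟩ := deg_count hD ho hb hv hvc (fun x hx h0 => by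
    by_contra hn
    have := he x ⟨hx, by rwa [ho.interior_eq]⟩
    exact this.2 (this.1.trans h0)) fv rv
  have h := D.segment ho hb hu huc hv hvc fun t _ x hx => by
    rw [← (he x hx).1, ← add_smul, sub_add_cancel, one_smul]
    exact (he x hx).2
  rw [hm, hn] at h
  rw [← hm', ← hn', Int.cast_injective (mul_right_cancel₀ hc h)]

end Vale.Agent.P205.T
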