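import Vale.Agent.P205.T.Defs

/-!
P205 T/Stack (about 80 lines): stack of records.
At a point `x` of the fibre, `ContDiffAt.toOpenPartialHomeomorph` (with
`ContinuousLinearMap.toContinuousLinearEquivOfDetNeZero`) composed with the chart `c` is an
`OpenPartialHomeomorph X E` that agrees with `Ψ` on its source; `IsLocalHomeomorphOn.mk` turns it into
one whose function is `Ψ`. `IsEvenlyCovered.of_openPartialHomeomorph` (Mathlib
`Topology/Covering/Basic`) gives an evenly covered neighbourhood `U` of `y` with a homeomorphism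
`Ψ ⁻¹' U ≃ₜ U × fibre`; for `y' ∈ U` build the bijection of fibres (or use
`IsEvenlyCovered.of_mem..`/`toTrivialization`, `Trivialization.preimageSingletonHomeomorph`) and
`Set.ncard_congr'`, `Nat.card_congr`. Finiteness: compact and discrete, as in that Mathlib proof.
-/

open scoped Manifold ContDiff Topology RealInnerProductSpace
open Set Filter Metric Function

noncomputable section

namespace Vale.Agent.P205.T

variable {E : Type} [NormedAddCommGroup E] [NormedSpace ℝ E] [FiniteDimensional ℝ E]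
variable {X : Type*} [TopologicalSpace X]

theorem stack [T2Space X] [CompactSpace X] {Ψ : X → E} (hc : Continuous Ψ) {y : E}
    (h : ∀ x, Ψ x = y → ∃ c : OpenPartialHomeomorph X E, x ∈ c.source ∧
      ContDiffAt ℝ 1 (Ψ ∘ c.symm) (c x) ∧ (fderiv ℝ (Ψ ∘ c.symm) (c x)).det ≠ 0) :
    (Ψ ⁻¹' {y}).Finite ∧ ∀ᶠ y' in 𝓝 y, (Ψ ⁻¹' {y'}).ncard = (Ψ ⁻¹' {y}).ncard := by
  have : CompleteSpace E := FiniteDimensional.complete ℝ E
  have h1 : IsLocalHomeomorphOn Ψ (Ψ ⁻¹' {y}) := IsLocalHomeomorphOn.mk _ _ fun x hx => by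
    obtain ⟨c, hx1, hd, hdet⟩ := h x hx
    have hf : HasFDerivAt (Ψ ∘ c.symm)
        (((fderiv ℝ (Ψ ∘ c.symm) (c x)).toContinuousLinearEquivOfDetNeZero hdet : E ≃L[ℝ] E) :
          E →L[ℝ] E) (c x) := by
      rw [ContinuousLinearMap.coe_toContinuousLinearEquivOfDetNeZero]
      exact (hd.differentiableAt one_ne_zero).hasFDerivAt
    refine ⟨c.trans (hd.toOpenPartialHomeomorph _ hf one_ne_zero),
      ⟨hx1, hd.mem_toOpenPartialHomeomorph_source hf one_ne_zero⟩, fun z hz => ?_⟩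
    simp [c.left_inv hz.1]
  have h2 : ∀ e ∈ Ψ ⁻¹' {y}, ∃ φ : OpenPartialHomeomorph X E, e ∈ φ.source ∧ φ = Ψ :=
    fun e he => (h1 e he).imp fun φ hφ => ⟨hφ.1, hφ.2.symm⟩
  refine ⟨(isClosed_singleton.preimage hc).isCompact.finite
    (.of_openPartialHomeomorph Ψ subset_rfl h2), ?_⟩
  obtain ⟨hd, U, hyU, hU, hU', H, hH⟩ := IsEvenlyCovered.of_openPartialHomeomorph hc h2
  filter_upwards [hU.mem_nhds hyU] with y' hy'
  have h3 : IsEvenlyCovered Ψ y' (Ψ ⁻¹' {y}) := ⟨hd, U, hy', hU, hU', H, hH⟩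
  exact (ncard_congr' h3.fiberHomeomorph.toEquiv).symm

end Vale.Agent.P205.T
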