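import Vale.Agent.P205.T.Step
import Vale.Agent.P205.T.Stack

/-!
P205 T/EvenA (about 130 lines): a regular value of a map from a compact space with charts to `E` has an
even number of preimages.
Every `x` lies in some `tsupport (ρ j) ⊆ (c j).source`. Fix `e ≠ 0` in `E` and for `S : Finset ι` put
`P S x = Ψ x + (∑ i ∈ S, ρ i x) • (e - Ψ x)`; it is continuous and `C^1` in every chart, `P ∅ = Ψ`,
`P univ = e`. With `borel E`, `Measure.addHaar`,
`addHaar_image_eq_zero_of_det_fderivWithin_eq_zero` shows that the critical values of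
`P S ∘ (c j).symm` on `(c j).target` are null; the finite union over `(S, j)` does not contain the
neighbourhood of `0` given by `stack` and `y ≠ e` (`Measure.measure_pos_of_mem_nhds`). For such `y` the
maps `P S - y` have finite zero sets (`stack`), and `Finset.induction_on` with `step_parity`
(`K = tsupport (ρ i)`, compact) shows that all have the parity of `P ∅ - y`; `P univ - y` has no zero.
-/

open scoped Manifold ContDiff Topology RealInnerProductSpace
open Set Filter Metric Function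

noncomputable section

namespace Vale.Agent.P205.T

variable {E : Type} [NormedAddCommGroup E] [NormedSpace ℝ E] [FiniteDimensional ℝ E]
variable {X : Type*} [TopologicalSpace X]

open MeasureTheory in
theorem evenA_sard [MeasurableSpace E] [BorelSpace E] (μ : Measure E) [μ.IsAddHaarMeasure]
    {u : E → E} {O : Set E} (hO : IsOpen O) (hu : ContDiffOn ℝ 1 u O) :
    μ (u '' {z | z ∈ O ∧ (fderiv ℝ u z).det = 0}) = 0 :=
  addHaar_image_eq_zero_of_det_fderivWithin_eq_zero μ (f' := fderiv ℝ u)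
    (fun _ hz => ((hu.contDiffAt (hO.mem_nhds hz.1)).differentiableAt
      one_ne_zero).hasFDerivAt.hasFDerivWithinAt) fun _ hz => hz.2

open MeasureTheory in
theorem even_abstract [T2Space X] [CompactSpace X] [Nontrivial E] {ι : Type*} [Fintype ι]
    (c : ι → OpenPartialHomeomorph X E) (ρ : ι → X → ℝ) (hρc : ∀ i, Continuous (ρ i))
    (hρs : ∀ i, tsupport (ρ i) ⊆ (c i).source) (hρ1 : ∀ x, ∑ i, ρ i x = 1)
    (hρd : ∀ i j, ContDiffOn ℝ 1 (ρ i ∘ (c j).symm) (c j).target) {Ψ : X → E}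
    (hc : Continuous Ψ) (hΨ : ∀ j, ContDiffOn ℝ 1 (Ψ ∘ (c j).symm) (c j).target)
    (hreg : ∀ j, ∀ z ∈ (c j).target, Ψ ((c j).symm z) = 0 →
      (fderiv ℝ (Ψ ∘ (c j).symm) z).det ≠ 0) :
    (Ψ ⁻¹' {0}).Finite ∧ Even (Ψ ⁻¹' {0}).ncard := by
  classical
  let _ : MeasurableSpace E := borel E
  have : BorelSpace E := ⟨rfl⟩
  have cov : ∀ x, ∃ j, x ∈ (c j).source := fun x => by
    by_contra hn
    have h0 : ∀ i, ρ i x = 0 := fun i => by
      by_contra h0
      exact hn ⟨i, hρs i (subset_tsupport _ h0)⟩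
    simpa [h0] using hρ1 x
  have st : ∀ (Q : X → E), Continuous Q → (∀ j, ContDiffOn ℝ 1 (Q ∘ (c j).symm) (c j).target) →
      (∀ j, ∀ z ∈ (c j).target, Q ((c j).symm z) = 0 → (fderiv ℝ (Q ∘ (c j).symm) z).det ≠ 0) →
      (Q ⁻¹' {0}).Finite ∧ ∀ᶠ y' in 𝓝 0, (Q ⁻¹' {y'}).ncard = (Q ⁻¹' {0}).ncard := by
    intro Q h1 h2 h3
    refine stack h1 fun x hx => ?_
    obtain ⟨j, hj⟩ := cov x
    have hz := (c j).map_source hj
    exact ⟨c j, hj, (h2 j).contDiffAt ((c j).open_target.mem_nhds hz),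
      h3 j _ hz (by rwa [(c j).left_inv hj])⟩
  obtain ⟨hfin, hev⟩ := st Ψ hc hΨ hreg
  refine ⟨hfin, ?_⟩
  obtain ⟨e, he⟩ := exists_ne (0 : E)
  set P : Finset ι → X → E := fun S x => Ψ x + (∑ i ∈ S, ρ i x) • (e - Ψ x) with hP
  have Pc : ∀ S, Continuous (P S) := fun S =>
    hc.add ((continuous_finsetSum _ fun i _ => hρc i).smul (continuous_const.sub hc))
  have Pd : ∀ S j, ContDiffOn ℝ 1 (P S ∘ (c j).symm) (c j).target := fun S j =>
    (hΨ j).add ((ContDiffOn.sum fun i _ => hρd i j).smul (contDiffOn_const.sub (hΨ j)))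
  have null : (Measure.addHaar : Measure E) (⋃ a : Finset ι × ι, (P a.1 ∘ (c a.2).symm) ''
      {z | z ∈ (c a.2).target ∧ (fderiv ℝ (P a.1 ∘ (c a.2).symm) z).det = 0}) = 0 :=
    measure_iUnion_null fun a => evenA_sard _ (c a.2).open_target (Pd a.1 a.2)
  obtain ⟨y, ⟨hy1, hy2⟩, hy3⟩ : ∃ y, ((Ψ ⁻¹' {y}).ncard = (Ψ ⁻¹' {0}).ncard ∧ y ≠ e) ∧
      y ∉ ⋃ a : Finset ι × ι, (P a.1 ∘ (c a.2).symm) ''
      {z | z ∈ (c a.2).target ∧ (fderiv ℝ (P a.1 ∘ (c a.2).symm) z).det = 0} := by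
    by_contra hn
    push Not at hn
    exact (Measure.measure_pos_of_mem_nhds (μ := (Measure.addHaar : Measure E))
      (hev.and (eventually_ne_nhds he.symm))).ne' (measure_mono_null hn null)
  have Qd : ∀ S j, ContDiffOn ℝ 1 ((fun x => P S x - y) ∘ (c j).symm) (c j).target :=
    fun S j => (Pd S j).sub contDiffOn_const
  have Qr : ∀ S j, ∀ z ∈ (c j).target, P S ((c j).symm z) - y = 0 →
      (fderiv ℝ ((fun x => P S x - y) ∘ (c j).symm) z).det ≠ 0 := by
    intro S j z hz h0 h1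
    refine hy3 (mem_iUnion.2 ⟨(S, j), z, ⟨hz, ?_⟩, sub_eq_zero.1 h0⟩)
    rwa [← fderiv_sub_const y]
  have Qf : ∀ S, ((fun x => P S x - y) ⁻¹' {0}).Finite := fun S =>
    (st _ ((Pc S).sub continuous_const) (Qd S) (Qr S)).1
  have key : ∀ S : Finset ι, Even ((fun x => P S x - y) ⁻¹' {0}).ncard ↔
      Even (Ψ ⁻¹' {0}).ncard := by
    intro S
    induction S using Finset.induction_on with
    | empty =>
      rw [← hy1]
      congr! 2
      ext x
      simp [hP, sub_eq_zero]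
    | insert i S hi ih =>
      rw [← ih]
      refine step_parity (c i) (isClosed_tsupport (ρ i)).isCompact (hρs i) (Qd _ i) (Qd _ i)
        (fun x hx => ?_) (Qf _) (Qf _) (Qr _ i) (Qr _ i)
      simp [hP, Finset.sum_insert hi, image_eq_zero_of_notMem_tsupport hx]
  rw [← key Finset.univ]
  have h0 : (fun x => P Finset.univ x - y) ⁻¹' {0} = ∅ := by
    ext x
    simp [hP, hρ1, sub_eq_zero, hy2.symm]
  simp [h0]

end Vale.Agent.P205.T
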