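import Vale.Agent.P205.T.EvenA
import Vale.Agent.P205.T.Basic

/-!
P205 T/EvenP (about 130 lines): evenness on `M × M`.
* `exists_pou`: `SmoothPartitionOfUnity.exists_isSubordinate_chartAt_source I2 M`, the finite set
  `ρ.locallyFinite.finite_nonempty_of_compact`, `finsum_eq_sum_of_support_subset`, `ρ.sum_eq_one`.
* `even_prod`: `even_abstract` with `X = M × M`, `E = E2 × E2`, `ι = s × s`, charts
  `(chartAt E2 i).prod (chartAt E2 j)`, weights `ρ i q.1 * ρ j q.2` (the closed set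
  `tsupport (ρ i) ×ˢ tsupport (ρ j)` contains the support; `Finset.sum_mul_sum`,
  `Fintype.sum_prod_type`), and the map `L ∘ Ψ` with `L : E4 ≃L[ℝ] E2 × E2`
  (`ContinuousLinearEquiv.ofFinrankEq`). At a zero the chart representative is eventually
  `L (g (φ.symm z.1) - h (ψ.symm z.2))`, with derivative `(ξ, η) ↦ L (DG ξ - DH η)`, injective by
  `tr_chart`; an injective endomorphism has nonzero determinant.
-/

open scoped Manifold ContDiff Topology RealInnerProductSpace
open Set Filter Metric Function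

noncomputable section

namespace Vale.Agent.P205.T

variable {M : Type*} [TopologicalSpace M] [ChartedSpace E2 M] [IsManifold I2 ∞ M]

theorem exists_pou [T2Space M] [CompactSpace M] : ∃ (s : Finset M) (ρ : M → M → ℝ),
    (∀ i, Sm (ρ i)) ∧ (∀ i, tsupport (ρ i) ⊆ (chartAt E2 i).source) ∧
      ∀ x, ∑ i ∈ s, ρ i x = 1 := by
  obtain ⟨ρ, hρ⟩ := SmoothPartitionOfUnity.exists_isSubordinate_chartAt_source I2 M
  have hfin := ρ.locallyFinite.finite_nonempty_of_compact
  refine ⟨hfin.toFinset, fun i => ρ i, fun i => (ρ i).contMDiff, hρ, fun x => ?_⟩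
  rw [← ρ.sum_eq_one (mem_univ x), finsum_eq_sum_of_support_subset]
  intro i hi
  exact hfin.mem_toFinset.2 ⟨x, hi⟩

theorem evenP_det {A : E2 × E2 →L[ℝ] E2 × E2} (h : ∀ v, A v = 0 → v = 0) : A.det ≠ 0 := by
  intro h0
  obtain ⟨v, hv, hv0⟩ := (Submodule.ne_bot_iff _).1
    (LinearMap.bot_lt_ker_of_det_eq_zero (f := (A : E2 × E2 →ₗ[ℝ] E2 × E2)) h0).ne'
  exact hv0 (h v hv)

theorem even_prod [T2Space M] [CompactSpace M] {W : Type} [NormedAddCommGroup W] [NormedSpace ℝ W]
    {G : M → W} (hG : Sm G) {Φ : W × W → E4} (hΦ : ContDiff ℝ 1 Φ)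
    (hreg : ∀ x x', Φ (G x, G x') = 0 → ∃ g h : M → E4, Sm g ∧ Sm h ∧
      (∀ᶠ q : M × M in 𝓝 (x, x'), Φ (G q.1, G q.2) = g q.1 - h q.2) ∧ Tr (dM g x) (dM h x')) :
    {q : M × M | Φ (G q.1, G q.2) = 0}.Finite ∧ Even {q : M × M | Φ (G q.1, G q.2) = 0}.ncard := by
  obtain ⟨s, ρ, hρ, hρs, hρ1⟩ := exists_pou (M := M)
  let L : E4 ≃L[ℝ] E2 × E2 := ContinuousLinearEquiv.ofFinrankEq (by simp)
  have cG : Continuous G := hG.continuous
  have c1 : ∀ {V : Type} [NormedAddCommGroup V] [NormedSpace ℝ V] {F : M → V}, Sm F → ∀ i j : M,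
      ContDiffOn ℝ 1 (fun z : E2 × E2 => F ((chartAt E2 i).symm z.1))
        ((chartAt E2 i).target ×ˢ (chartAt E2 j).target) := fun hF i j =>
    ((hF.contDiffOn (isCh_chartAt i)).of_le ind_one).comp contDiffOn_fst fun _ hz => hz.1
  have c2 : ∀ {V : Type} [NormedAddCommGroup V] [NormedSpace ℝ V] {F : M → V}, Sm F → ∀ i j : M,
      ContDiffOn ℝ 1 (fun z : E2 × E2 => F ((chartAt E2 j).symm z.2))
        ((chartAt E2 i).target ×ˢ (chartAt E2 j).target) := fun hF i j =>
    ((hF.contDiffOn (isCh_chartAt j)).of_le ind_one).comp contDiffOn_snd fun _ hz => hz.2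
  have key := even_abstract (X := M × M) (E := E2 × E2) (ι := s × s)
    (fun a => (chartAt E2 a.1.1).prod (chartAt E2 a.2.1)) (fun a q => ρ a.1 q.1 * ρ a.2 q.2)
    (fun a => ((hρ _).continuous.comp continuous_fst).mul ((hρ _).continuous.comp continuous_snd))
    (fun a => (closure_minimal (fun q hq => mk_mem_prod (subset_tsupport _ (left_ne_zero_of_mul hq))
      (subset_tsupport _ (right_ne_zero_of_mul hq)))
      ((isClosed_tsupport (ρ a.1)).prod (isClosed_tsupport (ρ a.2)))).trans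
        (prod_mono (hρs _) (hρs _)))
    (fun q => by
      rw [Fintype.sum_prod_type' fun a b : s => ρ a q.1 * ρ b q.2, ← Finset.sum_mul_sum,
        Finset.sum_coe_sort s fun i => ρ i q.1,
        Finset.sum_coe_sort s fun i => ρ i q.2, hρ1, hρ1, one_mul])
    (fun a b => (c1 (hρ _) _ _).mul (c2 (hρ _) _ _))
    (Ψ := fun q => L (Φ (G q.1, G q.2))) (L.continuous.comp (hΦ.continuous.comp (by fun_prop)))
    (fun b => L.contDiff.comp_contDiffOn (hΦ.comp_contDiffOn ((c1 hG _ _).prodMk (c2 hG _ _))))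
    (by
      rintro ⟨i, j⟩ ⟨z, w⟩ ⟨hz, hw⟩ h0
      obtain ⟨g, h, hg, hh, e, tr⟩ := hreg _ _ (L.map_eq_zero_iff.1 h0)
      replace tr := (tr_chart hg hh (isCh_chartAt _) (isCh_chartAt _) hz hw).2 tr
      have e' := (((chartAt E2 i.1).prod (chartAt E2 j.1)).continuousAt_symm
        (x := (z, w)) ⟨hz, hw⟩).eventually e
      have d1 := ((hg.contDiffAt (isCh_chartAt _) hz).differentiableAt (by simp)).hasFDerivAt
      have d2 := ((hh.contDiffAt (isCh_chartAt _) hw).differentiableAt (by simp)).hasFDerivAt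
      have d3 := (L : E4 →L[ℝ] E2 × E2).hasFDerivAt.comp (z, w)
        ((d1.comp (z, w) hasFDerivAt_fst).sub (d2.comp (z, w) hasFDerivAt_snd))
      have d4 := (d3.congr_of_eventuallyEq (e'.mono fun q hq => congrArg L hq)).fderiv
      refine ne_of_eq_of_ne (congrArg ContinuousLinearMap.det d4) (evenP_det fun v hv => ?_)
      have h1 := tr v.1 v.2 (sub_eq_zero.1 (L.map_eq_zero_iff.1 hv))
      exact Prod.ext h1.1 h1.2)
  have e : (fun q : M × M => L (Φ (G q.1, G q.2))) ⁻¹' {0} = {q | Φ (G q.1, G q.2) = 0} := by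
    ext q
    exact L.map_eq_zero_iff
  rwa [e] at key

end Vale.Agent.P205.T
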