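import Vale.Agent.P205.T.Defs

/-!
P205 T/GenPos (about 100 lines): general position of a linear map, no manifolds.
Induction on `j ≤ n`: there is `L : Fin n → W` (or `ℕ → W`) with: for all `i`, `x ∈ O i`,
`∑ k < j, a i x k • L k = b i x` implies `a i x k = 0` for all `k < j`.
Step: the bad values of `L j` form the countable union over `i` of the images of
`{x ∈ O i | a i x j ≠ 0}` under `x ↦ (a i x j)⁻¹ • (b i x - ∑ k < j, a i x k • L k)`, which is `C^1`
at these points, so locally Lipschitz (`ContDiffAt.exists_lipschitzOnWith`);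
`dimH_image_le_of_locally_lipschitzOn`, `dimH_iUnion`, `Real.dimH_univ_eq_finrank`, `dimH_mono`, and
`dense_compl_of_dimH_lt_finrank` give a value outside; `Function.update`.
Finally `L v = ∑ k, v k • L k` as a continuous linear map (sum of `(EuclideanSpace.proj k).smulRight`).
-/

open scoped Manifold ContDiff Topology RealInnerProductSpace
open Set Filter Metric Function

noncomputable section

namespace Vale.Agent.P205.T

theorem genPos_avoid {P W : Type} [NormedAddCommGroup P] [NormedSpace ℝ P] [FiniteDimensional ℝ P]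
    [NormedAddCommGroup W] [NormedSpace ℝ W] [FiniteDimensional ℝ W]
    (hd : Module.finrank ℝ P < Module.finrank ℝ W) {ι : Type*} [Countable ι]
    (O : ι → Set P) (f : ι → P → W) (hf : ∀ i, ∀ x ∈ O i, ContDiffAt ℝ 1 (f i) x) :
    ∃ w : W, ∀ i, ∀ x ∈ O i, f i x ≠ w := by
  have h1 : dimH (⋃ i, f i '' O i) < Module.finrank ℝ W := by
    rw [dimH_iUnion]
    refine lt_of_le_of_lt (iSup_le fun i => ?_) (Nat.cast_lt.2 hd)
    refine (dimH_image_le_of_locally_lipschitzOn fun x hx => ?_).trans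
      ((dimH_mono (subset_univ _)).trans (Real.dimH_univ_eq_finrank P).le)
    obtain ⟨C, t, ht, h⟩ := (hf i x hx).exists_lipschitzOnWith
    exact ⟨C, t, mem_nhdsWithin_of_mem_nhds ht, h⟩
  obtain ⟨w, hw⟩ := (dense_compl_of_dimH_lt_finrank h1).nonempty
  exact ⟨w, fun i x hx e => hw (mem_iUnion.2 ⟨i, x, hx, e⟩)⟩

theorem gen_pos {P W : Type} [NormedAddCommGroup P] [NormedSpace ℝ P] [FiniteDimensional ℝ P]
    [NormedAddCommGroup W] [NormedSpace ℝ W] [FiniteDimensional ℝ W]
    (hd : Module.finrank ℝ P < Module.finrank ℝ W) {ι : Type*} [Countable ι] {n : ℕ}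
    (O : ι → Set P) (a : ι → P → EuclideanSpace ℝ (Fin n)) (b : ι → P → W)
    (ha : ∀ i, ∀ x ∈ O i, ContDiffAt ℝ 1 (a i) x) (hb : ∀ i, ∀ x ∈ O i, ContDiffAt ℝ 1 (b i) x) :
    ∃ L : EuclideanSpace ℝ (Fin n) →L[ℝ] W, ∀ i, ∀ x ∈ O i, L (a i x) = b i x → a i x = 0 := by
  classical
  have hk : ∀ i, ∀ x ∈ O i, ∀ k, ContDiffAt ℝ 1 (fun x => a i x k) x := fun i x hx k =>
    (EuclideanSpace.proj k : EuclideanSpace ℝ (Fin n) →L[ℝ] ℝ).contDiff.contDiffAt.comp x
      (ha i x hx)
  have key : ∀ s : Finset (Fin n), ∃ L : Fin n → W, ∀ i, ∀ x ∈ O i,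
      ∑ k ∈ s, a i x k • L k = b i x → ∀ k ∈ s, a i x k = 0 := by
    intro s
    induction s using Finset.induction_on with
    | empty => exact ⟨0, fun _ _ _ _ k hk => absurd hk (Finset.notMem_empty k)⟩
    | insert j s hj ih =>
      obtain ⟨L, hL⟩ := ih
      obtain ⟨w, hw⟩ := genPos_avoid hd (fun i => {x | x ∈ O i ∧ a i x j ≠ 0})
        (fun i x => (a i x j)⁻¹ • (b i x - ∑ k ∈ s, a i x k • L k))
        (fun i x hx => ((hk i x hx.1 j).inv hx.2).smul ((hb i x hx.1).sub
          (ContDiffAt.sum fun k _ => (hk i x hx.1 k).smul contDiffAt_const)))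
      refine ⟨update L j w, fun i x hx e => ?_⟩
      have e1 : ∑ k ∈ s, a i x k • update L j w k = ∑ k ∈ s, a i x k • L k :=
        Finset.sum_congr rfl fun k hk => by rw [update_of_ne (ne_of_mem_of_not_mem hk hj)]
      rw [Finset.sum_insert hj, update_self, e1] at e
      have h0 : a i x j = 0 := by
        by_contra h0
        refine hw i x ⟨hx, h0⟩ ?_
        rw [← e, add_sub_cancel_right, smul_smul, inv_mul_cancel₀ h0, one_smul]
      rw [h0, zero_smul, zero_add] at e
      intro k hk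
      rcases Finset.mem_insert.1 hk with rfl | hk
      · exact h0
      · exact hL i x hx e k hk
  obtain ⟨L, hL⟩ := key Finset.univ
  refine ⟨∑ k, (EuclideanSpace.proj k : EuclideanSpace ℝ (Fin n) →L[ℝ] ℝ).smulRight (L k),
    fun i x hx e => ?_⟩
  ext k
  refine hL i x hx ?_ k (Finset.mem_univ k)
  rw [← e, _root_.sum_apply]
  rfl

end Vale.Agent.P205.T
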