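import Vale.Agent.P205.T.Basic
import Vale.Agent.P205.T.GenPos

/-!
P205 T/Imm (about 120 lines): an immersion in `E4` that lifts to an injection in dimension five.
`e` from `exists_embedding_euclidean_of_compact` (it is `Sm`, `dM e p` injective), finite cover `s`
from `exists_fin_cover`. Apply `gen_pos` with `P = E2 × E2`, `W = E4 × ℝ` (finrank 4 < 5) and the
index type `s × s × Fin 3` (or a sum type); for charts `φ, ψ` of the cover:
(0) `a (z, ξ) = fderiv ℝ (e ∘ φ.symm) z ξ`, `b = 0`, on `φ.target ×ˢ univ`;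
(1) same `a`, `b = (0, 1)`; (2) `a (z, w) = e (φ.symm z) - e (ψ.symm w)`, `b = 0`, on the product of
the targets. Put `f = (L ∘ e).1`, `t = (L ∘ e).2`. If the chart derivative of `f` kills `ξ` then
`L (De ξ) = (0, u)`; for `u = 0` use (0), otherwise (1) with `u⁻¹ • ξ`; then `inj_chart` for `e`, `f`.
-/

open scoped Manifold ContDiff Topology RealInnerProductSpace
open Set Filter Metric Function

noncomputable section

namespace Vale.Agent.P205.T

variable {M : Type*} [TopologicalSpace M] [ChartedSpace E2 M] [IsManifold I2 ∞ M]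

theorem exists_imm [T2Space M] [CompactSpace M] : ∃ (f : M → E4) (t : M → ℝ), Sm f ∧ Sm t ∧
    (∀ p, Injective (dM f p)) ∧ ∀ x x', f x = f x' → t x = t x' → x = x' := by
  obtain ⟨n, e, he, hemb, hinj⟩ := exists_embedding_euclidean_of_compact (I := I2) (M := M)
  have he' : Sm e := he
  obtain ⟨s, hs, hcov⟩ := exists_fin_cover (M := M)
  have hD : ∀ c : s, ∀ x ∈ c.1.1.target ×ˢ (univ : Set E2),
      ContDiffAt ℝ 1 (fun x : E2 × E2 => fderiv ℝ (e ∘ c.1.1.symm) x.1 x.2) x := fun c x hx => by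
    have h1 : ContDiffAt ℝ 1 (fderiv ℝ (e ∘ c.1.1.symm)) x.1 :=
      (he'.contDiffAt (hs c c.2).1 hx.1).fderiv_right
        (show (1 : WithTop ℕ∞) + 1 ≤ ∞ from WithTop.coe_le_coe.2 (le_top (a := (2 : ℕ∞))))
    exact (h1.comp x contDiffAt_fst).clm_apply contDiffAt_snd
  obtain ⟨L, hL⟩ := gen_pos (P := E2 × E2) (W := E4 × ℝ) (by simp) (ι := (s × Bool) ⊕ (s × s))
    (Sum.elim (fun c => c.1.1.1.target ×ˢ univ) fun c => c.1.1.1.target ×ˢ c.2.1.1.target)
    (Sum.elim (fun c x => fderiv ℝ (e ∘ c.1.1.1.symm) x.1 x.2)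
      fun c x => (e ∘ c.1.1.1.symm) x.1 - (e ∘ c.2.1.1.symm) x.2)
    (Sum.elim (fun c _ => (0, if c.2 then 1 else 0)) fun _ _ => 0)
    (by
      rintro (c | c) x hx
      · exact hD c.1 x hx
      · exact (((he'.contDiffAt (hs c.1 c.1.2).1 hx.1).of_le (by exact_mod_cast le_top)).comp x
          contDiffAt_fst).sub (((he'.contDiffAt (hs c.2 c.2.2).1 hx.2).of_le
            (by exact_mod_cast le_top)).comp x contDiffAt_snd))
    (by rintro (c | c) x - <;> exact contDiffAt_const)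
  let L1 : EuclideanSpace ℝ (Fin n) →L[ℝ] E4 := (ContinuousLinearMap.fst ℝ E4 ℝ).comp L
  let L2 : EuclideanSpace ℝ (Fin n) →L[ℝ] ℝ := (ContinuousLinearMap.snd ℝ E4 ℝ).comp L
  have hf : Sm (L1 ∘ e) := L1.contMDiff.comp he
  refine ⟨L1 ∘ e, L2 ∘ e, hf, L2.contMDiff.comp he, fun p => ?_, fun x x' h1 h2 => ?_⟩
  · obtain ⟨c, hc, hp, -⟩ := hcov p
    have hφ := (hs c hc).1
    have hz := c.1.map_source hp
    rw [← c.1.left_inv hp, ← inj_chart hf hφ hz]
    have h3 : Injective (fderiv ℝ (e ∘ c.1.symm) (c.1 p)) := (inj_chart he' hφ hz).2 (hinj _)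
    have h4 : fderiv ℝ ((L1 ∘ e) ∘ c.1.symm) (c.1 p) =
        L1.comp (fderiv ℝ (e ∘ c.1.symm) (c.1 p)) :=
      (L1.hasFDerivAt.comp _
        ((he'.contDiffAt hφ hz).differentiableAt (by simp)).hasFDerivAt).fderiv
    rw [h4, injective_iff_map_eq_zero]
    rw [injective_iff_map_eq_zero] at h3
    intro ξ hξ
    have h5 : (L (fderiv ℝ (e ∘ c.1.symm) (c.1 p) ξ)).1 = 0 := hξ
    by_cases hu : (L (fderiv ℝ (e ∘ c.1.symm) (c.1 p) ξ)).2 = 0
    · exact h3 ξ (hL (Sum.inl (⟨c, hc⟩, false)) (c.1 p, ξ) ⟨hz, trivial⟩ (Prod.ext h5 hu))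
    · have h6 := h3 _ (hL (Sum.inl (⟨c, hc⟩, true))
        (c.1 p, (L (fderiv ℝ (e ∘ c.1.symm) (c.1 p) ξ)).2⁻¹ • ξ) ⟨hz, trivial⟩ (by
          simp only [Sum.elim_inl, map_smul]
          exact Prod.ext (by simp [h5]) (by simp [hu])))
      exact (smul_eq_zero.1 h6).resolve_left (inv_ne_zero hu)
  · obtain ⟨c, hc, hp, -⟩ := hcov x
    obtain ⟨c', hc', hp', -⟩ := hcov x'
    have h3 := hL (Sum.inr (⟨c, hc⟩, ⟨c', hc'⟩)) (c.1 x, c'.1 x')
      ⟨c.1.map_source hp, c'.1.map_source hp'⟩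
    simp only [Sum.elim_inr, comp_apply, c.1.left_inv hp, c'.1.left_inv hp', map_sub,
      sub_eq_zero] at h3
    exact hemb.injective (h3 (Prod.ext h1 h2))

end Vale.Agent.P205.T
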