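import Vale.Agent.P205.T.Basic

/-!
P205 T/KinkA (about 130 lines): the rotating frame (conjugation by the quaternion `α + β j`), algebra.
* `kink_indep`: `Fr` gives `x0 = 0`, one real and one complex equation. With `α = a + i a'` the three
  columns `(a² + a'² - β², 2 β a', -2 β a)`, `(2 β a', a² - a'² + β², 2 a a')`,
  `(2 β a, -2 a a', a² - a'² - β²)` are orthogonal of length `a² + a'² + β²`, so the sum of the squares of
  the three real equations is `(x1² + x2² + x3²) (a² + a'² + β²)²`.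
* `kink_out`: for `β = 0`, `A ey = (normSq α)⁻¹ • kb`; expand `ξ = ξ 0 • ex + ξ 1 • ey` (`eq_ex_ey`),
  use `kink_indep` and `horseshoe` (Api/Cross).
* `kink_in`: `exists_indQ_compact` on `K ×ˢ Icc 0 (2 π)` (periodicity, or `c = cos θ ∈ Icc (-1) 1`) for
  the map `ex ↦ A ex`, `ey ↦ E1 • kb + E2 • km` (`(E1, E2) ≠ 0`); add `R⁻¹ • A ey` in the second column
  (`IndQ.perturb`, `‖A z ey‖` bounded on `K`); rescale the second column by `R`.
-/

open scoped Manifold ContDiff Topology RealInnerProductSpace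
open Set Filter Metric Function

noncomputable section

namespace Vale.Agent.P205.T

def kb (A : E2 →L[ℝ] E4) (N : ℂ →L[ℝ] E4) (α : ℂ) (β : ℝ) : E4 :=
  (Complex.normSq α - β ^ 2) • A ey + N (-2 * Complex.I * β * α)

def ks (A : E2 →L[ℝ] E4) (N : ℂ →L[ℝ] E4) (α : ℂ) (β : ℝ) : E4 :=
  (2 * β * α.im) • A ey + N (α ^ 2 + β ^ 2)

def km (A : E2 →L[ℝ] E4) (N : ℂ →L[ℝ] E4) (α : ℂ) (β : ℝ) : E4 :=
  (2 * β * α.re) • A ey + N (Complex.I * (α ^ 2 - β ^ 2))

theorem kink_indep {A : E2 →L[ℝ] E4} {N : ℂ →L[ℝ] E4} (h : Fr A N) {α : ℂ} {β : ℝ}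
    (h0 : α ≠ 0 ∨ β ≠ 0) {x0 x1 x2 x3 : ℝ}
    (hx : x0 • A ex + x1 • kb A N α β + x2 • ks A N α β + x3 • km A N α β = 0) :
    x0 = 0 ∧ x1 = 0 ∧ x2 = 0 ∧ x3 = 0 := by
  obtain ⟨h1, h2⟩ := h (x0 • ex + (x1 * (Complex.normSq α - β ^ 2) + x2 * (2 * β * α.im) +
      x3 * (2 * β * α.re)) • ey)
    (x1 • (-2 * Complex.I * β * α) + x2 • (α ^ 2 + β ^ 2) + x3 • (Complex.I * (α ^ 2 - β ^ 2)))
    (by
      rw [← hx]
      simp only [kb, ks, km, map_add, map_smul]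
      module)
  have e0 : x0 = 0 := by simpa [ex, ey] using congrArg (fun v : E2 => v 0) h1
  have e1 : x1 * (Complex.normSq α - β ^ 2) + x2 * (2 * β * α.im) + x3 * (2 * β * α.re) = 0 := by
    simpa [ex, ey] using congrArg (fun v : E2 => v 1) h1
  have e2 := congrArg Complex.re h2
  have e3 := congrArg Complex.im h2
  simp only [Complex.add_re, Complex.add_im, Complex.real_smul, Complex.mul_re, Complex.mul_im,
    Complex.sub_re, Complex.sub_im, Complex.ofReal_re, Complex.ofReal_im, Complex.I_re, Complex.I_im,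
    Complex.neg_re, Complex.neg_im, Complex.re_ofNat, Complex.im_ofNat, Complex.zero_re,
    Complex.zero_im, sq] at e2 e3
  rw [Complex.normSq_apply] at e1
  have hp : 0 < α.re ^ 2 + α.im ^ 2 + β ^ 2 := by
    rcases h0 with h0 | h0
    · have := Complex.normSq_pos.2 h0
      rw [Complex.normSq_apply] at this
      nlinarith [sq_nonneg β]
    · positivity
  have e4 : (x1 ^ 2 + x2 ^ 2 + x3 ^ 2) * (α.re ^ 2 + α.im ^ 2 + β ^ 2) ^ 2 = 0 := by
    linear_combination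
      (x1 * (α.re * α.re + α.im * α.im - β ^ 2) + x2 * (2 * β * α.im) + x3 * (2 * β * α.re)) * e1 +
      (x1 * (2 * β * α.im) + x2 * (α.re ^ 2 - α.im ^ 2 + β ^ 2) - x3 * (2 * α.re * α.im)) * e2 +
      (-x1 * (2 * β * α.re) + x2 * (2 * α.re * α.im) + x3 * (α.re ^ 2 - α.im ^ 2 - β ^ 2)) * e3
  have e5 := (mul_eq_zero.1 e4).resolve_right (pow_pos hp 2).ne'
  refine ⟨e0, ?_, ?_, ?_⟩ <;> nlinarith [sq_nonneg x1, sq_nonneg x2, sq_nonneg x3]

theorem kinkA_apply (A : E2 →L[ℝ] E4) (w : E4) (ξ : E2) :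
    (A + (EuclideanSpace.proj 1 : E2 →L[ℝ] ℝ).smulRight w) ξ =
      ξ 0 • A ex + ξ 1 • A ey + ξ 1 • w := by
  rw [← map_smul, ← map_smul, ← map_add, ← eq_ex_ey]
  rfl

theorem kink_out {A : E2 →L[ℝ] E4} {N : ℂ →L[ℝ] E4} (h : Fr A N) {α : ℂ} (h0 : α ≠ 0) {R : ℝ}
    (hR : 0 ≤ R) (θ : ℝ) : Ind (A + (EuclideanSpace.proj 1 : E2 →L[ℝ] ℝ).smulRight
      ((-2 * Real.cos (2 * θ)) • R • kb A N α 0 + Real.cos θ • R • km A N α 0)) (ks A N α 0) := by
  intro ξ t e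
  have hn := Complex.normSq_pos.2 h0
  have e1 : A ey = (Complex.normSq α)⁻¹ • kb A N α 0 := by
    simp [kb, smul_smul, hn.ne']
  obtain ⟨a0, a1, a2, a3⟩ := kink_indep h (α := α) (β := 0) (Or.inl h0) (x0 := ξ 0)
    (x1 := ξ 1 * ((Complex.normSq α)⁻¹ + R * (-2 * Real.cos (2 * θ)))) (x2 := t)
    (x3 := ξ 1 * (R * Real.cos θ)) (by
      rw [← e, kinkA_apply, e1]
      module)
  have a4 : ξ 1 = 0 := by
    rcases horseshoe (θ := θ) (inv_pos.2 hn) hR with b | b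
    · exact (mul_eq_zero.1 a1).resolve_right b
    · exact (mul_eq_zero.1 a3).resolve_right b
  exact ⟨by rw [eq_ex_ey ξ, a0, a4]; simp, a2⟩

theorem kink_in {K : Set E2} (hK : IsCompact K) {A : E2 → E2 →L[ℝ] E4} {N : ℂ →L[ℝ] E4}
    {α : E2 → ℂ} {β : E2 → ℝ} (hA : ContinuousOn A K) (hα : ContinuousOn α K)
    (hβ : ContinuousOn β K) (h : ∀ z ∈ K, Fr (A z) N) (h0 : ∀ z ∈ K, α z ≠ 0 ∨ β z ≠ 0) :
    ∃ R : ℝ, 0 ≤ R ∧ ∀ z ∈ K, ∀ θ : ℝ,
      Ind (A z + (EuclideanSpace.proj 1 : E2 →L[ℝ] ℝ).smulRight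
        ((-2 * Real.cos (2 * θ)) • R • kb (A z) N (α z) (β z) +
          Real.cos θ • R • km (A z) N (α z) (β z))) (ks (A z) N (α z) (β z)) := by
  let B : E2 × ℝ → E2 →L[ℝ] E4 := fun p =>
    (EuclideanSpace.proj 0 : E2 →L[ℝ] ℝ).smulRight (A p.1 ex) +
      (EuclideanSpace.proj 1 : E2 →L[ℝ] ℝ).smulRight
        ((-2 * (2 * p.2 ^ 2 - 1)) • kb (A p.1) N (α p.1) (β p.1) +
          p.2 • km (A p.1) N (α p.1) (β p.1))
  have hB : ∀ p ξ, B p ξ = ξ 0 • A p.1 ex + ξ 1 •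
      ((-2 * (2 * p.2 ^ 2 - 1)) • kb (A p.1) N (α p.1) (β p.1) +
        p.2 • km (A p.1) N (α p.1) (β p.1)) := fun p ξ => rfl
  have hf : ∀ {Y : Type} [TopologicalSpace Y] {g : E2 → Y}, ContinuousOn g K →
      ContinuousOn (fun p : E2 × ℝ => g p.1) (K ×ˢ Icc (-1 : ℝ) 1) := fun hg =>
    hg.comp continuousOn_fst fun p hp => hp.1
  have cx := hf (hA.clm_apply (continuousOn_const (c := ex)))
  have cy := hA.clm_apply (continuousOn_const (c := ey))
  have c1 : ContinuousOn (fun z => Complex.normSq (α z)) K :=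
    Complex.continuous_normSq.comp_continuousOn hα
  have c2 : ContinuousOn (fun z => (β z : ℂ)) K := Complex.continuous_ofReal.comp_continuousOn hβ
  have c3 : ContinuousOn (fun z => (α z).re) K := Complex.continuous_re.comp_continuousOn hα
  have c4 : ContinuousOn (fun z => (α z).im) K := Complex.continuous_im.comp_continuousOn hα
  have cb : ContinuousOn (fun z => kb (A z) N (α z) (β z)) K :=
    ((c1.sub (hβ.pow 2)).smul cy).add
      (N.continuous.comp_continuousOn ((continuousOn_const.mul c2).mul hα))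
  have cs : ContinuousOn (fun z => ks (A z) N (α z) (β z)) K :=
    (((continuousOn_const.mul hβ).mul c4).smul cy).add
      (N.continuous.comp_continuousOn ((hα.pow 2).add (c2.pow 2)))
  have cm : ContinuousOn (fun z => km (A z) N (α z) (β z)) K :=
    (((continuousOn_const.mul hβ).mul c3).smul cy).add
      (N.continuous.comp_continuousOn (continuousOn_const.mul ((hα.pow 2).sub (c2.pow 2))))
  have cB : ContinuousOn B (K ×ˢ Icc (-1 : ℝ) 1) := by
    refine ContinuousOn.add ?_ ?_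
    · exact (ContinuousLinearMap.smulRightL ℝ E2 E4
        (EuclideanSpace.proj 0)).continuous.comp_continuousOn cx
    · have c5 : ContinuousOn (fun p : E2 × ℝ => -2 * (2 * p.2 ^ 2 - 1)) (K ×ˢ Icc (-1 : ℝ) 1) := by
        fun_prop
      exact (ContinuousLinearMap.smulRightL ℝ E2 E4
        (EuclideanSpace.proj 1)).continuous.comp_continuousOn
          ((c5.smul (hf cb)).add (continuousOn_snd.smul (hf cm)))
  obtain ⟨κ, hκ, hq⟩ := exists_indQ_compact (hK.prod isCompact_Icc) cB (hf cs) (by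
    rintro ⟨z, c⟩ ⟨hz, -⟩ ξ t e
    obtain ⟨a0, a1, a2, a3⟩ := kink_indep (h z hz) (h0 z hz) (x0 := ξ 0)
      (x1 := ξ 1 * (-2 * (2 * c ^ 2 - 1))) (x2 := t) (x3 := ξ 1 * c) (by
        rw [← e, hB]
        module)
    have a4 : ξ 1 = 0 := by linear_combination (1 / 2) * a1 + 2 * c * a3
    exact ⟨by rw [eq_ex_ey ξ, a0, a4]; simp, a2⟩)
  obtain ⟨C, hC⟩ := hK.exists_bound_of_continuousOn cy
  have hR : 0 < (|C| + 1) / κ := by positivity
  refine ⟨(|C| + 1) / κ, hR.le, fun z hz θ ξ t e => ?_⟩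
  generalize hRd : (|C| + 1) / κ = R at hR e
  have hR' : κ * R = |C| + 1 := by rw [← hRd]; field_simp
  have b := hq (z, Real.cos θ) ⟨hz, Real.cos_mem_Icc θ⟩ (ξ 0 • ex + (R * ξ 1) • ey) t
  have b0 : (ξ 0 • ex + (R * ξ 1) • ey : E2) 0 = ξ 0 := by simp [ex, ey]
  have b1 : (ξ 0 • ex + (R * ξ 1) • ey : E2) 1 = R * ξ 1 := by simp [ex, ey]
  have b2 : B (z, Real.cos θ) (ξ 0 • ex + (R * ξ 1) • ey) + t • ks (A z) N (α z) (β z) =
      -(ξ 1 • A z ey) := by
    rw [kinkA_apply, Real.cos_two_mul] at e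
    rw [hB, b0, b1, eq_neg_iff_add_eq_zero, ← e]
    module
  have b3 := PiLp.norm_apply_le (ξ 0 • ex + (R * ξ 1) • ey : E2) 1
  have b4 := PiLp.norm_apply_le (ξ 0 • ex + (R * ξ 1) • ey : E2) 0
  rw [b1, Real.norm_eq_abs, abs_mul, abs_of_pos hR] at b3
  rw [b0, Real.norm_eq_abs] at b4
  rw [b2, norm_neg, norm_smul, Real.norm_eq_abs] at b
  have b5 : |ξ 1| * ‖A z ey‖ ≤ |ξ 1| * |C| :=
    mul_le_mul_of_nonneg_left ((hC z hz).trans (le_abs_self C)) (abs_nonneg _)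
  have b6 := mul_le_mul_of_nonneg_left b3 hκ.le
  have b7 := mul_nonneg hκ.le (abs_nonneg t)
  have a4 : ξ 1 = 0 := by
    rw [← mul_assoc, hR'] at b6
    exact abs_nonpos_iff.1 (by nlinarith)
  rw [a4, abs_zero, zero_mul] at b
  rw [a4] at b4
  have b8 := (mul_nonpos_iff_pos_imp_nonpos.1 b).1 hκ
  have a0 : ξ 0 = 0 := abs_nonpos_iff.1 (by linarith [abs_nonneg t])
  exact ⟨by rw [eq_ex_ey ξ, a0, a4]; simp, abs_nonpos_iff.1 (by linarith [abs_nonneg (ξ 0)])⟩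

end Vale.Agent.P205.T
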