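import Vale.Agent.P205.T.Basic
import Vale.Agent.P205.T.CLog

/-!
P205 T/NF (about 150 lines): normal form of a field on the unit disc.
`A z = fderiv ℝ (f ∘ φ.symm) z`; `Fr.coords` on `closedBall 0 3` gives `s (φ.symm z) = A z (ξ z) + N (u z)`.
`Z` finite gives `r ∈ Ioo 1 2` different from all `‖φ p‖`, `p ∈ Z` (`Set.Infinite.exists_notMem_finite`
with `Set.Ioo_infinite`), so `u ≠ 0` on `sphere 0 r` (`ind_chart`, `ne_of_ind`). `circle_log` for
`u ∘ cz.symm`; in the second case replace `N` by `N.comp cj` and `u` by its conjugate (`Fr.conj`), so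
prove a lemma for the first case and apply it twice. `χ z = max 0 ((‖z‖ - 1) / (r - 1))` is `0` on the
unit disc and `1` on `sphere 0 r`; `S z = A z (χ z • ξ z) + N (exp (χ z * G (cz z)) * cz z ^ n)` is
continuous on `closedBall 0 r` (near `0` the product `χ * G` vanishes identically). `patch` with
radius `r`. For `1 < ‖z‖ ≤ r` use `Fr.ind` and `ind_chart`.
-/

open scoped Manifold ContDiff Topology RealInnerProductSpace
open Set Filter Metric Function

noncomputable section

namespace Vale.Agent.P205.T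

variable {M : Type*} [TopologicalSpace M] [ChartedSpace E2 M] [IsManifold I2 ∞ M]

theorem nf_aux [T2Space M] {f : M → E4} (hf : Sm f) {x : M} {φ : Chart M} {N : ℂ →L[ℝ] E4}
    (hD : Disc f x φ N) {s : M → E4} (hs : Continuous s) {r : ℝ} (hr : r ∈ Ioo (1 : ℝ) 2)
    {ξ : E2 → E2} (hξ : ContinuousOn ξ (closedBall 0 3)) {G : ℂ → ℂ} (hG : ContinuousOn G {0}ᶜ)
    {n : ℕ} (h : ∀ z ∈ sphere (0 : E2) r, s (φ.symm z) =
      fderiv ℝ (f ∘ φ.symm) z (ξ z) + N (Complex.exp (G (cz z)) * cz z ^ n)) :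
    ∃ s1 : M → E4, Continuous s1 ∧
      (∀ z ∈ closedBall (0 : E2) 1, s1 (φ.symm z) = N (cz z ^ n)) ∧
      ∀ p ∉ φ.symm '' closedBall 0 1, Ind (dM f p) (s p) → Ind (dM f p) (s1 p) := by
  have sr : closedBall (0 : E2) r ⊆ closedBall 0 3 :=
    closedBall_subset_closedBall (by linarith [hr.2])
  set χ : E2 → ℝ := fun z => max 0 ((‖z‖ - 1) / (r - 1)) with hχ
  have cχ : Continuous χ := by fun_prop
  have χ0 : ∀ z : E2, ‖z‖ ≤ 1 → χ z = 0 := fun z hz =>
    max_eq_left (div_nonpos_of_nonpos_of_nonneg (by linarith) (by linarith [hr.1]))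
  have χ1 : ∀ z : E2, ‖z‖ = r → χ z = 1 := fun z hz => by
    simp only [hχ, hz]
    rw [div_self (by linarith [hr.1])]
    simp
  have cG : Continuous fun z : E2 => χ z • G (cz z) := by
    refine continuous_iff_continuousAt.2 fun z => ?_
    by_cases hz : ‖z‖ < 1
    · refine continuousAt_const.congr (f := fun _ => (0 : ℂ)) ?_
      filter_upwards [(isOpen_lt continuous_norm continuous_const).mem_nhds hz] with w hw
      rw [χ0 w hw.le, zero_smul]
    · refine cχ.continuousAt.smul (ContinuousAt.comp (hG.continuousAt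
        (isOpen_compl_singleton.mem_nhds fun h0 => hz ?_)) cz.continuous.continuousAt)
      rw [← cz.norm_map, show cz z = 0 from h0]
      simp
  have cA := (cont_fderiv_chart hf hD.ch).mono (sr.trans hD.sub)
  obtain ⟨s1, hs1, e1, e2⟩ := patch (sr.trans hD.sub) hs (S := fun z =>
    fderiv ℝ (f ∘ φ.symm) z (χ z • ξ z) + N (Complex.exp (χ z • G (cz z)) * cz z ^ n))
    ((cA.clm_apply (cχ.continuousOn.smul (hξ.mono sr))).add (N.continuous.comp
      (cG.cexp.mul (cz.continuous.pow n))).continuousOn) (fun z hz => by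
      rw [h z hz, χ1 z (mem_sphere_zero_iff_norm.1 hz), one_smul, one_smul])
  refine ⟨s1, hs1, fun z hz => ?_, fun p hp hi => ?_⟩
  · rw [e1 z (closedBall_subset_closedBall hr.1.le hz), χ0 z (mem_closedBall_zero_iff.1 hz)]
    simp
  · by_cases hpr : p ∈ φ.symm '' closedBall 0 r
    · obtain ⟨z, hz, rfl⟩ := hpr
      rw [e1 z hz, ← ind_chart hf hD.ch (hD.sub (sr hz))]
      refine (hD.fr z (sr hz)).ind _ (mul_ne_zero (Complex.exp_ne_zero _) (pow_ne_zero _ ?_))
      intro h0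
      refine hp ⟨z, ?_, rfl⟩
      rw [mem_closedBall_zero_iff, ← cz.norm_map, h0]
      simp
    · rwa [e2 p hpr]

theorem normal_form [T2Space M] {f : M → E4} (hf : Sm f) {x : M} {φ : Chart M} {N : ℂ →L[ℝ] E4}
    (hD : Disc f x φ N) {s : M → E4} (hs : Continuous s) (hZ : (Zs f s).Finite) :
    ∃ N' : ℂ →L[ℝ] E4, Disc f x φ N' ∧ ∃ (n : ℕ) (s1 : M → E4), Continuous s1 ∧
      (∀ z ∈ closedBall (0 : E2) 1, s1 (φ.symm z) = N' (cz z ^ n)) ∧
      ∀ p ∉ φ.symm '' closedBall 0 1, Ind (dM f p) (s p) → Ind (dM f p) (s1 p) := by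
  obtain ⟨ξ, u, hξ, hu, e⟩ := Fr.coords ((cont_fderiv_chart hf hD.ch).mono hD.sub)
    (hs.comp_continuousOn (φ.continuousOn_symm.mono hD.sub)) hD.fr
  obtain ⟨r, hr, hrZ⟩ := (Ioo_infinite (show (1 : ℝ) < 2 by norm_num)).exists_notMem_finite
    (hZ.image fun p => ‖φ p‖)
  have sr : sphere (0 : E2) r ⊆ closedBall 0 3 :=
    sphere_subset_closedBall.trans (closedBall_subset_closedBall (by linarith [hr.2]))
  have ms : MapsTo cz.symm (sphere (0 : ℂ) r) (sphere (0 : E2) r) := fun w hw => by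
    rwa [mem_sphere_zero_iff_norm, cz.symm.norm_map, ← mem_sphere_zero_iff_norm]
  have ms' : MapsTo cz (sphere (0 : E2) r) (sphere (0 : ℂ) r) := fun w hw => by
    rwa [mem_sphere_zero_iff_norm, cz.norm_map, ← mem_sphere_zero_iff_norm]
  have u0 : ∀ z ∈ sphere (0 : E2) r, u z ≠ 0 := fun z hz => by
    have h1 : Ind (dM f (φ.symm z)) (s (φ.symm z)) := by
      by_contra h1
      exact hrZ ⟨φ.symm z, h1, by
        simp only [φ.right_inv (hD.sub (sr hz))]; exact mem_sphere_zero_iff_norm.1 hz⟩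
    rw [← ind_chart hf hD.ch (hD.sub (sr hz)), show s (φ.symm z) = _ from e z (sr hz)] at h1
    exact ne_of_ind h1
  obtain ⟨G, n, hG, h | h⟩ := circle_log (u := u ∘ cz.symm) (by linarith [hr.1])
    ((hu.mono sr).comp cz.symm.continuous.continuousOn ms) fun w hw => u0 _ (ms hw)
  · refine ⟨N, hD, n, nf_aux hf hD hs hr hξ hG fun z hz => ?_⟩
    rw [← h _ (ms' hz), comp_apply, cz.symm_apply_apply]
    exact e z (sr hz)
  · have hD' : Disc f x φ (N.comp cj) := ⟨hD.ch, hD.mem, hD.ctr, hD.sub, fun z hz => (hD.fr z hz).conj⟩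
    refine ⟨_, hD', n, nf_aux hf hD' hs hr hξ hG fun z hz => ?_⟩
    rw [← h _ (ms' hz), comp_apply, cz.symm_apply_apply, ContinuousLinearMap.comp_apply, cj_apply,
      Complex.conj_conj]
    exact e z (sr hz)

end Vale.Agent.P205.T
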