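import Vale.Agent.P205.T.Basic

/-!
P205 T/Near (about 150 lines): near the diagonal `f x - f x' = τ • s x'` forces `x = x'`.
* `near_diag`: read in `φ = chartAt E2 p`, `F = f ∘ φ.symm`, `S = s ∘ φ.symm`, `z0 = φ p`, `A = DF z0`,
  `B = DS z0`; `F` is strictly differentiable at `z0` (`ContDiffAt.hasStrictFDerivAt`), so
  `‖F z - F w - A (z - w)‖ ≤ ε ‖z - w‖` near `(z0, z0)`. First case (`ind_chart`, `Ind.exists_indQ`):
  `κ (‖z - w‖ + τ) ≤ ‖A (z - w) - τ • S z0‖ ≤ ε ‖z - w‖ + τ ε`. Second case (`tr_chart`; the map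
  `(ξ, η) ↦ A ξ - B η` is antilipschitz by `LinearMap.exists_antilipschitzWith`): with `ξ = z - w`,
  `η = τ • (w - z0)`, `‖A ξ - B η‖ ≤ ε ‖ξ‖ + ε ‖η‖` because `‖S w - B (w - z0)‖ ≤ ε ‖w - z0‖`.
  Pull back along the continuous map `(φ q.1, φ q.2)`; `φ` is injective on its source.
* `near_unif`: `O` = interior of the good set contains the diagonal of `C`; on the compact set
  `C ×ˢ C \ O` the continuous function `‖f x - f x'‖ + |t x - t x'|` is positive
  (`IsCompact.exists_forall_le'`); take a third of its lower bound.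
-/

open scoped Manifold ContDiff Topology RealInnerProductSpace
open Set Filter Metric Function

noncomputable section

namespace Vale.Agent.P205.T

variable {M : Type*} [TopologicalSpace M] [ChartedSpace E2 M] [IsManifold I2 ∞ M]

theorem Near_plane {F S : E2 → E4} {z0 : E2} (hF : ContDiffAt ℝ ∞ F z0)
    (hS : ContDiffAt ℝ ∞ S z0)
    (h : Ind (fderiv ℝ F z0) (S z0) ∨ (S z0 = 0 ∧ Tr (fderiv ℝ F z0) (fderiv ℝ S z0))) :
    ∀ᶠ q : E2 × E2 in 𝓝 (z0, z0), ∀ τ ∈ Icc (0 : ℝ) 1,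
      F q.1 - F q.2 = τ • S q.2 → q.1 = q.2 := by
  have h1 := (hF.hasStrictFDerivAt (by simp)).isLittleO
  have hsnd : Tendsto (Prod.snd : E2 × E2 → E2) (𝓝 (z0, z0)) (𝓝 z0) := continuous_snd.tendsto _
  generalize fderiv ℝ F z0 = A at h h1
  rcases h with h | ⟨h0, h⟩
  · obtain ⟨κ, hκ, hq⟩ := h.exists_indQ
    have h2 : ∀ᶠ w in 𝓝 z0, dist (S w) (S z0) < κ / 2 :=
      Metric.tendsto_nhds.1 hS.continuousAt _ (half_pos hκ)
    filter_upwards [h1.def (half_pos hκ), hsnd.eventually h2] with q a1 a2 τ hτ e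
    have a3 := hq (q.1 - q.2) (-τ)
    have e2 : A (q.1 - q.2) + -τ • S z0 =
        τ • (S q.2 - S z0) - (F q.1 - F q.2 - A (q.1 - q.2)) := by
      rw [e]
      module
    rw [e2, abs_neg, abs_of_nonneg hτ.1] at a3
    have a4 := norm_sub_le (τ • (S q.2 - S z0)) (F q.1 - F q.2 - A (q.1 - q.2))
    rw [norm_smul, Real.norm_of_nonneg hτ.1] at a4
    rw [dist_eq_norm] at a2
    have a5 := mul_le_mul_of_nonneg_left a2.le hτ.1
    have a6 := mul_nonneg hκ.le hτ.1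
    have a7 : κ / 2 * ‖q.1 - q.2‖ ≤ 0 := by linarith
    exact sub_eq_zero.1 (norm_le_zero_iff.1 (nonpos_of_mul_nonpos_right a7 (half_pos hκ)))
  · have h2 := (hS.differentiableAt (by simp)).hasFDerivAt.isLittleO
    generalize fderiv ℝ S z0 = B at h h2
    obtain ⟨K, hK, hL⟩ := LinearMap.exists_antilipschitzWith
      ((A.coprod (-B) : E2 × E2 →L[ℝ] E4) : E2 × E2 →ₗ[ℝ] E4) (by
        rw [LinearMap.ker_eq_bot']
        intro x hx
        have hx' : A x.1 + -B x.2 = 0 := hx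
        obtain ⟨b1, b2⟩ := h x.1 x.2 (add_neg_eq_zero.1 hx')
        exact Prod.ext b1 b2)
    have hK' : (0 : ℝ) < K := hK
    have hε : (0 : ℝ) < 1 / (4 * K) := by positivity
    filter_upwards [h1.def hε, hsnd.eventually (h2.def hε)] with q a1 a2 τ hτ e
    have a3 : ‖(q.1 - q.2, τ • (q.2 - z0))‖ ≤ K * ‖A (q.1 - q.2) + -B (τ • (q.2 - z0))‖ :=
      ZeroHomClass.bound_of_antilipschitz _ hL (q.1 - q.2, τ • (q.2 - z0))
    have e2 : A (q.1 - q.2) + -B (τ • (q.2 - z0)) =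
        τ • (S q.2 - S z0 - B (q.2 - z0)) - (F q.1 - F q.2 - A (q.1 - q.2)) := by
      rw [e, h0, map_smul]
      module
    have a4 := norm_sub_le (τ • (S q.2 - S z0 - B (q.2 - z0))) (F q.1 - F q.2 - A (q.1 - q.2))
    rw [norm_smul, Real.norm_of_nonneg hτ.1, ← e2] at a4
    have a5 := mul_le_mul_of_nonneg_left a2 hτ.1
    have b1 : ‖q.1 - q.2‖ ≤ ‖(q.1 - q.2, τ • (q.2 - z0))‖ := norm_fst_le (q.1 - q.2, _)
    have b2 : ‖τ • (q.2 - z0)‖ ≤ ‖(q.1 - q.2, τ • (q.2 - z0))‖ := norm_snd_le (q.1 - q.2, _)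
    rw [norm_smul, Real.norm_of_nonneg hτ.1] at b2
    have c1 := mul_le_mul_of_nonneg_left b1 hε.le
    have c2 := mul_le_mul_of_nonneg_left b2 hε.le
    generalize ‖(q.1 - q.2, τ • (q.2 - z0))‖ = n at *
    have c3 : ‖A (q.1 - q.2) + -B (τ • (q.2 - z0))‖ ≤ 2 * (1 / (4 * K)) * n := by linarith
    have c4 := mul_le_mul_of_nonneg_left c3 hK'.le
    have c5 : K * (2 * (1 / (4 * K)) * n) = n / 2 := by
      field_simp
      ring
    exact sub_eq_zero.1 (norm_le_zero_iff.1 (by linarith))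

theorem near_diag {f s : M → E4} (hf : Sm f) (hs : Sm s) {p : M}
    (h : Ind (dM f p) (s p) ∨ (s p = 0 ∧ Tr (dM f p) (dM s p))) :
    ∀ᶠ q : M × M in 𝓝 (p, p), ∀ τ ∈ Icc (0 : ℝ) 1, f q.1 - f q.2 = τ • s q.2 → q.1 = q.2 := by
  have hφ := isCh_chartAt p
  have hp := mem_chart_source E2 p
  set φ := chartAt E2 p
  have ht := φ.map_source hp
  have h1 := Near_plane (hf.contDiffAt hφ ht) (hs.contDiffAt hφ ht) (by
    rw [ind_chart hf hφ ht, tr_chart hf hs hφ hφ ht ht, comp_apply, φ.left_inv hp]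
    exact h)
  have hc := φ.continuousAt hp
  have h2 : Tendsto (fun q : M × M => (φ q.1, φ q.2)) (𝓝 (p, p)) (𝓝 (φ p, φ p)) :=
    (hc.tendsto.comp (continuous_fst.tendsto (p, p))).prodMk_nhds
      (hc.tendsto.comp (continuous_snd.tendsto (p, p)))
  have h3 : ∀ᶠ x in 𝓝 p, x ∈ φ.source := φ.open_source.mem_nhds hp
  filter_upwards [h2.eventually h1, (continuous_fst.tendsto (p, p)).eventually h3,
    (continuous_snd.tendsto (p, p)).eventually h3] with q a1 a2 a3 τ hτ e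
  refine φ.injOn a2 a3 (a1 τ hτ ?_)
  simp only [comp_apply, φ.left_inv a2, φ.left_inv a3]
  exact e

theorem near_unif [CompactSpace M] {f s : M → E4} {t : M → ℝ} (hf : Sm f) (hs : Sm s)
    (ht : Continuous t) (hE : ∀ x x', f x = f x' → t x = t x' → x = x') {C : Set M}
    (hC : IsClosed C)
    (h : ∀ p ∈ C, Ind (dM f p) (s p) ∨ (s p = 0 ∧ Tr (dM f p) (dM s p))) :
    ∃ ρ : ℝ, 0 < ρ ∧ ∀ x ∈ C, ∀ x' ∈ C, ‖f x - f x'‖ ≤ ρ → |t x - t x'| ≤ ρ →
      ∀ τ ∈ Icc (0 : ℝ) 1, f x - f x' = τ • s x' → x = x' := by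
  set G : Set (M × M) :=
    {q | ∀ τ ∈ Icc (0 : ℝ) 1, f q.1 - f q.2 = τ • s q.2 → q.1 = q.2} with hG
  have hK : IsCompact (C ×ˢ C \ interior G) := ((hC.prod hC).sdiff isOpen_interior).isCompact
  have hfc := hf.continuous
  have hg : Continuous fun q : M × M => ‖f q.1 - f q.2‖ + |t q.1 - t q.2| := by fun_prop
  obtain ⟨a, ha, hb⟩ := hK.exists_forall_le' hg.continuousOn (a := 0) fun q hq => by
    by_contra hn
    have a1 := norm_nonneg (f q.1 - f q.2)
    have a2 := abs_nonneg (t q.1 - t q.2)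
    have e : q.1 = q.2 := hE _ _ (sub_eq_zero.1 (norm_le_zero_iff.1 (by linarith)))
      (sub_eq_zero.1 (abs_nonpos_iff.1 (by linarith)))
    refine hq.2 (mem_interior_iff_mem_nhds.2 ?_)
    rw [show q = (q.1, q.1) from Prod.ext rfl e.symm]
    exact near_diag hf hs (h q.1 hq.1.1)
  refine ⟨a / 3, by positivity, fun x hx x' hx' h1 h2 => ?_⟩
  by_cases hO : (x, x') ∈ interior G
  · exact interior_subset hO
  · have : a ≤ ‖f x - f x'‖ + |t x - t x'| := hb (x, x') ⟨⟨hx, hx'⟩, hO⟩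
    exact absurd this (by linarith)

end Vale.Agent.P205.T
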