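import Vale.Agent.P205.T.Basic

/-!
P205 T/ParAux (about 110 lines): small lemmas for the parity argument.
* `exists_cut`: `k u = Real.smoothTransition (2 - 2 * u / δ ^ 2)`,
  `θ u = Real.smoothTransition (u / δ - 1) - Real.smoothTransition (-u / δ - 1)`.
* `even_of_swap`: `Set.ncard_union_eq` twice (disjointness from `hd`), `Set.ncard_image_of_injective`.
* `sm_indicator`: locally constant (`contMDiffAt_const.congr_of_eventuallyEq`).
* `dM_add`, `dM_add_const`: `mfderiv` rules (`HasMFDerivAt.add`), or through `Sm.dM_eq` in `chartAt`.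
* `root_count`: transport along `cz` (`Set.ncard_image_of_injective`/`ncard_preimage`) to
  `{w : ℂ | w ^ n = a}`, the finset of `Polynomial.nthRoots n a`; `Complex.isPrimitiveRoot_exp`,
  `IsPrimitiveRoot.card_nthRoots`, `IsPrimitiveRoot.nthRoots_nodup`, `Polynomial.mem_nthRoots`.
-/

open scoped Manifold ContDiff Topology RealInnerProductSpace
open Set Filter Metric Function

noncomputable section

namespace Vale.Agent.P205.T

variable {M : Type*} [TopologicalSpace M] [ChartedSpace E2 M] [IsManifold I2 ∞ M]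

theorem exists_cut {δ : ℝ} (hδ : 0 < δ) : ∃ k θ : ℝ → ℝ, ContDiff ℝ 1 k ∧ ContDiff ℝ 1 θ ∧
    (∀ u, k u ∈ Icc (0 : ℝ) 1) ∧ (∀ u, u ≤ δ ^ 2 / 2 → k u = 1) ∧ (∀ u, δ ^ 2 ≤ u → k u = 0) ∧
    (∀ u, |θ u| ≤ 1) ∧ (∀ u, |u| ≤ δ → θ u = 0) ∧ (∀ u, 2 * δ ≤ u → θ u = 1) ∧
    ∀ u, u ≤ -(2 * δ) → θ u = -1 := by
  have hd2 : 0 < δ ^ 2 := by positivity
  refine ⟨fun u => Real.smoothTransition (2 - 2 * u / δ ^ 2),
    fun u => Real.smoothTransition (u / δ - 1) - Real.smoothTransition (-u / δ - 1),
    ?_, ?_, fun u => ⟨Real.smoothTransition.nonneg _, Real.smoothTransition.le_one _⟩,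
    fun u hu => ?_, fun u hu => ?_, fun u => ?_, fun u hu => ?_, fun u hu => ?_, fun u hu => ?_⟩
  · exact Real.smoothTransition.contDiff.comp
      (contDiff_const.sub ((contDiff_const.mul contDiff_id).div_const _))
  · exact (Real.smoothTransition.contDiff.comp ((contDiff_id.div_const _).sub contDiff_const)).sub
      (Real.smoothTransition.contDiff.comp ((contDiff_id.neg.div_const _).sub contDiff_const))
  · refine Real.smoothTransition.one_of_one_le ?_
    have : 2 * u / δ ^ 2 ≤ 1 := by rw [div_le_one hd2]; linarith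
    linarith
  · refine Real.smoothTransition.zero_of_nonpos ?_
    have : 2 ≤ 2 * u / δ ^ 2 := by rw [le_div_iff₀ hd2]; linarith
    linarith
  · have a1 := Real.smoothTransition.nonneg (u / δ - 1)
    have a2 := Real.smoothTransition.le_one (u / δ - 1)
    have a3 := Real.smoothTransition.nonneg (-u / δ - 1)
    have a4 := Real.smoothTransition.le_one (-u / δ - 1)
    rw [abs_le]
    constructor <;> linarith
  · obtain ⟨h1, h2⟩ := abs_le.1 hu
    have a1 : u / δ - 1 ≤ 0 := by rw [sub_nonpos, div_le_one hδ]; exact h2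
    have a2 : -u / δ - 1 ≤ 0 := by rw [sub_nonpos, div_le_one hδ]; linarith
    simp only [Real.smoothTransition.zero_of_nonpos a1, Real.smoothTransition.zero_of_nonpos a2,
      sub_zero]
  · have a1 : 1 ≤ u / δ - 1 := by rw [le_sub_iff_add_le, le_div_iff₀ hδ]; linarith
    have a2 : -u / δ - 1 ≤ 0 := by rw [sub_nonpos, div_le_one hδ]; linarith
    simp only [Real.smoothTransition.one_of_one_le a1, Real.smoothTransition.zero_of_nonpos a2,
      sub_zero]
  · have a1 : u / δ - 1 ≤ 0 := by rw [sub_nonpos, div_le_one hδ]; linarith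
    have a2 : 1 ≤ -u / δ - 1 := by rw [le_sub_iff_add_le, le_div_iff₀ hδ]; linarith
    simp only [Real.smoothTransition.one_of_one_le a2, Real.smoothTransition.zero_of_nonpos a1,
      zero_sub]

theorem even_of_swap {X : Type*} {Z : Set X} {S W : Set (X × X)} (hW : W.Finite)
    (he : Even W.ncard) (h : W = (fun p => (p, p)) '' Z ∪ S ∪ Prod.swap '' S)
    (hd : ∀ q ∈ S, q.1 ≠ q.2 ∧ q.swap ∉ S) : Even Z.ncard := by
  have hinj : Injective fun p : X => (p, p) := fun a b hab => congrArg Prod.fst hab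
  rw [h] at hW he
  have f1 : ((fun p => (p, p)) '' Z ∪ S).Finite := hW.subset subset_union_left
  have f2 : (Prod.swap '' S).Finite := hW.subset subset_union_right
  have d1 : Disjoint ((fun p : X => (p, p)) '' Z) S := by
    rw [Set.disjoint_left]
    rintro _ ⟨p, -, rfl⟩ hq
    exact (hd _ hq).1 rfl
  have d2 : Disjoint ((fun p : X => (p, p)) '' Z ∪ S) (Prod.swap '' S) := by
    rw [Set.disjoint_left]
    rintro _ hq ⟨q, hq', rfl⟩
    rcases hq with ⟨p, -, hp⟩ | hq
    · apply (hd _ hq').1
      have a := congrArg Prod.fst hp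
      have b := congrArg Prod.snd hp
      simp only [Prod.fst_swap, Prod.snd_swap] at a b
      exact b.symm.trans a
    · exact (hd _ hq').2 hq
  rw [Set.ncard_union_eq d2 f1 f2,
    Set.ncard_union_eq d1 (f1.subset subset_union_left) (f1.subset subset_union_right),
    Set.ncard_image_of_injective _ hinj, Set.ncard_image_of_injective _ Prod.swap_injective,
    add_assoc] at he
  exact (Nat.even_add.1 he).2 ⟨_, rfl⟩

theorem sm_indicator {C : Set M} (hC : IsClopen C) : Sm (C.indicator fun _ => (1 : ℝ)) := by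
  intro p
  by_cases hp : p ∈ C
  · refine (contMDiffAt_const (c := (1 : ℝ))).congr_of_eventuallyEq ?_
    filter_upwards [hC.isOpen.mem_nhds hp] with q hq
    exact indicator_of_mem hq _
  · refine (contMDiffAt_const (c := (0 : ℝ))).congr_of_eventuallyEq ?_
    filter_upwards [hC.isClosed.isOpen_compl.mem_nhds hp] with q hq
    exact indicator_of_notMem hq _

theorem dM_add {f g : M → E4} (hf : Sm f) (hg : Sm g) (p : M) :
    dM (fun q => f q + g q) p = dM f p + dM g p := by
  have a := (hf.mdifferentiableAt (x := p) (by simp)).hasMFDerivAt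
  have b := (hg.mdifferentiableAt (x := p) (by simp)).hasMFDerivAt
  exact (a.add b).mfderiv

theorem dM_add_const {f : M → E4} (hf : Sm f) (y : E4) (p : M) :
    dM (fun q => f q + y) p = dM f p := by
  have hy : Sm fun _ : M => y := contMDiff_const
  rw [dM_add hf hy]
  have : dM (fun _ : M => y) p = 0 := mfderiv_const
  rw [this, add_zero]

theorem root_count {n : ℕ} (hn : n ≠ 0) {b : ℂ} (hb : b ≠ 0) :
    {z : E2 | cz z ^ n = b ^ n}.ncard = n := by
  classical
  have e1 : {z : E2 | cz z ^ n = b ^ n} = cz ⁻¹' {w : ℂ | w ^ n = b ^ n} := rfl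
  have hn' : 0 < n := Nat.pos_of_ne_zero hn
  have e2 : {w : ℂ | w ^ n = b ^ n} = ↑(Polynomial.nthRoots n (b ^ n)).toFinset := by
    ext w
    simp only [mem_ofPred_eq, Finset.mem_coe, Multiset.mem_toFinset,
      Polynomial.mem_nthRoots hn']
  have hζ := Complex.isPrimitiveRoot_exp n hn
  rw [e1, Set.ncard_preimage_of_injective_subset_range cz.injective
    (by rw [cz.surjective.range_eq]; exact subset_univ _), e2, Set.ncard_coe_finset,
    Multiset.toFinset_card_of_nodup (hζ.nthRoots_nodup (pow_ne_zero n hb)), hζ.card_nthRoots,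
    if_pos ⟨b, rfl⟩]

end Vale.Agent.P205.T
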