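import Vale.Agent.P205.T.Basic

/-!
P205 T/Sard (about 130 lines).
* `sard4`: `L : E4 ≃L[ℝ] E2 × E2` (`ContinuousLinearEquiv.ofFinrankEq`); apply
  `MeasureTheory.addHaar_image_eq_zero_of_det_fderivWithin_eq_zero` on `E4` to `u ∘ L` on the
  preimage of the critical set (non injective gives determinant zero:
  `LinearMap.det_eq_zero_iff_ker_ne_bot` or similar).
* `finite_fiber`: `IsCompact.finite` with discreteness from `HasFDerivAt.eventually_ne` and
  `LinearMap.exists_antilipschitzWith` (apply it to `u` with `c = v`).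
* `exists_reg_diff`: finite cover (`exists_fin_cover`); for each pair of charts apply `sard4` to
  `(z, w) ↦ f (φ.symm z) - f (ψ.symm w)` on the product of the targets, whose derivative is
  `(ξ, η) ↦ DF ξ - DG η`; a finite union of null sets does not contain `ball 0 c`
  (`Metric.measure_ball_pos`); then `tr_chart`.
-/

open scoped Manifold ContDiff Topology RealInnerProductSpace
open Set Filter Metric Function

noncomputable section

namespace Vale.Agent.P205.T

variable {M : Type*} [TopologicalSpace M] [ChartedSpace E2 M] [IsManifold I2 ∞ M]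

theorem sard4 {u : E2 × E2 → E4} {O : Set (E2 × E2)} (hu : ∀ z ∈ O, DifferentiableAt ℝ u z) :
    MeasureTheory.volume (u '' {z | z ∈ O ∧ ¬ Injective (fderiv ℝ u z)}) = 0 := by
  have L : E4 ≃L[ℝ] E2 × E2 := ContinuousLinearEquiv.ofFinrankEq (by simp)
  have h := MeasureTheory.addHaar_image_eq_zero_of_det_fderivWithin_eq_zero
    (MeasureTheory.volume : MeasureTheory.Measure E4) (f := u ∘ L)
    (s := L ⁻¹' {z | z ∈ O ∧ ¬ Injective (fderiv ℝ u z)})
    (f' := fun x => (fderiv ℝ u (L x)).comp (L : E4 →L[ℝ] E2 × E2))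
    (fun x hx => ((hu _ hx.1).hasFDerivAt.comp x L.hasFDerivAt).hasFDerivWithinAt)
    (fun x hx => LinearMap.det_eq_zero_iff_ker_ne_bot.mpr fun hk => hx.2 (by
      have hi : Injective (fderiv ℝ u (L x) ∘ L) := LinearMap.ker_eq_bot.mp hk
      exact hi.of_comp_right L.surjective))
  rwa [image_comp, image_preimage_eq _ L.surjective] at h

theorem finite_fiber {u : E2 × E2 → E4} {W : Set (E2 × E2)} {v : E4} (hW : IsCompact W)
    (h : ∀ x ∈ W, u x = v ∧ DifferentiableAt ℝ u x ∧ Injective (fderiv ℝ u x)) : W.Finite := by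
  refine hW.finite (isDiscrete_iff_nhdsNE.mpr fun x hx => ?_)
  obtain ⟨-, h2, h3⟩ := h x hx
  obtain ⟨K, -, hK⟩ := LinearMap.exists_antilipschitzWith (fderiv ℝ u x).toLinearMap
    (LinearMap.ker_eq_bot.mpr h3)
  rw [inf_principal_eq_bot]
  exact (h2.hasFDerivAt.eventually_ne (c := v) ⟨K, hK⟩).mono fun z hz hz' => hz (h z hz').1

theorem exists_reg_diff [CompactSpace M] {f : M → E4} (hf : Sm f) {c : ℝ} (hc : 0 < c) :
    ∃ y : E4, ‖y‖ < c ∧ ∀ x x', f x - f x' = y → Tr (dM f x) (dM f x') := by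
  obtain ⟨s, hs, hcov⟩ := exists_fin_cover (M := M)
  have hd : ∀ φ : Chart M, IsCh φ → ∀ z ∈ φ.target, DifferentiableAt ℝ (f ∘ φ.symm) z :=
    fun φ hφ z hz => (hf.contDiffAt hφ hz).differentiableAt (by simp)
  have hD : ∀ φ ψ : Chart M, IsCh φ → IsCh ψ → ∀ z ∈ φ.target ×ˢ ψ.target,
      HasFDerivAt (fun z : E2 × E2 => (f ∘ φ.symm) z.1 - (f ∘ ψ.symm) z.2)
        ((fderiv ℝ (f ∘ φ.symm) z.1).comp (ContinuousLinearMap.fst ℝ E2 E2) -
          (fderiv ℝ (f ∘ ψ.symm) z.2).comp (ContinuousLinearMap.snd ℝ E2 E2)) z :=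
    fun φ ψ hφ hψ z hz => ((hd φ hφ _ hz.1).hasFDerivAt.comp z hasFDerivAt_fst).sub
      ((hd ψ hψ _ hz.2).hasFDerivAt.comp z hasFDerivAt_snd)
  have h0 : MeasureTheory.volume (⋃ a ∈ s, ⋃ b ∈ s,
      (fun z : E2 × E2 => (f ∘ a.1.symm) z.1 - (f ∘ b.1.symm) z.2) ''
        {z | z ∈ a.1.target ×ˢ b.1.target ∧ ¬ Injective
          (fderiv ℝ (fun z : E2 × E2 => (f ∘ a.1.symm) z.1 - (f ∘ b.1.symm) z.2) z)}) = 0 := by
    refine (MeasureTheory.measure_biUnion_null_iff s.countable_toSet).mpr fun a ha => ?_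
    refine (MeasureTheory.measure_biUnion_null_iff s.countable_toSet).mpr fun b hb => ?_
    exact sard4 fun z hz => (hD _ _ (hs a ha).1 (hs b hb).1 z hz).differentiableAt
  obtain ⟨y, hy, hy'⟩ := not_subset.mp fun h => (measure_ball_pos MeasureTheory.volume (0 : E4) hc).ne'
    (MeasureTheory.measure_mono_null h h0)
  refine ⟨y, mem_ball_zero_iff.mp hy, fun x x' hx => ?_⟩
  obtain ⟨a, ha, hxa, -⟩ := hcov x
  obtain ⟨b, hb, hxb, -⟩ := hcov x'
  have hz : (a.1 x, b.1 x') ∈ a.1.target ×ˢ b.1.target := ⟨a.1.map_source hxa, b.1.map_source hxb⟩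
  have hi : Injective (fderiv ℝ (fun z : E2 × E2 => (f ∘ a.1.symm) z.1 - (f ∘ b.1.symm) z.2)
      (a.1 x, b.1 x')) := by
    by_contra hn
    refine hy' (mem_biUnion ha (mem_biUnion hb ⟨(a.1 x, b.1 x'), ⟨hz, hn⟩, ?_⟩))
    simp only [comp_apply, a.1.left_inv hxa, b.1.left_inv hxb, hx]
  rw [(hD _ _ (hs a ha).1 (hs b hb).1 _ hz).fderiv] at hi
  have ht := (tr_chart hf hf (hs a ha).1 (hs b hb).1 hz.1 hz.2).mp fun ξ η h => by
    have h1 : ((ξ, η) : E2 × E2) = 0 := hi (by simp [h])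
    exact Prod.mk_eq_zero.mp h1
  rwa [a.1.left_inv hxa, b.1.left_inv hxb] at ht

end Vale.Agent.P205.T
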