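import Vale.Agent.P205.T.EvenP
import Vale.Agent.P205.T.Near
import Vale.Agent.P205.T.ParAux
import Vale.Agent.P205.T.Sard

/-!
P205 T/Parity (about 200 lines): a field with nondegenerate zeros has an even number of them in `C`.
`ρ` from `near_unif`, `δ = ρ / 2`, `k, θ` from `exists_cut`. Write `Df = f x - f x'`, `Dt = t x - t x'`.
On the compact set `{(x, x') ∈ C ×ˢ C | δ ≤ |Dt| ≤ 2 δ}` we have `Df ≠ 0` (`near_unif` with `τ = 0`), so
`c ≤ ‖Df‖` with `c > 0`; `y` from `exists_reg_diff`. `G p = (f p, t p, s p, indicator C 1 p)`,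
`e0 = EuclideanSpace.single 0 1`, and for `a = (a1, a2, a3, a4)`, `b = (b1, b2, b3, b4)`
`Φ (a, b) = (a4 * b4) • (a1 - b1 - k (‖a1 - b1‖ ^ 2 + (a2 - b2) ^ 2) • b3 - θ (a2 - b2) • y - e0) + e0`.
Off `C ×ˢ C` the value is `e0 ≠ 0`. A zero in `C ×ˢ C` is of one of three kinds:
`|Dt| < δ`: `θ = 0`, `near_unif` (if `k ≠ 0` the distance is below `δ`; if `k = 0` then `Df = 0`) gives
`x = x'`, then `k = 1`, `s x = 0`; here use `g = f`, `h = f + s` (`dM_add`; `Ind` fails as `s x = 0`);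
`δ ≤ |Dt| ≤ 2 δ`: `k = 0`, `‖Df‖ ≤ ‖y‖ < c`, impossible; `Dt > 2 δ`: `Df = y`, `h = f + y`;
`Dt < -2 δ`: `Df = -y`, `h = f + (-y)`, `Tr` is symmetric. The eventual equalities hold since `C` is open
and the strict inequalities are open conditions. `even_prod`, then `even_of_swap` with
`S = {q | q.1 ∈ C ∧ q.2 ∈ C ∧ 2 * δ < t q.1 - t q.2 ∧ f q.1 - f q.2 = y}`.
-/

open scoped Manifold ContDiff Topology RealInnerProductSpace
open Set Filter Metric Function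

noncomputable section

namespace Vale.Agent.P205.T

variable {M : Type*} [TopologicalSpace M] [ChartedSpace E2 M] [IsManifold I2 ∞ M]

theorem parity_tr {A B : E2 →L[ℝ] E4} (h : Tr A B) : Tr A (A + B) := by
  intro ξ η e
  have h1 := h (ξ - η) η (by rw [map_sub, e]; simp)
  exact ⟨by simpa [h1.2] using h1.1, h1.2⟩

theorem parity_symm {A B : E2 →L[ℝ] E4} (h : Tr A B) : Tr B A :=
  fun ξ η e => (h η ξ e.symm).symm

theorem parity_not_ind (A : E2 →L[ℝ] E4) : ¬ Ind A 0 := fun h => by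
  simpa using (h 0 1 (by simp)).2

/-- The test map on pairs of jets. -/
def parPhi (k θ : ℝ → ℝ) (y e0 : E4) (a : (E4 × ℝ × E4 × ℝ) × E4 × ℝ × E4 × ℝ) : E4 :=
  (a.1.2.2.2 * a.2.2.2.2) • (a.1.1 - a.2.1 -
    k (‖a.1.1 - a.2.1‖ ^ 2 + (a.1.2.1 - a.2.2.1) ^ 2) • a.2.2.2.1 -
      θ (a.1.2.1 - a.2.2.1) • y - e0) + e0

theorem parPhi_cd {k θ : ℝ → ℝ} (hk : ContDiff ℝ 1 k) (hθ : ContDiff ℝ 1 θ) (y e0 : E4) :
    ContDiff ℝ 1 (parPhi k θ y e0) := by
  unfold parPhi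
  have h1 : ContDiff ℝ 1 fun a : (E4 × ℝ × E4 × ℝ) × E4 × ℝ × E4 × ℝ => ‖a.1.1 - a.2.1‖ ^ 2 :=
    ContDiff.norm_sq ℝ (by fun_prop)
  have h2 : ContDiff ℝ 1 fun a : (E4 × ℝ × E4 × ℝ) × E4 × ℝ × E4 × ℝ =>
      k (‖a.1.1 - a.2.1‖ ^ 2 + (a.1.2.1 - a.2.2.1) ^ 2) := hk.comp (h1.add (by fun_prop))
  have h3 : ContDiff ℝ 1 fun a : (E4 × ℝ × E4 × ℝ) × E4 × ℝ × E4 × ℝ =>
      θ (a.1.2.1 - a.2.2.1) := hθ.comp (by fun_prop)
  fun_prop

theorem parity [T2Space M] [CompactSpace M] {f s : M → E4} {t : M → ℝ} (hf : Sm f) (hs : Sm s)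
    (ht : Sm t) (hE : ∀ x x', f x = f x' → t x = t x' → x = x') {C : Set M} (hC : IsClopen C)
    (h : ∀ p ∈ C, Ind (dM f p) (s p) ∨ (s p = 0 ∧ Tr (dM f p) (dM s p))) :
    Even {p | p ∈ C ∧ s p = 0}.ncard := by
  have cf : Continuous f := hf.continuous
  have ct : Continuous t := ht.continuous
  obtain ⟨ρ, hρ, hN⟩ := near_unif hf hs ct hE hC.isClosed h
  obtain ⟨δ, hδ, rfl⟩ : ∃ δ : ℝ, 0 < δ ∧ ρ = 2 * δ := ⟨ρ / 2, by positivity, by ring⟩
  obtain ⟨k, θ, hk, hθ, k01, k1, k0, θ1, θ0, θp, θm⟩ := exists_cut hδ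
  have hW : IsCompact {q : M × M | q.1 ∈ C ∧ q.2 ∈ C ∧ δ ≤ |t q.1 - t q.2| ∧
      |t q.1 - t q.2| ≤ 2 * δ} := by
    refine IsClosed.isCompact ((hC.isClosed.preimage continuous_fst).inter
      ((hC.isClosed.preimage continuous_snd).inter (IsClosed.inter ?_ ?_)))
    · exact isClosed_le (f := fun _ : M × M => δ) (g := fun q => |t q.1 - t q.2|)
        continuous_const (by fun_prop)
    · exact isClosed_le (g := fun _ : M × M => 2 * δ) (f := fun q => |t q.1 - t q.2|)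
        (by fun_prop) continuous_const
  obtain ⟨c, hc, hcW⟩ := hW.exists_forall_le' (f := fun q : M × M => ‖f q.1 - f q.2‖) (a := 0)
    (by fun_prop) (by
      rintro ⟨x, x'⟩ ⟨hx, hx', h1, h2⟩
      refine norm_pos_iff.2 fun h0 => ?_
      have := hN x hx x' hx' (by simp only at h0; rw [h0]; simp; positivity) h2 0
        ⟨le_rfl, zero_le_one⟩ (by simpa using h0)
      subst this
      simp at h1
      linarith)
  obtain ⟨y, hy, hreg⟩ := exists_reg_diff hf hc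
  set e0 : E4 := EuclideanSpace.single 0 1 with he0
  have he0' : e0 ≠ 0 := fun h0 => by simpa [he0] using congrArg (fun v : E4 => v 0) h0
  set G : M → E4 × ℝ × E4 × ℝ := fun p => (f p, t p, s p, C.indicator (fun _ => (1 : ℝ)) p)
    with hGd
  have hG : Sm G := ContMDiff.prodMk_space hf (ContMDiff.prodMk_space ht
    (ContMDiff.prodMk_space hs (sm_indicator hC)))
  have vin : ∀ x ∈ C, ∀ x' ∈ C, parPhi k θ y e0 (G x, G x') = f x - f x' -
      k (‖f x - f x'‖ ^ 2 + (t x - t x') ^ 2) • s x' - θ (t x - t x') • y := by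
    intro x hx x' hx'
    simp [parPhi, hGd, indicator_of_mem hx, indicator_of_mem hx']
  have vout : ∀ x x', parPhi k θ y e0 (G x, G x') = 0 → x ∈ C ∧ x' ∈ C := by
    intro x x' h0
    by_contra hn
    rcases not_and_or.1 hn with hx | hx <;>
      simp [parPhi, hGd, indicator_of_notMem hx, he0'] at h0
  have kbig : ∀ (a u : ℝ), δ ≤ |u| → k (a ^ 2 + u ^ 2) = 0 := fun a u hu =>
    k0 _ (by nlinarith [sq_abs u, sq_nonneg a])
  have vp : ∀ x ∈ C, ∀ x' ∈ C, 2 * δ < t x - t x' →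
      parPhi k θ y e0 (G x, G x') = f x - (f x' + y) := by
    intro x hx x' hx' h1
    rw [vin x hx x' hx', kbig _ _ (by rw [abs_of_pos (by linarith)]; linarith), θp _ h1.le]
    simp [sub_sub]
  have vm : ∀ x ∈ C, ∀ x' ∈ C, 2 * δ < t x' - t x →
      parPhi k θ y e0 (G x, G x') = f x - (f x' + -y) := by
    intro x hx x' hx' h1
    rw [vin x hx x' hx', kbig _ _ (by rw [abs_of_neg (by linarith)]; linarith),
      θm _ (by linarith)]
    simp only [zero_smul, sub_zero, neg_smul, one_smul]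
    abel
  have vd : ∀ x ∈ C, ∀ x' ∈ C, ‖f x - f x'‖ ^ 2 + (t x - t x') ^ 2 < δ ^ 2 / 2 →
      parPhi k θ y e0 (G x, G x') = f x - (f x' + s x') := by
    intro x hx x' hx' h1
    rw [vin x hx x' hx', k1 _ h1.le, θ0 _ (abs_le_of_sq_le_sq' (by nlinarith [sq_nonneg ‖f x - f x'‖])
      hδ.le |> abs_le.2)]
    simp [sub_sub]
  have cls : ∀ x x', parPhi k θ y e0 (G x, G x') = 0 → (x = x' ∧ s x = 0) ∨
      (2 * δ < t x - t x' ∧ f x - f x' = y) ∨ (2 * δ < t x' - t x ∧ f x' - f x = y) := by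
    intro x x' h0
    obtain ⟨hx, hx'⟩ := vout x x' h0
    by_cases h1 : 2 * δ < t x - t x'
    · rw [vp x hx x' hx' h1] at h0
      exact Or.inr (Or.inl ⟨h1, by rw [sub_eq_zero.1 h0]; simp⟩)
    by_cases h2 : 2 * δ < t x' - t x
    · rw [vm x hx x' hx' h2] at h0
      exact Or.inr (Or.inr ⟨h2, by rw [sub_eq_zero.1 h0]; simp⟩)
    have h3 : |t x - t x'| ≤ 2 * δ := abs_le.2 ⟨by linarith, by linarith⟩
    have h0' := h0
    rw [vin x hx x' hx'] at h0
    by_cases h4 : δ ≤ |t x - t x'|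
    · rw [kbig _ _ h4, zero_smul, sub_zero, sub_eq_zero] at h0
      have h5 := hcW (x, x') ⟨hx, hx', h4, h3⟩
      simp only [h0, norm_smul, Real.norm_eq_abs] at h5
      nlinarith [θ1 (t x - t x'), norm_nonneg y]
    · rw [θ0 _ (not_le.1 h4).le, zero_smul, sub_zero, sub_eq_zero] at h0
      have h5 : ‖f x - f x'‖ ≤ 2 * δ := by
        by_cases h6 : δ ^ 2 ≤ ‖f x - f x'‖ ^ 2 + (t x - t x') ^ 2
        · rw [h0, k0 _ h6]; simp; positivity
        · nlinarith [sq_nonneg (t x - t x'), norm_nonneg (f x - f x')]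
      obtain rfl := hN x hx x' hx' h5 h3 _ (k01 _) h0
      rw [vd x hx x hx (by simp; positivity)] at h0'
      exact Or.inl ⟨rfl, by simpa using h0'⟩
  have hCC : ∀ x ∈ C, ∀ x' ∈ C, ∀ᶠ q : M × M in 𝓝 (x, x'), q.1 ∈ C ∧ q.2 ∈ C :=
    fun x hx x' hx' => (hC.isOpen.prod hC.isOpen).mem_nhds ⟨hx, hx'⟩
  obtain ⟨hfin, hev⟩ := even_prod hG (parPhi_cd hk hθ y e0) (by
    intro x x' h0
    obtain ⟨hx, hx'⟩ := vout x x' h0
    rcases cls x x' h0 with ⟨rfl, h1⟩ | ⟨h1, h2⟩ | ⟨h1, h2⟩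
    · refine ⟨f, fun q => f q + s q, hf, hf.add hs, ?_, ?_⟩
      · have h2 : ∀ᶠ q : M × M in 𝓝 (x, x),
            ‖f q.1 - f q.2‖ ^ 2 + (t q.1 - t q.2) ^ 2 < δ ^ 2 / 2 :=
          (isOpen_lt (by fun_prop) continuous_const).mem_nhds (by simp; positivity)
        filter_upwards [hCC x hx x hx, h2] with q hq hq' using vd _ hq.1 _ hq.2 hq'
      · rw [dM_add hf hs]
        rcases h x hx with h2 | h2
        · exact (parity_not_ind _ (h1 ▸ h2)).elim
        · exact parity_tr h2.2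
    · refine ⟨f, fun q => f q + y, hf, hf.add contMDiff_const, ?_, ?_⟩
      · have h3 : ∀ᶠ q : M × M in 𝓝 (x, x'), 2 * δ < t q.1 - t q.2 :=
          (isOpen_lt continuous_const (by fun_prop)).mem_nhds h1
        filter_upwards [hCC x hx x' hx', h3] with q hq hq' using vp _ hq.1 _ hq.2 hq'
      · rw [dM_add_const hf]
        exact hreg x x' h2
    · refine ⟨f, fun q => f q + -y, hf, hf.add contMDiff_const, ?_, ?_⟩
      · have h3 : ∀ᶠ q : M × M in 𝓝 (x, x'), 2 * δ < t q.2 - t q.1 :=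
          (isOpen_lt continuous_const (by fun_prop)).mem_nhds h1
        filter_upwards [hCC x hx x' hx', h3] with q hq hq' using vm _ hq.1 _ hq.2 hq'
      · rw [dM_add_const hf]
        exact parity_symm (hreg x' x h2))
  refine even_of_swap (S := {q : M × M | q.1 ∈ C ∧ q.2 ∈ C ∧ 2 * δ < t q.1 - t q.2 ∧
    f q.1 - f q.2 = y}) hfin hev ?_ ?_
  · ext ⟨x, x'⟩
    constructor
    · intro h0
      obtain ⟨hx, hx'⟩ := vout x x' h0
      rcases cls x x' h0 with ⟨rfl, h1⟩ | ⟨h1, h2⟩ | ⟨h1, h2⟩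
      · exact Or.inl (Or.inl ⟨x, ⟨hx, h1⟩, rfl⟩)
      · exact Or.inl (Or.inr ⟨hx, hx', h1, h2⟩)
      · exact Or.inr ⟨(x', x), ⟨hx', hx, h1, h2⟩, rfl⟩
    · rintro ((⟨p, ⟨hp, h1⟩, e⟩ | ⟨hx, hx', h1, h2⟩) | ⟨⟨a, b⟩, ⟨ha, hb, h1, h2⟩, e⟩)
      · obtain ⟨rfl, rfl⟩ := Prod.ext_iff.1 e
        show parPhi k θ y e0 (G p, G p) = 0
        rw [vd p hp p hp (by simp; positivity), h1]
        simp
      · show parPhi k θ y e0 (G x, G x') = 0
        rw [vp x hx x' hx' h1, ← h2]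
        simp
      · obtain ⟨rfl, rfl⟩ := Prod.ext_iff.1 e
        show parPhi k θ y e0 (G b, G a) = 0
        rw [vm b hb a ha h1, ← h2]
        simp
  · rintro ⟨a, b⟩ ⟨-, -, h1, -⟩
    refine ⟨fun e => ?_, fun e => ?_⟩
    · simp only at e h1
      rw [e] at h1
      linarith
    · have := e.2.2.1
      simp only [Prod.fst_swap, Prod.snd_swap] at this h1
      linarith

end Vale.Agent.P205.T
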