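import Vale.Agent.P205.T.DegPar

/-!
P205 T/Step (about 110 lines): a change inside one chart keeps the parity of the number of zeros.
`K' = c '' K` is compact in the open set `O = c.target \ c '' ((Ψ ⁻¹' {0} \ K) ∩ c.source)`
(finite sets are closed, `c` is injective on its source).
Take `δ > 0` with `cthickening δ K' ⊆ O` (`IsCompact.exists_cthickening_subset_open`),
`Ω = thickening δ K'` (open, bounded, `closure_thickening_subset_cthickening`). A point `z` of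
`closure Ω` with `c.symm z ∉ K` has `Ψ (c.symm z) = Φ (c.symm z) ≠ 0`; frontier points are not in `K'`.
`deg_parity` for `Ψ ∘ c.symm`, `Φ ∘ c.symm`; the zeros in `Ω` are `c '' (K ∩ Ψ ⁻¹' {0})`
(`Set.ncard_image_of_injOn`); `Ψ ⁻¹' {0} \ K = Φ ⁻¹' {0} \ K`; `Set.ncard_inter_add_ncard_diff_eq_ncard`,
`Nat.even_add`.
-/

open scoped Manifold ContDiff Topology RealInnerProductSpace
open Set Filter Metric Function

noncomputable section

namespace Vale.Agent.P205.T

variable {E : Type} [NormedAddCommGroup E] [NormedSpace ℝ E] [FiniteDimensional ℝ E]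
variable {X : Type*} [TopologicalSpace X]

theorem step_parity (c : OpenPartialHomeomorph X E) {K : Set X} (hK : IsCompact K)
    (hKc : K ⊆ c.source) {Ψ Φ : X → E} (hΨ : ContDiffOn ℝ 1 (Ψ ∘ c.symm) c.target)
    (hΦ : ContDiffOn ℝ 1 (Φ ∘ c.symm) c.target) (he : ∀ x ∉ K, Ψ x = Φ x)
    (fΨ : (Ψ ⁻¹' {0}).Finite) (fΦ : (Φ ⁻¹' {0}).Finite)
    (rΨ : ∀ z ∈ c.target, Ψ (c.symm z) = 0 → (fderiv ℝ (Ψ ∘ c.symm) z).det ≠ 0)
    (rΦ : ∀ z ∈ c.target, Φ (c.symm z) = 0 → (fderiv ℝ (Φ ∘ c.symm) z).det ≠ 0) :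
    Even (Ψ ⁻¹' {0}).ncard ↔ Even (Φ ⁻¹' {0}).ncard := by
  have hK' : IsCompact (c '' K) := hK.image_of_continuousOn (c.continuousOn.mono hKc)
  have hfin : (c '' ((Ψ ⁻¹' {0} \ K) ∩ c.source)).Finite :=
    ((fΨ.subset sdiff_subset).inter_of_left _).image _
  have hO : IsOpen (c.target \ c '' ((Ψ ⁻¹' {0} \ K) ∩ c.source)) :=
    c.open_target.sdiff hfin.isClosed
  have hsub : c '' K ⊆ c.target \ c '' ((Ψ ⁻¹' {0} \ K) ∩ c.source) := by
    rintro _ ⟨x, hx, rfl⟩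
    refine ⟨c.map_source (hKc hx), ?_⟩
    rintro ⟨y, ⟨⟨-, h1⟩, h2⟩, e⟩
    exact h1 (c.injOn h2 (hKc hx) e ▸ hx)
  obtain ⟨δ, hδ, hth⟩ := hK'.exists_cthickening_subset_open hO hsub
  have hcl : closure (thickening δ (c '' K)) ⊆ c.target \ c '' ((Ψ ⁻¹' {0} \ K) ∩ c.source) :=
    (closure_thickening_subset_cthickening δ _).trans hth
  have hKΩ : c '' K ⊆ thickening δ (c '' K) := self_subset_thickening hδ _
  have ho : IsOpen (thickening δ (c '' K)) := isOpen_thickening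
  have hb : Bornology.IsBounded (thickening δ (c '' K)) := hK'.isBounded.thickening
  generalize thickening δ (c '' K) = Ω at hcl hKΩ ho hb
  have ht : closure Ω ⊆ c.target := fun z hz => (hcl hz).1
  have ht' : Ω ⊆ c.target := subset_closure.trans ht
  have hne : ∀ z ∈ closure Ω, c.symm z ∉ K → Ψ (c.symm z) ≠ 0 := fun z hz hk h0 =>
    (hcl hz).2 ⟨c.symm z, ⟨⟨h0, hk⟩, c.map_target (ht hz)⟩, c.right_inv (ht hz)⟩
  have cnt : ∀ Θ : X → E, (∀ z ∈ Ω, Θ (c.symm z) = 0 → c.symm z ∈ K) →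
      {z | z ∈ Ω ∧ (Θ ∘ c.symm) z = 0} = c '' (Θ ⁻¹' {0} ∩ K) := fun Θ h => by
    ext z
    constructor
    · rintro ⟨h1, h2⟩
      exact ⟨c.symm z, ⟨h2, h z h1 h2⟩, c.right_inv (ht' h1)⟩
    · rintro ⟨x, ⟨h1, h2⟩, rfl⟩
      refine ⟨hKΩ ⟨x, h2, rfl⟩, ?_⟩
      rw [comp_apply, c.left_inv (hKc h2)]
      exact h1
  have c1 := cnt Ψ fun z hz h0 => by
    by_contra hk
    exact hne z (subset_closure hz) hk h0
  have c2 := cnt Φ fun z hz h0 => by
    by_contra hk
    exact hne z (subset_closure hz) hk ((he _ hk).trans h0)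
  have key := deg_parity ho hb (hΨ.mono ht') (hΨ.continuousOn.mono ht) (hΦ.mono ht')
    (hΦ.continuousOn.mono ht)
    (fun z hz => by
      have hz' := frontier_subset_closure hz
      have hk : c.symm z ∉ K := fun hk => by
        rw [ho.frontier_eq] at hz
        exact hz.2 (hKΩ ⟨c.symm z, hk, c.right_inv (ht hz')⟩)
      exact ⟨he _ hk, hne z hz' hk⟩)
    (by rw [c1]; exact (fΨ.inter_of_left _).image _)
    (by rw [c2]; exact (fΦ.inter_of_left _).image _)
    (fun z hz => rΨ z (ht' hz)) (fun z hz => rΦ z (ht' hz))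
  rw [c1, c2, InjOn.ncard_image (c.injOn.mono (inter_subset_right.trans hKc)),
    InjOn.ncard_image (c.injOn.mono (inter_subset_right.trans hKc))] at key
  have e : Ψ ⁻¹' {0} \ K = Φ ⁻¹' {0} \ K := by
    ext x
    simp only [Set.mem_sdiff, mem_preimage, mem_singleton_iff]
    exact and_congr_left fun hx => by rw [he x hx]
  rw [← ncard_inter_add_ncard_sdiff_eq_ncard (Ψ ⁻¹' {0}) K fΨ,
    ← ncard_inter_add_ncard_sdiff_eq_ncard (Φ ⁻¹' {0}) K fΦ, Nat.even_add, Nat.even_add, e, key]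

end Vale.Agent.P205.T
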